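import Vale.Agent.P371.Defs

/-!
# P371 : calculus of locally absolutely continuous functions
-/

namespace P371

open MeasureTheory Set Filter Topology

namespace IsPrim

variable {f f' g g' : ℝ → ℝ}

lemma eq_add (hf : IsPrim f f') (a : ℝ) : f = fun x => f a + ∫ t in a..x, f' t := by
  funext x
  rw [← hf.2 a x]; ring

lemma continuous (hf : IsPrim f f') : Continuous f := by
  rw [hf.eq_add 0]
  exact continuous_const.add (intervalIntegral.continuous_primitive hf.1 0)

lemma ac (hf : IsPrim f f') (a b : ℝ) : AbsolutelyContinuousOnInterval f a b := by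
  rw [hf.eq_add a]
  have h1 := (hf.1 a b).absolutelyContinuousOnInterval_intervalIntegral (c := a) (by simp)
  have h2 : AbsolutelyContinuousOnInterval (fun _ : ℝ => f a) a b :=
    (LipschitzWith.const (f a)).lipschitzOnWith.absolutelyContinuousOnInterval
  exact h2.fun_add h1

lemma ae_hasDerivAt (hf : IsPrim f f') (a b : ℝ) :
    ∀ᵐ x, x ∈ uIcc a b → HasDerivAt f (f' x) x := by
  filter_upwards [(hf.1 a b).ae_hasDerivAt_integral] with x hx hxm
  have h := hx hxm a (by simp)
  have h2 := h.const_add (f a)
  have h3 := hf.eq_add a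
  rw [h3]
  exact h2

lemma congr_deriv {h : ℝ → ℝ} (hf : IsPrim f f') (e : ∀ x, f' x = h x) : IsPrim f h := by
  have : f' = h := funext e
  rwa [this] at hf

lemma congr_fun {h : ℝ → ℝ} (hf : IsPrim f f') (e : ∀ x, f x = h x) : IsPrim h f' := by
  have : f = h := funext e
  rwa [this] at hf

lemma const (c : ℝ) : IsPrim (fun _ => c) (fun _ => 0) :=
  ⟨fun a b => by simp, fun a b => by simp⟩

lemma add (hf : IsPrim f f') (hg : IsPrim g g') :
    IsPrim (fun x => f x + g x) (fun x => f' x + g' x) :=
  ⟨fun a b => (hf.1 a b).add (hg.1 a b), fun a b => by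
    rw [intervalIntegral.integral_add (hf.1 a b) (hg.1 a b), ← hf.2, ← hg.2]; ring⟩

lemma const_mul (c : ℝ) (hf : IsPrim f f') : IsPrim (fun x => c * f x) (fun x => c * f' x) :=
  ⟨fun a b => (hf.1 a b).const_mul c, fun a b => by
    rw [intervalIntegral.integral_const_mul, ← hf.2]; ring⟩

lemma sum {α : Type*} (s : Finset α) {F F' : α → ℝ → ℝ} (h : ∀ i ∈ s, IsPrim (F i) (F' i)) :
    IsPrim (fun x => ∑ i ∈ s, F i x) (fun x => ∑ i ∈ s, F' i x) := by
  classical
  induction s using Finset.induction_on with
  | empty => simpa using IsPrim.const 0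
  | insert a s ha ih =>
    have h1 := (h a (Finset.mem_insert_self a s)).add
      (ih fun i hi => h i (Finset.mem_insert_of_mem hi))
    refine (h1.congr_fun fun x => ?_).congr_deriv fun x => ?_
    · rw [Finset.sum_insert ha]
    · rw [Finset.sum_insert ha]

lemma mul (hf : IsPrim f f') (hg : IsPrim g g') :
    IsPrim (fun x => f x * g x) (fun x => f' x * g x + f x * g' x) := by
  refine ⟨fun a b => ?_, fun a b => ?_⟩
  · exact ((hf.1 a b).mul_continuousOn hg.continuous.continuousOn).add
      ((hg.1 a b).continuousOn_mul hf.continuous.continuousOn)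
  · rw [← AbsolutelyContinuousOnInterval.integral_deriv_mul_eq_sub (hf.ac a b) (hg.ac a b)]
    apply intervalIntegral.integral_congr_ae
    filter_upwards [hf.ae_hasDerivAt a b, hg.ae_hasDerivAt a b] with x h1 h2 hx
    have hx' : x ∈ uIcc a b := uIoc_subset_uIcc hx
    rw [(h1 hx').deriv, (h2 hx').deriv]

end IsPrim

end P371
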