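import Mathlib

/-!
# Brouwer's fixed point theorem and the Poincaré-Bohl theorem in finite-dimensional normed spaces

The proof is the analytic one of Milnor and Rogers.
-/

namespace P371

open Set Metric MeasureTheory Module Filter Topology
open scoped Polynomial ENNReal

section Det
variable {E : Type*} [NormedAddCommGroup E] [NormedSpace ℝ E] [FiniteDimensional ℝ E]

/-- `det (1 + t A)` is a polynomial in `t` of degree at most the dimension. -/
theorem exists_poly_det (A : E →ₗ[ℝ] E) :
    ∃ p : ℝ[X], p.natDegree ≤ finrank ℝ E ∧ ∀ t : ℝ, p.eval t = LinearMap.det (1 + t • A) := by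
  set b := finBasis ℝ E
  set M := LinearMap.toMatrix b b A with hM
  refine ⟨Matrix.det ((Polynomial.X : ℝ[X]) • M.map Polynomial.C +
    (1 : Matrix (Fin (finrank ℝ E)) (Fin (finrank ℝ E)) ℝ).map Polynomial.C), ?_, ?_⟩
  · have := Polynomial.natDegree_det_X_add_C_le M
      (1 : Matrix (Fin (finrank ℝ E)) (Fin (finrank ℝ E)) ℝ)
    simpa using this
  · intro t
    have e : LinearMap.toMatrix b b (1 + t • A) = 1 + t • M := by
      rw [map_add, LinearMap.toMatrix_one, map_smul]
    rw [← Polynomial.coe_evalRingHom, RingHom.map_det, ← LinearMap.det_toMatrix b, e]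
    congr 1
    ext i j
    simp only [RingHom.mapMatrix_apply, Matrix.map_apply, Matrix.add_apply, Matrix.smul_apply,
      smul_eq_mul, Polynomial.coe_evalRingHom, Polynomial.eval_add, Polynomial.eval_mul,
      Polynomial.eval_X, Polynomial.eval_C]
    ring

/-- Lagrange interpolation of the determinant. -/
theorem det_interp (v : ℕ → ℝ) (hv : Function.Injective v) (A : E →L[ℝ] E) (t : ℝ) :
    (1 + t • A : E →L[ℝ] E).det = ∑ i ∈ Finset.range (finrank ℝ E + 1),
      (Lagrange.basis (Finset.range (finrank ℝ E + 1)) v i).eval t *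
        (1 + v i • A : E →L[ℝ] E).det := by
  obtain ⟨p, hp, hpe⟩ := exists_poly_det (A : E →ₗ[ℝ] E)
  have key : ∀ s : ℝ, (1 + s • A : E →L[ℝ] E).det = p.eval s := fun s => by
    rw [hpe]
    rfl
  have h := Lagrange.eq_interpolate (f := p) (s := Finset.range (finrank ℝ E + 1)) (v := v)
    hv.injOn (by
      rw [Finset.card_range]
      refine lt_of_le_of_lt Polynomial.degree_le_natDegree ?_
      exact_mod_cast Nat.lt_succ_of_le hp)
  rw [key]
  conv_lhs => rw [h]
  rw [Lagrange.interpolate_apply, Polynomial.eval_finsetSum]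
  refine Finset.sum_congr rfl fun i _ => ?_
  rw [Polynomial.eval_mul, Polynomial.eval_C, key, mul_comm]

/-- `det (1 + A) > 0` if `‖A‖ < 1`. -/
theorem det_pos_of_norm_lt (A : E →L[ℝ] E) (hA : ‖A‖ < 1) : 0 < (1 + A : E →L[ℝ] E).det := by
  have hne : ∀ s ∈ Icc (0 : ℝ) 1, (1 + s • A : E →L[ℝ] E).det ≠ 0 := by
    intro s hs h0
    have h1 := LinearMap.bot_lt_ker_of_det_eq_zero
      (f := ((1 + s • A : E →L[ℝ] E) : E →ₗ[ℝ] E)) h0
    obtain ⟨x, hx, hx0⟩ := Submodule.exists_mem_ne_zero_of_ne_bot (ne_of_gt h1)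
    rw [LinearMap.mem_ker] at hx
    have hx' : x + s • A x = 0 := by simpa using hx
    have h2 : ‖x‖ = ‖s • A x‖ := by
      have : x = -(s • A x) := eq_neg_of_add_eq_zero_left hx'
      conv_lhs => rw [this]
      rw [norm_neg]
    have h3 : ‖s • A x‖ ≤ ‖A‖ * ‖x‖ := by
      rw [norm_smul]
      calc ‖s‖ * ‖A x‖ ≤ 1 * ‖A x‖ := by
            gcongr
            rw [Real.norm_eq_abs, abs_of_nonneg hs.1]
            exact hs.2
        _ ≤ ‖A‖ * ‖x‖ := by rw [one_mul]; exact A.le_opNorm x
    have h4 : 0 < ‖x‖ := norm_pos_iff.mpr hx0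
    nlinarith
  have hcont : Continuous fun s : ℝ => (1 + s • A : E →L[ℝ] E).det := by
    obtain ⟨p, -, hpe⟩ := exists_poly_det (A : E →ₗ[ℝ] E)
    have : (fun s : ℝ => (1 + s • A : E →L[ℝ] E).det) = fun s => p.eval s := by
      funext s
      rw [hpe]
      rfl
    rw [this]
    exact p.continuous
  by_contra hneg
  push Not at hneg
  have h0 : (1 + (0 : ℝ) • A : E →L[ℝ] E).det = 1 := by
    simp [ContinuousLinearMap.det]
  have hivt := intermediate_value_Icc' (zero_le_one (α := ℝ)) hcont.continuousOn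
  have : (0 : ℝ) ∈ Icc ((1 + (1 : ℝ) • A : E →L[ℝ] E).det) ((1 + (0 : ℝ) • A : E →L[ℝ] E).det) := by
    constructor
    · simpa using hneg
    · rw [h0]; norm_num
  obtain ⟨s, hs, hs0⟩ := hivt this
  exact hne s hs hs0

end Det

section Retr
variable {E : Type*} [NormedAddCommGroup E] [InnerProductSpace ℝ E] [FiniteDimensional ℝ E]

omit [FiniteDimensional ℝ E] in
theorem lip_aux {C : ℝ} (hC : 0 ≤ C) {g : E → E}
    (hg : ∀ x ∈ closedBall (0 : E) 1, ∀ y ∈ closedBall (0 : E) 1, ‖g y - g x‖ ≤ C * ‖y - x‖)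
    (h0 : ∀ x, ‖x‖ = 1 → g x = 0) (x y : E) (hy : ‖y‖ < 1) (hx : 1 ≤ ‖x‖) :
    ‖g y‖ ≤ C * ‖y - x‖ := by
  have hcont : Continuous fun s : ℝ => ‖y + s • (x - y)‖ := by fun_prop
  have hivt := intermediate_value_Icc (zero_le_one (α := ℝ)) hcont.continuousOn
  have h1 : (1 : ℝ) ∈ Icc ‖y + (0 : ℝ) • (x - y)‖ ‖y + (1 : ℝ) • (x - y)‖ := by
    constructor
    · simpa using hy.le
    · simpa using hx
  obtain ⟨s, hs, hs1⟩ := hivt h1
  simp only at hs1
  have h2 := hg (y + s • (x - y)) (by simp [hs1]) y (by simpa using hy.le)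
  rw [h0 _ hs1, sub_zero] at h2
  refine h2.trans ?_
  gcongr
  have : y - (y + s • (x - y)) = s • (y - x) := by
    rw [sub_add_cancel_left, ← smul_neg, neg_sub]
  rw [this, norm_smul, Real.norm_eq_abs, abs_of_nonneg hs.1]
  exact mul_le_of_le_one_left (norm_nonneg _) hs.2

omit [FiniteDimensional ℝ E] in
theorem lip_ext {C : ℝ} (hC : 0 ≤ C) {g : E → E}
    (hg : ∀ x ∈ closedBall (0 : E) 1, ∀ y ∈ closedBall (0 : E) 1, ‖g y - g x‖ ≤ C * ‖y - x‖)
    (h0 : ∀ x, ‖x‖ = 1 → g x = 0) (x y : E) :
    ‖(if ‖y‖ < 1 then g y else 0) - (if ‖x‖ < 1 then g x else 0)‖ ≤ C * ‖y - x‖ := by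
  split_ifs with h1 h2 h2
  · exact hg x (by simpa using h2.le) y (by simpa using h1.le)
  · rw [sub_zero]
    exact lip_aux hC hg h0 x y h1 (not_lt.mp h2)
  · rw [zero_sub, norm_neg, norm_sub_rev]
    exact lip_aux hC hg h0 y x h2 (not_lt.mp h1)
  · simp only [sub_self, norm_zero]
    positivity

theorem no_retraction (r : E → E) (r' : E → E →L[ℝ] E)
    (hr : ∀ x ∈ closedBall (0 : E) 1, HasFDerivAt r (r' x) x)
    (hc : ContinuousOn r' (closedBall 0 1)) (h1 : ∀ x ∈ closedBall (0 : E) 1, ‖r x‖ = 1)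
    (h2 : ∀ x, ‖x‖ = 1 → r x = x) : False := by
  borelize E
  set μ : Measure E := Measure.addHaar with hμ
  -- the displacement
  set A : E → E →L[ℝ] E := fun x => r' x - 1 with hA
  set g : E → E := fun x => r x - x with hg
  have hgd : ∀ x ∈ closedBall (0 : E) 1, HasFDerivAt g (A x) x := fun x hx =>
    (hr x hx).sub (hasFDerivAt_id x)
  have hAc : ContinuousOn A (closedBall 0 1) := hc.sub continuousOn_const
  obtain ⟨C0, hC0⟩ := (isCompact_closedBall (0 : E) 1).exists_bound_of_continuousOn hAc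
  set C : ℝ := max C0 1 with hCdef
  have hC1 : 1 ≤ C := le_max_right _ _
  have hC : ∀ x ∈ closedBall (0 : E) 1, ‖A x‖ ≤ C := fun x hx => (hC0 x hx).trans (le_max_left _ _)
  have hlip : ∀ x ∈ closedBall (0 : E) 1, ∀ y ∈ closedBall (0 : E) 1,
      ‖g y - g x‖ ≤ C * ‖y - x‖ := fun x hx y hy =>
    (convex_closedBall (0 : E) 1).norm_image_sub_le_of_norm_hasFDerivWithin_le
      (fun z hz => (hgd z hz).hasFDerivWithinAt) hC hx hy
  have hg0 : ∀ x, ‖x‖ = 1 → g x = 0 := fun x hx => by simp [hg, h2 x hx]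
  have hext := lip_ext (by linarith) hlip hg0
  have hbc : ball (0 : E) 1 ⊆ closedBall 0 1 := ball_subset_closedBall
  -- small parameters
  have hsmall : ∀ t : ℝ, 0 < t → t * C ≤ 1 / 2 →
      ∫ x in ball (0 : E) 1, (1 + t • A x : E →L[ℝ] E).det ∂μ = μ.real (ball (0 : E) 1) := by
    intro t ht htC
    have ht1 : t < 1 := by nlinarith
    have hder : ∀ x ∈ ball (0 : E) 1,
        HasFDerivWithinAt (fun x => x + t • g x) (1 + t • A x : E →L[ℝ] E) (ball 0 1) x := by
      intro x hx
      exact ((hasFDerivAt_id x).add ((hgd x (hbc hx)).const_smul t)).hasFDerivWithinAt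
    have hinj : InjOn (fun x => x + t • g x) (ball (0 : E) 1) := by
      intro x hx y hy hxy
      simp only at hxy
      have h3 : y - x = -(t • (g y - g x)) := by
        rw [smul_sub]
        have := sub_eq_zero.mpr hxy
        rw [← sub_eq_zero]
        rw [← neg_eq_zero, ← this]
        abel
      have h4 : ‖y - x‖ ≤ 1 / 2 * ‖y - x‖ := by
        calc ‖y - x‖ = ‖t • (g y - g x)‖ := by rw [h3, norm_neg]
          _ = t * ‖g y - g x‖ := by rw [norm_smul, Real.norm_eq_abs, abs_of_pos ht]
          _ ≤ t * (C * ‖y - x‖) := by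
              gcongr
              exact hlip x (hbc hx) y (hbc hy)
          _ ≤ 1 / 2 * ‖y - x‖ := by
              rw [← mul_assoc]
              gcongr
      have h5 : ‖y - x‖ = 0 := by
        have := norm_nonneg (y - x)
        linarith
      exact (sub_eq_zero.mp (norm_eq_zero.mp h5)).symm
    have himg : (fun x => x + t • g x) '' ball (0 : E) 1 = ball 0 1 := by
      apply Subset.antisymm
      · rintro _ ⟨x, hx, rfl⟩
        rw [mem_ball_zero_iff] at hx ⊢
        have h3 : x + t • g x = (1 - t) • x + t • r x := by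
          simp only [hg, smul_sub, sub_smul, one_smul]
          abel
        simp only [h3]
        calc ‖(1 - t) • x + t • r x‖ ≤ ‖(1 - t) • x‖ + ‖t • r x‖ := norm_add_le _ _
          _ = (1 - t) * ‖x‖ + t * 1 := by
              rw [norm_smul, norm_smul, Real.norm_eq_abs, Real.norm_eq_abs, abs_of_pos ht,
                abs_of_pos (by linarith), h1 x (by simpa using hx.le)]
          _ < 1 := by nlinarith
      · intro y hy
        have hcontr : ContractingWith (1 / 2 : NNReal)
            (fun x => y - t • (if ‖x‖ < 1 then g x else 0)) := by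
          refine ⟨by
            rw [← NNReal.coe_lt_coe]
            norm_num, ?_⟩
          refine LipschitzWith.of_dist_le_mul fun x z => ?_
          rw [dist_eq_norm, dist_eq_norm]
          have h3 : y - t • (if ‖x‖ < 1 then g x else 0) - (y - t • (if ‖z‖ < 1 then g z else 0)) =
              -(t • ((if ‖x‖ < 1 then g x else 0) - (if ‖z‖ < 1 then g z else 0))) := by
            rw [smul_sub]
            abel
          rw [h3, norm_neg, norm_smul, Real.norm_eq_abs, abs_of_pos ht]
          calc t * ‖(if ‖x‖ < 1 then g x else 0) - (if ‖z‖ < 1 then g z else 0)‖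
              ≤ t * (C * ‖x - z‖) := by
                gcongr
                exact hext z x
            _ ≤ 1 / 2 * ‖x - z‖ := by
                rw [← mul_assoc]
                gcongr
            _ = ((1 / 2 : NNReal) : ℝ) * ‖x - z‖ := by norm_num
        obtain ⟨x, hx⟩ : ∃ x, y - t • (if ‖x‖ < 1 then g x else 0) = x :=
          ⟨hcontr.fixedPoint, hcontr.fixedPoint_isFixedPt⟩
        by_cases hx1 : ‖x‖ < 1
        · refine ⟨x, by simpa using hx1, ?_⟩
          simp only [if_pos hx1] at hx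
          rw [sub_eq_iff_eq_add] at hx
          exact hx.symm
        · exfalso
          rw [if_neg hx1, smul_zero, sub_zero] at hx
          rw [mem_ball_zero_iff, hx] at hy
          exact hx1 hy
    have hpos : ∀ x ∈ ball (0 : E) 1, 0 < (1 + t • A x : E →L[ℝ] E).det := by
      intro x hx
      apply det_pos_of_norm_lt
      rw [norm_smul, Real.norm_eq_abs, abs_of_pos ht]
      calc t * ‖A x‖ ≤ t * C := by
            gcongr
            exact hC x (hbc hx)
        _ < 1 := by linarith
    have hcv := lintegral_abs_det_fderiv_eq_addHaar_image μ measurableSet_ball hder hinj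
    rw [himg] at hcv
    have hdc : ContinuousOn (fun x => (1 + t • A x : E →L[ℝ] E).det) (closedBall 0 1) :=
      ContinuousLinearMap.continuous_det.comp_continuousOn
        (continuousOn_const.add (hAc.const_smul t))
    rw [integral_eq_lintegral_of_nonneg_ae]
    · rw [Measure.real, ← hcv]
      congr 1
      refine setLIntegral_congr_fun measurableSet_ball fun x hx => ?_
      rw [abs_of_pos (hpos x hx)]
    · exact (ae_restrict_iff' measurableSet_ball).mpr (Eventually.of_forall fun x hx =>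
        (hpos x hx).le)
    · exact (hdc.mono hbc).aestronglyMeasurable measurableSet_ball
  -- interpolation
  set v : ℕ → ℝ := fun i => 1 / (2 * C * (i + 1)) with hv
  have hCpos : 0 < C := by linarith
  have hvinj : Function.Injective v := by
    intro i j hij
    simp only [hv] at hij
    have h3 : (2 * C * ((i : ℝ) + 1)) = 2 * C * ((j : ℝ) + 1) := by
      have := congrArg (fun z => 1 / z) hij
      simpa using this
    have h4 : (i : ℝ) + 1 = (j : ℝ) + 1 := mul_left_cancel₀ (by positivity) h3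
    exact_mod_cast add_right_cancel h4
  have hvpos : ∀ i, 0 < v i := fun i => by simp only [hv]; positivity
  have hvC : ∀ i, v i * C ≤ 1 / 2 := fun i => by
    simp only [hv]
    rw [div_mul_eq_mul_div, one_mul, div_le_div_iff₀ (by positivity) (by norm_num)]
    have : (0 : ℝ) ≤ i := Nat.cast_nonneg i
    nlinarith
  have hF1 : ∫ x in ball (0 : E) 1, (1 + (1 : ℝ) • A x : E →L[ℝ] E).det ∂μ =
      μ.real (ball (0 : E) 1) := by
    have h3 : ∀ x, (1 + (1 : ℝ) • A x : E →L[ℝ] E).det =
        ∑ i ∈ Finset.range (finrank ℝ E + 1),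
      (Lagrange.basis (Finset.range (finrank ℝ E + 1)) v i).eval 1 *
        (1 + v i • A x : E →L[ℝ] E).det := fun x => det_interp v hvinj (A x) 1
    simp_rw [h3]
    rw [integral_finsetSum]
    · simp_rw [integral_const_mul]
      rw [Finset.sum_congr rfl (fun i _ => by rw [hsmall (v i) (hvpos i) (hvC i)])]
      rw [← Finset.sum_mul]
      rw [← Polynomial.eval_finsetSum, Lagrange.sum_basis hvinj.injOn (by simp)]
      simp
    · intro i _
      refine Integrable.const_mul ?_ _
      have hdc : ContinuousOn (fun x => (1 + v i • A x : E →L[ℝ] E).det) (closedBall 0 1) :=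
        ContinuousLinearMap.continuous_det.comp_continuousOn
          (continuousOn_const.add (hAc.const_smul (v i)))
      exact (hdc.integrableOn_compact (isCompact_closedBall 0 1)).mono_set hbc
  have hF0 : ∫ x in ball (0 : E) 1, (1 + (1 : ℝ) • A x : E →L[ℝ] E).det ∂μ = 0 := by
    refine (setIntegral_congr_fun measurableSet_ball fun x hx => ?_).trans
      (integral_zero E ℝ)
    simp only [hA, one_smul, add_sub_cancel]
    by_contra hne
    have h3 : IsUnit ((r' x : E →L[ℝ] E) : E →ₗ[ℝ] E) := by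
      rw [LinearMap.isUnit_iff_isUnit_det, isUnit_iff_ne_zero]
      exact hne
    obtain ⟨w, hw⟩ := ((Module.End.isUnit_iff _).mp h3).2 (r x)
    have hconst : (fun y => @inner ℝ E _ (r y) (r y)) =ᶠ[𝓝 x] fun _ => (1 : ℝ) := by
      filter_upwards [isOpen_ball.mem_nhds hx] with y hy
      rw [real_inner_self_eq_norm_sq, h1 y (hbc hy)]
      norm_num
    have hd1 := (hr x (hbc hx)).inner ℝ (hr x (hbc hx))
    have hd2 : HasFDerivAt (fun y => @inner ℝ E _ (r y) (r y)) (0 : E →L[ℝ] ℝ) x :=
      (hasFDerivAt_const (1 : ℝ) x).congr_of_eventuallyEq hconst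
    have h4 := hd1.unique hd2
    have h5 := congrArg (fun L : E →L[ℝ] ℝ => L w) h4
    have hw' : r' x w = r x := hw
    simp [fderivInnerCLM_apply, hw'] at h5
    have h6 := h1 x (hbc hx)
    rw [h5, norm_zero] at h6
    exact zero_ne_one h6
  have hvol : 0 < μ.real (ball (0 : E) 1) := by
    rw [Measure.real, ENNReal.toReal_pos_iff]
    exact ⟨measure_ball_pos μ 0 one_pos, measure_ball_lt_top⟩
  rw [hF1] at hF0
  exact hvol.ne' hF0

/-- Brouwer's theorem for continuous functions on the whole space with values in the unit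
ball. -/
theorem brouwer_aux (f : E → E) (hf : Continuous f) (hb : ∀ x, ‖f x‖ ≤ 1) :
    ∃ x, ‖x‖ ≤ 1 ∧ f x = x := by
  by_contra hcon
  push Not at hcon
  have hcomp := isCompact_closedBall (0 : E) 1
  obtain ⟨x0, hx0, hmin⟩ := hcomp.exists_isMinOn ⟨0, by simp⟩
    (f := fun x => ‖f x - x‖) (by fun_prop)
  have hm0 : 0 < ‖f x0 - x0‖ := by
    rw [norm_pos_iff, sub_ne_zero]
    exact hcon x0 (by simpa using hx0)
  set δ : ℝ := ‖f x0 - x0‖ / 4 with hδ
  have hδ0 : 0 < δ := by positivity
  have hfar : ∀ x, ‖x‖ ≤ 1 → 4 * δ ≤ ‖f x - x‖ := fun x hx => by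
    have := hmin (show x ∈ closedBall (0 : E) 1 by simpa using hx)
    simp only [mem_ofPred_eq] at this
    rw [hδ]
    linarith
  obtain ⟨p0, hp0, hp1, -⟩ := hf.exists_contDiff_approx (ε := fun _ => δ) 1 continuous_const
    (fun _ => hδ0)
  set p : E → E := fun x => (1 + δ)⁻¹ • p0 x with hp
  have hp0n : ∀ x, ‖p0 x‖ < 1 + δ := fun x => by
    calc ‖p0 x‖ = ‖(p0 x - f x) + f x‖ := by rw [sub_add_cancel]
      _ ≤ ‖p0 x - f x‖ + ‖f x‖ := norm_add_le _ _
      _ < δ + 1 := add_lt_add_of_lt_of_le (by rw [← dist_eq_norm]; exact hp1 x) (hb x)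
      _ = 1 + δ := add_comm _ _
  have hpn : ∀ x, ‖p x‖ < 1 := fun x => by
    rw [hp, norm_smul, Real.norm_eq_abs, abs_of_pos (by positivity), inv_mul_lt_iff₀ (by positivity),
      mul_one]
    exact hp0n x
  have hpf : ∀ x, ‖p x - f x‖ < 2 * δ := fun x => by
    have h1 : ‖p x - p0 x‖ ≤ δ := by
      have h2 : p x - p0 x = -((δ * (1 + δ)⁻¹) • p0 x) := by
        have h3 : p x - p0 x = ((1 + δ)⁻¹ - 1) • p0 x := by
          rw [sub_smul, one_smul]
        rw [h3, ← neg_smul]
        congr 1
        field_simp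
        ring
      rw [h2, norm_neg, norm_smul, Real.norm_eq_abs, abs_of_pos (by positivity), mul_assoc]
      have h4 : (1 + δ)⁻¹ * ‖p0 x‖ ≤ 1 := by
        rw [inv_mul_le_iff₀ (by positivity), mul_one]
        exact (hp0n x).le
      nlinarith
    calc ‖p x - f x‖ = ‖(p x - p0 x) + (p0 x - f x)‖ := by rw [sub_add_sub_cancel]
      _ ≤ ‖p x - p0 x‖ + ‖p0 x - f x‖ := norm_add_le _ _
      _ < δ + δ := add_lt_add_of_le_of_lt h1 (by rw [← dist_eq_norm]; exact hp1 x)
      _ = 2 * δ := by ring
  have hpc : ContDiff ℝ 1 p := contDiff_const.smul hp0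
  set u : E → E := fun x => x - p x with hu
  have huc : ContDiff ℝ 1 u := contDiff_id.sub hpc
  have hu0 : ∀ x, ‖x‖ ≤ 1 → u x ≠ 0 := fun x hx h0 => by
    have h1 : p x = x := (sub_eq_zero.mp h0).symm
    have h2 := hpf x
    have h3 := hfar x hx
    rw [h1, norm_sub_rev] at h2
    linarith
  set a : E → ℝ := fun x => @inner ℝ E _ (u x) (u x) with ha
  set b : E → ℝ := fun x => @inner ℝ E _ x (u x) with hbdef
  set D : E → ℝ := fun x => b x ^ 2 + a x * (1 - @inner ℝ E _ x x) with hD
  have hac : ContDiff ℝ 1 a := huc.inner ℝ huc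
  have hbc : ContDiff ℝ 1 b := contDiff_id.inner ℝ huc
  have hDc : ContDiff ℝ 1 D :=
    (hbc.pow 2).add (hac.mul (contDiff_const.sub (contDiff_id.inner ℝ contDiff_id)))
  have ha0 : ∀ x, ‖x‖ ≤ 1 → 0 < a x := fun x hx => by
    rw [ha]
    simp only
    rw [real_inner_self_eq_norm_sq]
    have := norm_pos_iff.mpr (hu0 x hx)
    positivity
  have hb1 : ∀ x, ‖x‖ = 1 → 0 < b x := fun x hx => by
    have h1 : b x = 1 - @inner ℝ E _ x (p x) := by
      simp only [hbdef, hu]
      rw [inner_sub_right, real_inner_self_eq_norm_sq, hx]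
      norm_num
    have h2 : @inner ℝ E _ x (p x) ≤ ‖x‖ * ‖p x‖ := real_inner_le_norm x (p x)
    have h3 := hpn x
    rw [hx, one_mul] at h2
    rw [h1]
    linarith
  have hD0 : ∀ x, ‖x‖ ≤ 1 → 0 < D x := fun x hx => by
    rcases hx.lt_or_eq with h | h
    · have h1 := ha0 x hx
      have h2 : 0 < 1 - @inner ℝ E _ x x := by
        rw [real_inner_self_eq_norm_sq]
        nlinarith [norm_nonneg x]
      have := mul_pos h1 h2
      simp only [hD]
      positivity
    · have h1 := hb1 x h
      simp only [hD]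
      rw [real_inner_self_eq_norm_sq, h]
      have : 0 < b x ^ 2 := by positivity
      linarith
  set lam : E → ℝ := fun x => (-b x + √(D x)) / a x with hlam
  set r : E → E := fun x => x + lam x • u x with hr
  have hlc : ∀ x, ‖x‖ ≤ 1 → ContDiffAt ℝ 1 lam x := fun x hx =>
    (hbc.contDiffAt.neg.add (hDc.contDiffAt.sqrt (hD0 x hx).ne')).div hac.contDiffAt
      (ha0 x hx).ne'
  have hrc : ∀ x, ‖x‖ ≤ 1 → ContDiffAt ℝ 1 r x := fun x hx =>
    contDiffAt_id.add ((hlc x hx).smul huc.contDiffAt)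
  refine no_retraction r (fderiv ℝ r) ?_ ?_ ?_ ?_
  · intro x hx
    exact ((hrc x (by simpa using hx)).differentiableAt (by norm_num)).hasFDerivAt
  · intro x hx
    exact (((hrc x (by simpa using hx)).fderiv_right (m := 0) (by norm_num)).continuousAt).continuousWithinAt
  · intro x hx
    have hx' : ‖x‖ ≤ 1 := by simpa using hx
    have h1 : lam x * a x + b x = √(D x) := by
      simp only [hlam]
      rw [div_mul_cancel₀ _ (ha0 x hx').ne']
      ring
    have h2 : (lam x * a x + b x) ^ 2 = D x := by rw [h1, Real.sq_sqrt (hD0 x hx').le]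
    have h3 : @inner ℝ E _ (r x) (r x) = @inner ℝ E _ x x + 2 * lam x * b x + lam x ^ 2 * a x := by
      simp only [hr, inner_add_left, inner_add_right, real_inner_smul_left, real_inner_smul_right,
        hbdef, ha]
      rw [real_inner_comm x (u x)]
      ring
    have h4 : a x * (lam x ^ 2 * a x + 2 * lam x * b x - (1 - @inner ℝ E _ x x)) = 0 := by
      simp only [hD] at h2
      nlinarith
    have h5 := (mul_eq_zero.mp h4).resolve_left (ha0 x hx').ne'
    have h6 : ‖r x‖ ^ 2 = 1 := by
      rw [← real_inner_self_eq_norm_sq, h3]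
      linarith
    have h7 := norm_nonneg (r x)
    nlinarith
  · intro x hx
    have h1 : lam x = 0 := by
      simp only [hlam, hD]
      rw [real_inner_self_eq_norm_sq, hx]
      have : b x ^ 2 + a x * (1 - 1 ^ 2) = b x ^ 2 := by ring
      rw [this, Real.sqrt_sq (hb1 x hx).le]
      simp
    simp [hr, h1]

/-- The Poincaré-Bohl theorem in Euclidean spaces. -/
theorem poincare_bohl_aux (H : E → E) (hH : Continuous H) {R : ℝ} (hR : 0 < R)
    (h : ∀ Y, ‖Y‖ = R → ∀ lam : ℝ, 0 < lam → Y ≠ -(lam • H Y)) : ∃ Y, ‖Y‖ ≤ R ∧ H Y = 0 := by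
  by_contra hcon
  push Not at hcon
  set ρ : E → E := fun x => (max 1 ‖x‖)⁻¹ • x with hρ
  have hρc : Continuous ρ := by
    refine Continuous.smul (Continuous.inv₀ (by fun_prop) fun x => ?_) continuous_id
    have : 1 ≤ max 1 ‖x‖ := le_max_left _ _
    linarith
  have hρ1 : ∀ x, ‖ρ x‖ ≤ 1 := fun x => by
    have h1 : 1 ≤ max 1 ‖x‖ := le_max_left _ _
    have h2 : ‖x‖ ≤ max 1 ‖x‖ := le_max_right _ _
    simp only [hρ]
    rw [norm_smul, norm_inv, Real.norm_eq_abs, abs_of_pos (by linarith),
      inv_mul_le_iff₀ (by linarith), mul_one]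
    exact h2
  have hne : ∀ x, H (R • ρ x) ≠ 0 := fun x => by
    refine hcon _ ?_
    rw [norm_smul, Real.norm_eq_abs, abs_of_pos hR]
    have := hρ1 x
    nlinarith
  obtain ⟨x, hx1, hx2⟩ := brouwer_aux (fun x => -(‖H (R • ρ x)‖⁻¹ • H (R • ρ x)))
    (by
      have h1 : Continuous fun x => H (R • ρ x) := hH.comp (hρc.const_smul R)
      exact ((h1.norm.inv₀ fun x => (norm_pos_iff.mpr (hne x)).ne').smul h1).neg)
    (fun x => by
      rw [norm_neg, norm_smul, norm_inv, norm_norm,
        inv_mul_cancel₀ (norm_pos_iff.mpr (hne x)).ne'])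
  have hx3 : ‖x‖ = 1 := by
    rw [← hx2, norm_neg, norm_smul, norm_inv, norm_norm,
      inv_mul_cancel₀ (norm_pos_iff.mpr (hne x)).ne']
  have hρx : ρ x = x := by simp [hρ, hx3]
  rw [hρx] at hx2
  have hHx := norm_pos_iff.mpr (hne x)
  rw [hρx] at hHx
  refine h (R • x) (by rw [norm_smul, hx3, Real.norm_eq_abs, abs_of_pos hR, mul_one])
    (R * ‖H (R • x)‖⁻¹) (by positivity) ?_
  conv_lhs => rw [← hx2]
  rw [smul_neg, smul_smul]

end Retr

section General
variable {E : Type*} [NormedAddCommGroup E] [NormedSpace ℝ E] [FiniteDimensional ℝ E]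

/-- **The Poincaré-Bohl theorem** in finite-dimensional normed spaces: a continuous vector field on
a ball which on the sphere never points in the direction opposite to `Y` (`Y ≠ -λ H(Y)`,
`λ > 0`) has a zero in the ball. -/
theorem poincare_bohl (H : E → E) {R : ℝ} (hR : 0 < R) (hH : ContinuousOn H (closedBall 0 R))
    (h : ∀ Y, ‖Y‖ = R → ∀ lam : ℝ, 0 < lam → Y ≠ -(lam • H Y)) : ∃ Y, ‖Y‖ ≤ R ∧ H Y = 0 := by
  set ρ : E → E := fun x => (R * (max R ‖x‖)⁻¹) • x with hρ
  have hmax : ∀ x : E, 0 < max R ‖x‖ := fun x => lt_of_lt_of_le hR (le_max_left _ _)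
  have hρc : Continuous ρ := by
    refine Continuous.smul (continuous_const.mul (Continuous.inv₀ (by fun_prop) fun x => ?_))
      continuous_id
    exact (hmax x).ne'
  have hρR : ∀ x, ‖ρ x‖ ≤ R := fun x => by
    have h2 : ‖x‖ ≤ max R ‖x‖ := le_max_right _ _
    simp only [hρ]
    rw [norm_smul, norm_mul, norm_inv, Real.norm_eq_abs, Real.norm_eq_abs, abs_of_pos hR,
      abs_of_pos (hmax x), mul_assoc]
    have : (max R ‖x‖)⁻¹ * ‖x‖ ≤ 1 := by
      rw [inv_mul_le_iff₀ (hmax x), mul_one]
      exact h2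
    nlinarith
  have hρin : ∀ x, ‖x‖ ≤ R → ρ x = x := fun x hx => by
    simp only [hρ]
    rw [max_eq_left hx, mul_inv_cancel₀ hR.ne', one_smul]
  have hρout : ∀ x, R < ‖x‖ → ρ x = (R * ‖x‖⁻¹) • x := fun x hx => by
    simp only [hρ]
    rw [max_eq_right hx.le]
  set G : E → E := fun Y => H (ρ Y) + (Y - ρ Y) with hG
  have hGc : Continuous G :=
    (hH.comp_continuous hρc fun x => by simpa using hρR x).add (continuous_id.sub hρc)
  -- outside of the ball
  have hout : ∀ Y, R < ‖Y‖ → ∀ lam : ℝ, 0 ≤ lam → Y ≠ -(lam • G Y) ∧ G Y ≠ 0 := by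
    intro Y hY
    have hYpos : 0 < ‖Y‖ := hR.trans hY
    set c : ℝ := R * ‖Y‖⁻¹ with hc
    have hc0 : 0 < c := by positivity
    have hc1 : c < 1 := by
      rw [hc, ← div_eq_mul_inv, div_lt_one hYpos]
      exact hY
    have hρY : ρ Y = c • Y := hρout Y hY
    have hnρ : ‖ρ Y‖ = R := by
      rw [hρY, norm_smul, Real.norm_eq_abs, abs_of_pos hc0, hc, mul_assoc,
        inv_mul_cancel₀ hYpos.ne', mul_one]
    have key : ∀ α β : ℝ, 0 < α → 0 ≤ β → α • Y ≠ -(β • H (ρ Y)) := by
      intro α β hα hβ hcon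
      rcases hβ.eq_or_lt with h0 | h0
      · rw [← h0, zero_smul, neg_zero, smul_eq_zero] at hcon
        rcases hcon with h1 | h1
        · exact hα.ne' h1
        · rw [h1, norm_zero] at hYpos
          exact lt_irrefl _ hYpos
      · refine h (ρ Y) hnρ (c * α⁻¹ * β) (by positivity) ?_
        have h1 : Y = -((α⁻¹ * β) • H (ρ Y)) := by
          rw [mul_smul, ← smul_neg, ← hcon, smul_smul, inv_mul_cancel₀ hα.ne', one_smul]
        conv_lhs => rw [hρY, h1]
        rw [smul_neg, smul_smul, mul_assoc c]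
    intro lam hlam
    constructor
    · intro hcon
      refine key (1 + lam * (1 - c)) lam (by nlinarith) hlam ?_
      rw [hG] at hcon
      simp only at hcon
      rw [smul_add] at hcon
      have h1 : Y - ρ Y = (1 - c) • Y := by rw [hρY, sub_smul, one_smul]
      rw [h1, smul_smul] at hcon
      rw [add_smul, one_smul]
      conv_lhs => rw [hcon]
      rw [← hcon]
      nth_rewrite 1 [hcon]
      abel
    · intro hcon
      refine key (1 - c) 1 (by linarith) zero_le_one ?_
      have h1 : Y - ρ Y = (1 - c) • Y := by rw [hρY, sub_smul, one_smul]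
      simp only [hG] at hcon
      rw [h1] at hcon
      rw [one_smul]
      exact eq_neg_of_add_eq_zero_right hcon
  -- transfer to a Euclidean space
  set e := (toEuclidean : E ≃L[ℝ] _) with he
  set K : ℝ := ‖(e : E →L[ℝ] EuclideanSpace ℝ (Fin (finrank ℝ E)))‖ + 1 with hK
  have hKpos : 0 < K := by positivity
  obtain ⟨Z, hZ1, hZ2⟩ := poincare_bohl_aux (fun Z => e (G (e.symm Z)))
    (e.continuous.comp (hGc.comp e.symm.continuous)) (R := K * (R + 1)) (by positivity) (by
      intro Z hZ lam hlam hcon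
      have h1 : ‖Z‖ ≤ K * ‖e.symm Z‖ := by
        calc ‖Z‖ = ‖(e : E →L[ℝ] EuclideanSpace ℝ (Fin (finrank ℝ E))) (e.symm Z)‖ := by simp
          _ ≤ ‖(e : E →L[ℝ] EuclideanSpace ℝ (Fin (finrank ℝ E)))‖ * ‖e.symm Z‖ :=
              ContinuousLinearMap.le_opNorm _ _
          _ ≤ K * ‖e.symm Z‖ := by
              gcongr
              rw [hK]
              linarith
      rw [hZ] at h1
      have h2 : R + 1 ≤ ‖e.symm Z‖ := le_of_mul_le_mul_left h1 hKpos
      refine (hout (e.symm Z) (by linarith) lam hlam.le).1 ?_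
      have h3 := congrArg e.symm hcon
      rw [map_neg, map_smul, ContinuousLinearEquiv.symm_apply_apply] at h3
      exact h3)
  have hZ3 : G (e.symm Z) = 0 := by
    have := congrArg e.symm hZ2
    simpa using this
  by_cases hin : ‖e.symm Z‖ ≤ R
  · refine ⟨e.symm Z, hin, ?_⟩
    simp only [hG, hρin _ hin, sub_self, add_zero] at hZ3
    exact hZ3
  · exact absurd hZ3 (hout _ (not_le.mp hin) 0 le_rfl).2

/-- **Brouwer's fixed point theorem** for a closed ball of a finite-dimensional normed space. -/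
theorem brouwer (f : E → E) {R : ℝ} (hR : 0 ≤ R) (hf : ContinuousOn f (closedBall 0 R))
    (hm : MapsTo f (closedBall 0 R) (closedBall 0 R)) : ∃ x ∈ closedBall (0 : E) R, f x = x := by
  rcases hR.eq_or_lt with h0 | h0
  · subst h0
    refine ⟨0, by simp, ?_⟩
    have := hm (show (0 : E) ∈ closedBall 0 0 by simp)
    simpa using this
  · obtain ⟨Y, hY1, hY2⟩ := poincare_bohl (fun x => x - f x) h0 (continuousOn_id.sub hf) (by
      intro Y hY lam hlam hcon
      have h1 : (1 + lam) • Y = lam • f Y := by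
        rw [smul_sub] at hcon
        rw [add_smul, one_smul]
        nth_rewrite 1 [hcon]
        abel
      have h2 : ‖f Y‖ ≤ R := by
        have := hm (show Y ∈ closedBall (0 : E) R by simp [hY])
        simpa using this
      have h3 := congrArg norm h1
      rw [norm_smul, norm_smul, hY, Real.norm_eq_abs, Real.norm_eq_abs, abs_of_pos hlam,
        abs_of_pos (by linarith)] at h3
      nlinarith)
    exact ⟨Y, by simpa using hY1, (sub_eq_zero.mp hY2).symm⟩

end General

end P371
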