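import Mathlib

/-!
# P371 : definitions for the sharp one-dimensional Lieb-Thirring problem
-/

namespace P371

open MeasureTheory Set Filter Topology
open scoped ENNReal

/-- `f` is locally absolutely continuous on `ℝ` with (a.e.) derivative `f'`. -/
def IsPrim (f f' : ℝ → ℝ) : Prop :=
  (∀ a b : ℝ, IntervalIntegrable f' volume a b) ∧ ∀ a b : ℝ, f b - f a = ∫ t in a..b, f' t

/-- Real version of `H¹(ℝ)`: `u` continuous representative, `g` its weak derivative. -/
def IsH1R (u g : ℝ → ℝ) : Prop :=
  MemLp u 2 volume ∧ MemLp g 2 volume ∧ IsPrim u g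

end P371
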