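import Vale.Agent.P371.Defs

/-!
# P371 : the kernel `φ_ω(z) = -ω tan(ω(z-1)/2)` and its polynomial approximation
-/

namespace P371

open Polynomial Set Real

lemma mul_cos_le_sin {δ : ℝ} (h0 : 0 < δ) (h1 : δ < π) : δ * cos δ ≤ sin δ := by
  rcases lt_or_ge δ (π / 2) with h | h
  · have hc : 0 < cos δ := cos_pos_of_mem_Ioo ⟨by linarith, h⟩
    have ht := lt_tan h0 h
    rw [tan_eq_sin_div_cos, lt_div_iff₀ hc] at ht
    exact ht.le
  · have hc : cos δ ≤ 0 := cos_nonpos_of_pi_div_two_le_of_le h (by linarith)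
    have hs : 0 ≤ sin δ := sin_nonneg_of_nonneg_of_le_pi h0.le h1.le
    nlinarith

/-- `cos δ ≤ sin δ / δ` for `0 < |δ| < π`. -/
lemma cos_le_sinc {δ : ℝ} (h0 : δ ≠ 0) (h1 : |δ| < π) : cos δ ≤ sin δ / δ := by
  rcases lt_or_gt_of_ne h0 with h | h
  · have h2 : 0 < -δ := by linarith
    have h3 : -δ < π := by rw [abs_of_neg h] at h1; exact h1
    have := mul_cos_le_sin h2 h3
    rw [cos_neg, sin_neg] at this
    have h4 : sin δ / δ = (-sin δ) / (-δ) := by rw [neg_div_neg_eq]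
    rw [h4, le_div_iff₀ h2]
    linarith
  · have h3 : δ < π := by rw [abs_of_pos h] at h1; exact h1
    rw [le_div_iff₀ h]
    have := mul_cos_le_sin h h3
    linarith

/-- the kernel -/
noncomputable def phi (ω z : ℝ) : ℝ := -ω * tan (ω * (z - 1) / 2)

/-- its derivative -/
noncomputable def dphi (ω z : ℝ) : ℝ := -ω ^ 2 / 2 * (1 / cos (ω * (z - 1) / 2) ^ 2)

lemma arg_mem {ω : ℝ} (h0 : 0 < ω) (h1 : ω < π) {z : ℝ} (hz : z ∈ Icc (0:ℝ) 2) :
    ω * (z - 1) / 2 ∈ Ioo (-(π / 2)) (π / 2) := by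
  constructor <;> nlinarith [hz.1, hz.2]

lemma cos_arg_pos {ω : ℝ} (h0 : 0 < ω) (h1 : ω < π) {z : ℝ} (hz : z ∈ Icc (0:ℝ) 2) :
    0 < cos (ω * (z - 1) / 2) := cos_pos_of_mem_Ioo (arg_mem h0 h1 hz)

lemma hasDerivAt_phi {ω : ℝ} (h0 : 0 < ω) (h1 : ω < π) {z : ℝ} (hz : z ∈ Icc (0:ℝ) 2) :
    HasDerivAt (phi ω) (dphi ω z) z := by
  have h := (hasDerivAt_tan (cos_arg_pos h0 h1 hz).ne')
  have h2 : HasDerivAt (fun z : ℝ => ω * (z - 1) / 2) (ω / 2) z := by
    have := (((hasDerivAt_id z).sub_const 1).const_mul ω).div_const 2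
    simpa using this
  have h3 := (h.comp z h2).const_mul (-ω)
  refine HasDerivAt.congr_deriv h3 ?_
  unfold dphi
  ring

lemma phi_bracket {ω : ℝ} (h0 : 0 < ω) (h1 : ω < π) {z w : ℝ} (hz : z ∈ Icc (0:ℝ) 2)
    (hw : w ∈ Icc (0:ℝ) 2) (hne : z ≠ w) :
    2 * ((phi ω z - phi ω w) / (z - w)) + phi ω z * phi ω w + ω ^ 2 ≤ 0 := by
  set a := ω * (z - 1) / 2 with ha
  set b := ω * (w - 1) / 2 with hb
  have hca : 0 < cos a := cos_arg_pos h0 h1 hz
  have hcb : 0 < cos b := cos_arg_pos h0 h1 hw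
  have hab : a - b = ω * (z - w) / 2 := by rw [ha, hb]; ring
  have hzw : z - w ≠ 0 := sub_ne_zero.2 hne
  have hδ : a - b ≠ 0 := by
    rw [hab]; positivity
  have hδ2 : |a - b| < π := by
    have h2 := arg_mem h0 h1 hz
    have h3 := arg_mem h0 h1 hw
    rw [abs_lt]
    constructor <;> linarith [h2.1, h2.2, h3.1, h3.2]
  have key := cos_le_sinc hδ hδ2
  have e1 : phi ω z = -ω * (sin a / cos a) := by rw [phi, tan_eq_sin_div_cos]
  have e2 : phi ω w = -ω * (sin b / cos b) := by rw [phi, tan_eq_sin_div_cos]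
  have e3 : z - w = 2 * (a - b) / ω := by rw [hab]; field_simp
  have e4 : 2 * ((phi ω z - phi ω w) / (z - w)) + phi ω z * phi ω w + ω ^ 2 =
      ω ^ 2 / (cos a * cos b) * (cos (a - b) - sin (a - b) / (a - b)) := by
    rw [e1, e2, e3]
    generalize hd : a - b = δ at *
    have hs : sin δ = sin a * cos b - cos a * sin b := by rw [← hd, sin_sub]
    have hc : cos δ = cos a * cos b + sin a * sin b := by rw [← hd, cos_sub]
    rw [hs, hc]
    field_simp
    ring
  rw [e4]
  have h5 : 0 ≤ ω ^ 2 / (cos a * cos b) := by positivity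
  nlinarith

/-- polynomial antiderivative -/
noncomputable def antid (p : ℝ[X]) : ℝ[X] :=
  ∑ n ∈ Finset.range (p.natDegree + 1), C (p.coeff n / (n + 1)) * X ^ (n + 1)

lemma derivative_antid (p : ℝ[X]) : derivative (antid p) = p := by
  unfold antid
  rw [derivative_sum]
  conv_rhs => rw [p.as_sum_range_C_mul_X_pow]
  refine Finset.sum_congr rfl fun n _ => ?_
  rw [derivative_C_mul_X_pow]
  congr 1
  congr 1
  push_cast
  have : ((n:ℝ) + 1) ≠ 0 := by positivity
  field_simp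

/-- For every `c < π²` there is a polynomial `q` satisfying the divided-difference inequality. -/
theorem exists_poly {c : ℝ} (hc : c < π ^ 2) :
    ∃ q : ℝ[X], (∀ z ∈ Icc (0:ℝ) 2, ∀ w ∈ Icc (0:ℝ) 2, z ≠ w →
        2 * ((q.eval z - q.eval w) / (z - w)) + q.eval z * q.eval w + c ≤ 0) := by
  obtain ⟨s, hs1, hs2⟩ : ∃ s, max c 0 < s ∧ s < π ^ 2 :=
    exists_between (max_lt hc (by positivity))
  have hs0 : 0 < s := lt_of_le_of_lt (le_max_right _ _) hs1
  set ω := √s with hω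
  have hω2 : ω ^ 2 = s := Real.sq_sqrt hs0.le
  have h0 : 0 < ω := Real.sqrt_pos.2 hs0
  have h1 : ω < π := by
    rw [hω, Real.sqrt_lt' pi_pos]; exact hs2
  have hcs : c < ω ^ 2 := by rw [hω2]; exact lt_of_le_of_lt (le_max_left _ _) hs1
  -- continuity of the derivative
  have hcont : ContinuousOn (dphi ω) (Icc 0 2) := by
    unfold dphi
    refine ContinuousOn.mul continuousOn_const (ContinuousOn.div continuousOn_const ?_ ?_)
    · exact (by fun_prop : Continuous fun z : ℝ => cos (ω * (z - 1) / 2) ^ 2).continuousOn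
    · intro z hz
      have := cos_arg_pos h0 h1 hz
      positivity
  have hcontphi : ContinuousOn (phi ω) (Icc 0 2) := fun z hz =>
    (hasDerivAt_phi h0 h1 hz).continuousAt.continuousWithinAt
  obtain ⟨B, hB⟩ := isCompact_Icc.exists_bound_of_continuousOn hcontphi
  have hB0 : 0 ≤ B := (norm_nonneg _).trans (hB 0 (by simp))
  set ε := min 1 ((ω ^ 2 - c) / (6 + 4 * B)) with hε
  have hε0 : 0 < ε := lt_min one_pos (div_pos (by linarith) (by positivity))
  have hε1 : ε ≤ 1 := min_le_left _ _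
  have hε2 : ε * (6 + 4 * B) ≤ ω ^ 2 - c := by
    have : ε ≤ (ω ^ 2 - c) / (6 + 4 * B) := min_le_right _ _
    rwa [le_div_iff₀ (by positivity)] at this
  obtain ⟨p, hp⟩ := exists_polynomial_near_of_continuousOn 0 2 (dphi ω) hcont ε hε0
  set q : ℝ[X] := antid p + C (phi ω 0 - (antid p).eval 0) with hq
  have hqd : ∀ z, HasDerivAt (fun z => q.eval z) (p.eval z) z := by
    intro z
    have := q.hasDerivAt z
    have e : derivative q = p := by rw [hq]; simp [derivative_antid]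
    rwa [e] at this
  have hdiff : ∀ z ∈ Icc (0:ℝ) 2, HasDerivWithinAt (fun z => q.eval z - phi ω z)
      (p.eval z - dphi ω z) (Icc 0 2) z := fun z hz =>
    ((hqd z).sub (hasDerivAt_phi h0 h1 hz)).hasDerivWithinAt
  have hlip : ∀ z ∈ Icc (0:ℝ) 2, ∀ w ∈ Icc (0:ℝ) 2,
      |(q.eval z - phi ω z) - (q.eval w - phi ω w)| ≤ ε * |z - w| := by
    intro z hz w hw
    have := (convex_Icc (0:ℝ) 2).norm_image_sub_le_of_norm_hasDerivWithin_le (C := ε)
      hdiff (fun x hx => (hp x hx).le) hw hz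
    simpa [Real.norm_eq_abs] using this
  have hq0 : q.eval 0 = phi ω 0 := by rw [hq]; simp
  have hclose : ∀ z ∈ Icc (0:ℝ) 2, |q.eval z - phi ω z| ≤ 2 * ε := by
    intro z hz
    have := hlip z hz 0 (by simp)
    rw [hq0, sub_self, sub_zero, sub_zero, abs_of_nonneg hz.1] at this
    nlinarith [hz.2]
  refine ⟨q, fun z hz w hw hne => ?_⟩
  have hbr := phi_bracket h0 h1 hz hw hne
  have hzw : z - w ≠ 0 := sub_ne_zero.2 hne
  have k1 : (q.eval z - q.eval w) / (z - w) ≤ (phi ω z - phi ω w) / (z - w) + ε := by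
    have h2 := hlip z hz w hw
    have h3 : |((q.eval z - phi ω z) - (q.eval w - phi ω w)) / (z - w)| ≤ ε := by
      rw [abs_div, div_le_iff₀ (abs_pos.2 hzw)]
      exact h2
    have h4 := (abs_le.1 h3).2
    have h5 : ((q.eval z - phi ω z) - (q.eval w - phi ω w)) / (z - w) =
        (q.eval z - q.eval w) / (z - w) - (phi ω z - phi ω w) / (z - w) := by
      rw [← sub_div]; congr 1; ring
    linarith
  have k2 : q.eval z * q.eval w ≤ phi ω z * phi ω w + 4 * B * ε + 4 * ε ^ 2 := by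
    have hz1 := hclose z hz
    have hw1 := hclose w hw
    have hBz : |phi ω z| ≤ B := hB z hz
    have hBw : |phi ω w| ≤ B := hB w hw
    set x := q.eval z - phi ω z with hx
    set y := q.eval w - phi ω w with hy
    have e : q.eval z * q.eval w = phi ω z * phi ω w + phi ω z * y + x * phi ω w + x * y := by
      rw [hx, hy]; ring
    have b1 : phi ω z * y ≤ B * (2 * ε) := by
      calc phi ω z * y ≤ |phi ω z * y| := le_abs_self _
        _ = |phi ω z| * |y| := abs_mul _ _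
        _ ≤ B * (2 * ε) := mul_le_mul hBz hw1 (abs_nonneg _) hB0
    have b2 : x * phi ω w ≤ B * (2 * ε) := by
      calc x * phi ω w ≤ |x * phi ω w| := le_abs_self _
        _ = |phi ω w| * |x| := by rw [abs_mul, mul_comm]
        _ ≤ B * (2 * ε) := mul_le_mul hBw hz1 (abs_nonneg _) hB0
    have b3 : x * y ≤ (2 * ε) * (2 * ε) := by
      calc x * y ≤ |x * y| := le_abs_self _
        _ = |x| * |y| := abs_mul _ _
        _ ≤ _ := mul_le_mul hz1 hw1 (abs_nonneg _) (by positivity)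
    rw [e]; nlinarith
  nlinarith

end P371
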