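import Vale.Agent.P371.Moments
import Vale.Agent.P371.Trig

/-!
# P371 : the dual inequality `π² ∫ ρ³ ≤ 4 ∫ |U'|²` for families with Gram matrix `≤ 1`
-/

namespace P371

open Set Matrix MeasureTheory Filter Topology

/-- an integrable nonnegative function takes small values far to the right -/
lemma exists_small_right {ρ : ℝ → ℝ} (hρ : Integrable ρ volume) {δ : ℝ}
    (hδ : 0 < δ) (R : ℝ) : ∃ x ≥ R, ρ x < δ := by
  by_contra hcon
  push Not at hcon
  have h1 := hρ.measure_norm_ge_lt_top hδ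
  have h2 : Ici R ⊆ {x | δ ≤ ‖ρ x‖} := fun x hx =>
    (hcon x hx).trans (le_abs_self _)
  have h3 := (measure_mono h2).trans_lt h1
  simp at h3

lemma exists_small_left {ρ : ℝ → ℝ} (hρ : Integrable ρ volume) {δ : ℝ}
    (hδ : 0 < δ) (R : ℝ) : ∃ x ≤ R, ρ x < δ := by
  by_contra hcon
  push Not at hcon
  have h1 := hρ.measure_norm_ge_lt_top hδ
  have h2 : Iic R ⊆ {x | δ ≤ ‖ρ x‖} := fun x hx =>
    (hcon x hx).trans (le_abs_self _)
  have h3 := (measure_mono h2).trans_lt h1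
  simp at h3

variable {ι : Type*} [Fintype ι] [DecidableEq ι]

omit [DecidableEq ι] in
lemma Amat_quad (U : ι → ℝ → ℝ) (h : ∀ i, MemLp (U i) 2 volume) (x : ℝ) (ξ : ι → ℝ) :
    ξ ⬝ᵥ (Amat U x *ᵥ ξ) = ∫ t in Iic x, (∑ i, ξ i * U i t) ^ 2 := by
  have hint : ∀ i j, Integrable (fun t => U i t * U j t) volume := fun i j =>
    (h i).integrable_mul (h j)
  have e : ∀ t, (∑ i, ξ i * U i t) ^ 2 = ∑ i, ∑ j, ξ i * ξ j * (U i t * U j t) := by
    intro t
    rw [sq, Finset.sum_mul_sum]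
    refine Finset.sum_congr rfl fun i _ => Finset.sum_congr rfl fun j _ => ?_
    ring
  simp_rw [e]
  rw [integral_finsetSum _ fun i _ => integrable_finsetSum _ fun j _ =>
    ((hint i j).integrableOn.const_mul _)]
  simp only [dotProduct, mulVec, Amat, of_apply, Finset.mul_sum]
  refine Finset.sum_congr rfl fun i _ => ?_
  rw [integral_finsetSum _ fun j _ => ((hint i j).integrableOn.const_mul _)]
  refine Finset.sum_congr rfl fun j _ => ?_
  rw [integral_const_mul]; ring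

omit [DecidableEq ι] in
lemma integrable_quad (U : ι → ℝ → ℝ) (h : ∀ i, MemLp (U i) 2 volume) (ξ : ι → ℝ) :
    Integrable (fun t => (∑ i, ξ i * U i t) ^ 2) volume := by
  have hint : ∀ i j, Integrable (fun t => U i t * U j t) volume := fun i j =>
    (h i).integrable_mul (h j)
  have e : (fun t => (∑ i, ξ i * U i t) ^ 2) =
      fun t => ∑ i, ∑ j, ξ i * ξ j * (U i t * U j t) := by
    funext t
    rw [sq, Finset.sum_mul_sum]
    refine Finset.sum_congr rfl fun i _ => Finset.sum_congr rfl fun j _ => ?_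
    ring
  rw [e]
  exact integrable_finsetSum _ fun i _ => integrable_finsetSum _ fun j _ =>
    (hint i j).const_mul _

/-- The dual inequality. -/
theorem dual (U V : ι → ℝ → ℝ) (h : ∀ i, IsH1R (U i) (V i))
    (hG : ∀ ξ : ι → ℝ, ∫ x, (∑ i, ξ i * U i x) ^ 2 ≤ ∑ i, ξ i ^ 2) :
    Integrable (fun x => (∑ i, U i x ^ 2) ^ 3) volume ∧
      Real.pi ^ 2 * ∫ x, (∑ i, U i x ^ 2) ^ 3 ≤ 4 * ∫ x, ∑ i, V i x ^ 2 := by
  have hU : ∀ i, MemLp (U i) 2 volume := fun i => (h i).1
  have hUc : ∀ i, Continuous (U i) := fun i => (h i).2.2.continuous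
  set ρ : ℝ → ℝ := fun x => ∑ i, U i x ^ 2 with hρ
  set S : ℝ → ℝ := fun x => ∑ i, V i x ^ 2 with hS
  have hρc : Continuous ρ := by
    rw [hρ]; fun_prop
  have hρ0 : ∀ x, 0 ≤ ρ x := fun x => Finset.sum_nonneg fun i _ => sq_nonneg _
  have hS0 : ∀ x, 0 ≤ S x := fun x => Finset.sum_nonneg fun i _ => sq_nonneg _
  have hρi : Integrable ρ volume := integrable_finsetSum _ fun i _ =>
    (hU i).integrable_sq
  have hSi : Integrable S volume := integrable_finsetSum _ fun i _ =>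
    (h i).2.1.integrable_sq
  -- properties of `A`
  have hA : ∀ x, (Amat U x).IsHermitian := fun x => by
    rw [IsHermitian, conjTranspose_eq_transpose_of_trivial, Amat_symm]
  have hA0 : ∀ x (ξ : ι → ℝ), 0 ≤ ξ ⬝ᵥ (Amat U x *ᵥ ξ) := fun x ξ => by
    rw [Amat_quad U hU]; exact setIntegral_nonneg measurableSet_Iic fun _ _ => sq_nonneg _
  have hA1 : ∀ x (ξ : ι → ℝ), ξ ⬝ᵥ (Amat U x *ᵥ ξ) ≤ ξ ⬝ᵥ ξ := fun x ξ => by
    rw [Amat_quad U hU]
    calc ∫ t in Iic x, (∑ i, ξ i * U i t) ^ 2 ≤ ∫ t, (∑ i, ξ i * U i t) ^ 2 :=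
          setIntegral_le_integral (integrable_quad U hU ξ) (ae_of_all _ fun _ => sq_nonneg _)
      _ ≤ ∑ i, ξ i ^ 2 := hG ξ
      _ = ξ ⬝ᵥ ξ := by simp [dotProduct, sq]
  have hUU : ∀ x, (fun i => U i x) ⬝ᵥ (fun i => U i x) = ρ x := fun x => by
    simp [dotProduct, hρ, sq]
  have hVV : ∀ x, (fun i => V i x) ⬝ᵥ (fun i => V i x) = S x := fun x => by
    simp [dotProduct, hS, sq]
  -- main estimate on bounded intervals
  have main : ∀ c : ℝ, 0 < c → c < Real.pi ^ 2 → ∀ R : ℝ, 0 ≤ R →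
      c * ∫ x in (-R)..R, ρ x ^ 3 ≤ 4 * ∫ x, S x := by
    intro c hc0 hc R hR
    obtain ⟨q, hq⟩ := exists_poly hc
    set Φ : ℝ → ℝ := fun x => cert q (mom (Amat U x) (fun i => U i x)) with hΦ
    set dΦ : ℝ → ℝ := fun x => dcert q (mom (Amat U x) (fun i => U i x))
        (dmom (Amat U x) (fun i => U i x) (fun i => V i x)) with hdΦ
    have hprim : IsPrim Φ dΦ := isPrim_cert q U V h
    have hpt : ∀ x, dΦ x ≤ 4 * S x - c * ρ x ^ 3 := fun x => by
      have := pointwise q hq (Amat U x) (hA x) (hA0 x) (hA1 x) (fun i => U i x) (fun i => V i x)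
      rwa [hUU, hVV] at this
    -- bound on the certificate
    obtain ⟨C, hC0, hC⟩ : ∃ C : ℝ, 0 ≤ C ∧ ∀ x, |Φ x| ≤ C * ρ x ^ 2 := by
      refine ⟨∑ n ∈ Finset.range (q.natDegree + 1), |q.coeff n| *
        ∑ k ∈ Finset.range (n + 1), (n.choose k : ℝ), by positivity, fun x => ?_⟩
      rw [hΦ]
      simp only [cert]
      refine (Finset.abs_sum_le_sum_abs _ _).trans ?_
      rw [Finset.sum_mul]
      refine Finset.sum_le_sum fun n _ => ?_
      rw [abs_mul, mul_assoc]
      refine mul_le_mul_of_nonneg_left ?_ (abs_nonneg _)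
      refine (Finset.abs_sum_le_sum_abs _ _).trans ?_
      rw [Finset.sum_mul]
      refine Finset.sum_le_sum fun k _ => ?_
      rw [abs_mul, Nat.abs_cast]
      refine mul_le_mul_of_nonneg_left ?_ (Nat.cast_nonneg _)
      have h1 := mom_nonneg_le (Amat U x) (hA x) (hA0 x) (hA1 x) (fun i => U i x) k
      have h2 := mom_nonneg_le (Amat U x) (hA x) (hA0 x) (hA1 x) (fun i => U i x) (n - k)
      rw [hUU] at h1 h2
      rw [abs_of_nonneg (mul_nonneg h1.1 h2.1), sq]
      exact mul_le_mul h1.2 h2.2 h2.1 (hρ0 x)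
    -- let δ → 0
    refine le_of_forall_pos_le_add fun ε hε => ?_
    obtain ⟨δ, hδ0, hδ⟩ : ∃ δ : ℝ, 0 < δ ∧ 2 * (C * δ ^ 2) ≤ ε := by
      have hpos : 0 < ε / (2 * (C + 1)) := by positivity
      refine ⟨√(ε / (2 * (C + 1))), Real.sqrt_pos.2 hpos, ?_⟩
      rw [Real.sq_sqrt hpos.le]
      have : 2 * (C * (ε / (2 * (C + 1)))) = ε * (C / (C + 1)) := by field_simp
      rw [this]
      have h2 : C / (C + 1) ≤ 1 := by rw [div_le_one (by positivity)]; linarith
      nlinarith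
    obtain ⟨b, hbR, hb⟩ := exists_small_right hρi hδ0 R
    obtain ⟨a, haR, ha⟩ := exists_small_left hρi hδ0 (-R)
    have hab : a ≤ b := by linarith
    have hρ3 : ∀ s t, IntervalIntegrable (fun x => ρ x ^ 3) volume s t := fun s t =>
      (hρc.pow 3).intervalIntegrable s t
    have i1 : Φ b - Φ a ≤ 4 * (∫ x in a..b, S x) - c * ∫ x in a..b, ρ x ^ 3 := by
      rw [hprim.2 a b, ← intervalIntegral.integral_const_mul, ← intervalIntegral.integral_const_mul,
        ← intervalIntegral.integral_sub (hSi.intervalIntegrable.const_mul 4)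
          ((hρ3 a b).const_mul c)]
      exact intervalIntegral.integral_mono_on hab (hprim.1 a b)
        ((hSi.intervalIntegrable.const_mul 4).sub ((hρ3 a b).const_mul c)) fun x _ => hpt x
    have i2 : ∫ x in (-R)..R, ρ x ^ 3 ≤ ∫ x in a..b, ρ x ^ 3 :=
      intervalIntegral.integral_mono_interval haR (by linarith) hbR
        (ae_of_all _ fun x => pow_nonneg (hρ0 x) 3) (hρ3 a b)
    have i3 : ∫ x in a..b, S x ≤ ∫ x, S x := by
      rw [intervalIntegral.integral_of_le hab]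
      exact setIntegral_le_integral hSi (ae_of_all _ hS0)
    have i4 : |Φ b| ≤ C * δ ^ 2 := (hC b).trans (by
      have := hρ0 b
      gcongr)
    have i5 : |Φ a| ≤ C * δ ^ 2 := (hC a).trans (by
      have := hρ0 a
      gcongr)
    have i6 := (abs_le.1 i4).1
    have i7 := (abs_le.1 i5).2
    nlinarith
  -- let c → π²
  have main2 : ∀ R : ℝ, 0 ≤ R → Real.pi ^ 2 * ∫ x in (-R)..R, ρ x ^ 3 ≤ 4 * ∫ x, S x := by
    intro R hR
    have hpi : 0 < Real.pi ^ 2 := by positivity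
    have hlim : Tendsto (fun c : ℝ => c * ∫ x in (-R)..R, ρ x ^ 3) (𝓝[<] (Real.pi ^ 2))
        (𝓝 (Real.pi ^ 2 * ∫ x in (-R)..R, ρ x ^ 3)) :=
      ((continuous_id.mul continuous_const).tendsto _).mono_left nhdsWithin_le_nhds
    refine le_of_tendsto hlim ?_
    filter_upwards [Ioo_mem_nhdsLT hpi] with c hc using main c hc.1 hc.2 R hR
  have hI : Integrable (fun x => ρ x ^ 3) volume := by
    refine integrable_of_intervalIntegral_norm_bounded
      (a := fun n : ℕ => -(n:ℝ)) (b := fun n : ℕ => (n:ℝ)) (l := atTop)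
      ((4 * ∫ x, S x) / Real.pi ^ 2) (fun n => ((hρc.pow 3).integrableOn_Ioc)) ?_ ?_ ?_
    · exact tendsto_neg_atTop_atBot.comp tendsto_natCast_atTop_atTop
    · exact tendsto_natCast_atTop_atTop
    · refine Eventually.of_forall fun n => ?_
      have hpi : 0 < Real.pi ^ 2 := by positivity
      rw [le_div_iff₀ hpi, mul_comm]
      have := main2 n (Nat.cast_nonneg n)
      refine le_trans (le_of_eq ?_) this
      congr 1
      refine intervalIntegral.integral_congr fun x _ => ?_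
      rw [Real.norm_of_nonneg (pow_nonneg (hρ0 x) 3)]
  refine ⟨hI, ?_⟩
  have hlim : Tendsto (fun n : ℕ => Real.pi ^ 2 * ∫ x in (-(n:ℝ))..n, ρ x ^ 3) atTop
      (𝓝 (Real.pi ^ 2 * ∫ x, ρ x ^ 3)) :=
    (intervalIntegral_tendsto_integral hI
      (tendsto_neg_atTop_atBot.comp tendsto_natCast_atTop_atTop)
      tendsto_natCast_atTop_atTop).const_mul _
  exact le_of_tendsto hlim (Eventually.of_forall fun n => main2 n (Nat.cast_nonneg n))

end P371
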