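import Vale.Agent.P371.LT

/-!
# P371 : the one-bound-state optimiser at `γ = 1`:
`W = (3/4) sech²`, `u = π^{-1/2} sech^{1/2}`, eigenvalue `-1/4`
-/

namespace P371

open Set MeasureTheory Filter Topology
open scoped ComplexConjugate ENNReal

lemma integral_of_nonneg_deriv {F f : ℝ → ℝ} {m n : ℝ} (hF : ∀ x, HasDerivAt F (f x) x)
    (hc : Continuous f) (h0 : ∀ x, 0 ≤ f x) (hm : Tendsto F atBot (𝓝 m))
    (hn : Tendsto F atTop (𝓝 n)) : Integrable f volume ∧ ∫ x, f x = n - m := by
  have hI : Integrable f volume := by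
    refine integrable_of_intervalIntegral_norm_tendsto (n - m)
      (a := fun k : ℕ => -(k:ℝ)) (b := fun k : ℕ => (k:ℝ)) (l := atTop)
      (fun k => hc.integrableOn_Ioc)
      (tendsto_neg_atTop_atBot.comp tendsto_natCast_atTop_atTop) tendsto_natCast_atTop_atTop ?_
    have e : ∀ k : ℕ, ∫ x in (-(k:ℝ))..k, ‖f x‖ = F k - F (-k) := by
      intro k
      rw [← intervalIntegral.integral_eq_sub_of_hasDerivAt (fun x _ => hF x)
        (hc.intervalIntegrable _ _)]
      exact intervalIntegral.integral_congr fun x _ => Real.norm_of_nonneg (h0 x)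
    simp_rw [e]
    exact (hn.comp tendsto_natCast_atTop_atTop).sub
      (hm.comp (tendsto_neg_atTop_atBot.comp tendsto_natCast_atTop_atTop))
  exact ⟨hI, integral_of_hasDerivAt_of_tendsto hF hI hm hn⟩

lemma tendsto_sinh_atTop : Tendsto Real.sinh atTop atTop :=
  tendsto_atTop_mono' atTop (by
    filter_upwards [eventually_ge_atTop (0:ℝ)] with x hx using Real.self_le_sinh_iff.2 hx)
    tendsto_id

lemma tendsto_sinh_atBot : Tendsto Real.sinh atBot atBot := by
  have h : Real.sinh = fun x => -(Real.sinh (-x)) := by funext x; rw [Real.sinh_neg, neg_neg]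
  rw [h]
  exact tendsto_neg_atTop_atBot.comp (tendsto_sinh_atTop.comp tendsto_neg_atBot_atTop)

lemma tendsto_cosh_atTop : Tendsto Real.cosh atTop atTop :=
  tendsto_atTop_mono (fun x => (Real.sinh_lt_cosh x).le) tendsto_sinh_atTop

lemma tendsto_cosh_atBot : Tendsto Real.cosh atBot atTop := by
  have h : Real.cosh = fun x => Real.cosh (-x) := by funext x; rw [Real.cosh_neg]
  rw [h]
  exact tendsto_cosh_atTop.comp tendsto_neg_atBot_atTop

lemma integral_sech : Integrable (fun x => 1 / Real.cosh x) volume ∧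
    ∫ x, 1 / Real.cosh x = Real.pi := by
  have h := integral_of_nonneg_deriv (F := fun x => Real.arctan (Real.sinh x))
    (f := fun x => 1 / Real.cosh x) (m := -(Real.pi / 2)) (n := Real.pi / 2) ?_ ?_ ?_ ?_ ?_
  · exact ⟨h.1, by rw [h.2]; ring⟩
  · intro x
    have h1 := (Real.hasDerivAt_arctan (Real.sinh x)).comp x (Real.hasDerivAt_sinh x)
    refine HasDerivAt.congr_deriv h1 ?_
    have hc : 0 < Real.cosh x := Real.cosh_pos x
    have : 1 + Real.sinh x ^ 2 = Real.cosh x ^ 2 := by rw [Real.cosh_sq]; ring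
    rw [this]; field_simp
  · exact Continuous.div continuous_const Real.continuous_cosh fun x => (Real.cosh_pos x).ne'
  · intro x; have := Real.cosh_pos x; positivity
  · exact (tendsto_nhds_of_tendsto_nhdsWithin Real.tendsto_arctan_atBot).comp tendsto_sinh_atBot
  · exact (tendsto_nhds_of_tendsto_nhdsWithin Real.tendsto_arctan_atTop).comp tendsto_sinh_atTop

lemma abs_sinh_div_le (x : ℝ) : |Real.sinh x / Real.cosh x ^ 2| ≤ (Real.cosh x)⁻¹ := by
  have hc : 0 < Real.cosh x := Real.cosh_pos x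
  have h1 : |Real.sinh x| ≤ Real.cosh x := by
    apply abs_le_of_sq_le_sq _ hc.le
    rw [Real.cosh_sq]; linarith
  rw [abs_div, abs_of_pos (by positivity : 0 < Real.cosh x ^ 2), div_le_iff₀ (by positivity)]
  calc |Real.sinh x| ≤ Real.cosh x := h1
    _ = (Real.cosh x)⁻¹ * Real.cosh x ^ 2 := by field_simp

lemma integral_sech_cube : Integrable (fun x => 1 / Real.cosh x ^ 3) volume ∧
    ∫ x, 1 / Real.cosh x ^ 3 = Real.pi / 2 := by
  have h := integral_of_nonneg_deriv
    (F := fun x => (Real.sinh x / Real.cosh x ^ 2 + Real.arctan (Real.sinh x)) / 2)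
    (f := fun x => 1 / Real.cosh x ^ 3) (m := (0 + -(Real.pi / 2)) / 2)
    (n := (0 + Real.pi / 2) / 2) ?_ ?_ ?_ ?_ ?_
  · exact ⟨h.1, by rw [h.2]; ring⟩
  · intro x
    have hc : 0 < Real.cosh x := Real.cosh_pos x
    have h1 := (Real.hasDerivAt_arctan (Real.sinh x)).comp x (Real.hasDerivAt_sinh x)
    have h2 := (Real.hasDerivAt_sinh x).fun_div ((Real.hasDerivAt_cosh x).fun_pow 2)
      (by positivity)
    have h3 := (h2.fun_add h1).div_const 2
    refine HasDerivAt.congr_deriv h3 ?_
    have e : Real.sinh x ^ 2 = Real.cosh x ^ 2 - 1 := by rw [Real.cosh_sq]; ring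
    have : 1 + Real.sinh x ^ 2 = Real.cosh x ^ 2 := by rw [Real.cosh_sq]; ring
    rw [this]
    field_simp
    ring_nf
    rw [e]
    ring
  · exact Continuous.div continuous_const (Real.continuous_cosh.pow 3)
      fun x => (pow_pos (Real.cosh_pos x) 3).ne'
  · intro x; have := Real.cosh_pos x; positivity
  · have h0 : Tendsto (fun x => Real.sinh x / Real.cosh x ^ 2) atBot (𝓝 0) :=
      squeeze_zero_norm abs_sinh_div_le tendsto_cosh_atBot.inv_tendsto_atTop
    exact (h0.add ((tendsto_nhds_of_tendsto_nhdsWithin Real.tendsto_arctan_atBot).comp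
      tendsto_sinh_atBot)).div_const 2
  · have h0 : Tendsto (fun x => Real.sinh x / Real.cosh x ^ 2) atTop (𝓝 0) :=
      squeeze_zero_norm abs_sinh_div_le tendsto_cosh_atTop.inv_tendsto_atTop
    exact (h0.add ((tendsto_nhds_of_tendsto_nhdsWithin Real.tendsto_arctan_atTop).comp
      tendsto_sinh_atTop)).div_const 2

noncomputable def Wex (x : ℝ) : ℝ := 3 / 4 / Real.cosh x ^ 2

lemma Wex_rpow (x : ℝ) :
    Wex x ^ ((1:ℝ) + 1 / 2) = 3 * √3 / 8 * (1 / Real.cosh x ^ 3) := by
  have hc : 0 < Real.cosh x := Real.cosh_pos x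
  have hk2 : √3 ^ 2 = 3 := Real.sq_sqrt (by norm_num)
  have hk0 : 0 < √(3:ℝ) := Real.sqrt_pos.2 (by norm_num)
  have e : Wex x = (√3 / 2 / Real.cosh x) ^ 2 := by
    unfold Wex; rw [div_pow, div_pow, hk2]; norm_num
  have h0 : 0 ≤ √3 / 2 / Real.cosh x := by positivity
  rw [e, ← Real.rpow_natCast, ← Real.rpow_mul h0]
  have : ((2:ℕ):ℝ) * ((1:ℝ) + 1 / 2) = ((3:ℕ):ℝ) := by norm_num
  rw [this, Real.rpow_natCast, div_pow, div_pow]
  have hk3 : √(3:ℝ) ^ 3 = 3 * √3 := by rw [pow_succ, hk2]
  rw [hk3]; ring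

theorem example_pot : IsPotential 1 Wex := by
  refine ⟨?_, fun x => ?_, ?_⟩
  · unfold Wex
    exact measurable_const.div (Real.measurable_cosh.pow_const 2)
  · unfold Wex; have := Real.cosh_pos x; positivity
  · simp_rw [Wex_rpow]
    exact integral_sech_cube.1.const_mul _

theorem example_integral :
    ∫ x, Wex x ^ ((1:ℝ) + 1 / 2) = 3 * √3 * Real.pi / 16 := by
  simp_rw [Wex_rpow]
  rw [integral_const_mul, integral_sech_cube.2]
  ring

/-- if `f` and its derivative are integrable then `∫ f' = 0` -/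
lemma IsPrim.integral_eq_zero {f f' : ℝ → ℝ} (h : IsPrim f f') (hf : Integrable f volume)
    (hf' : Integrable f' volume) : ∫ x, f' x = 0 := by
  have hR : ∀ k : ℕ, ∃ x ≥ (k:ℝ), |f x| < 1 / ((k:ℝ) + 1) := fun k =>
    exists_small_right hf.abs (by positivity) _
  have hL : ∀ k : ℕ, ∃ x ≤ -(k:ℝ), |f x| < 1 / ((k:ℝ) + 1) := fun k =>
    exists_small_left hf.abs (by positivity) _
  choose b hb1 hb2 using hR
  choose a ha1 ha2 using hL
  have hb : Tendsto b atTop atTop := tendsto_atTop_mono hb1 tendsto_natCast_atTop_atTop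
  have ha : Tendsto a atTop atBot := tendsto_atBot_mono ha1
    (tendsto_neg_atTop_atBot.comp tendsto_natCast_atTop_atTop)
  have h1 := intervalIntegral_tendsto_integral hf' ha hb
  have hz : Tendsto (fun k : ℕ => 1 / ((k:ℝ) + 1)) atTop (𝓝 0) :=
    tendsto_one_div_add_atTop_nhds_zero_nat
  have h2 : Tendsto (fun k => f (b k)) atTop (𝓝 0) :=
    squeeze_zero_norm (fun k => (hb2 k).le) hz
  have h3 : Tendsto (fun k => f (a k)) atTop (𝓝 0) :=
    squeeze_zero_norm (fun k => (ha2 k).le) hz
  have h4 : Tendsto (fun k => ∫ x in (a k)..(b k), f' x) atTop (𝓝 (0 - 0)) := by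
    have := h2.sub h3
    refine this.congr fun k => ?_
    rw [h.2]
  rw [sub_zero] at h4
  exact tendsto_nhds_unique h1 h4

/-- the profile `(cosh x)^{-1/2}` -/
noncomputable def sx (x : ℝ) : ℝ := (Real.cosh x) ^ (-(1 / 2) : ℝ)

lemma sx_pos (x : ℝ) : 0 < sx x := Real.rpow_pos_of_pos (Real.cosh_pos x) _

lemma sx_sq (x : ℝ) : sx x ^ 2 = 1 / Real.cosh x := by
  unfold sx
  rw [← Real.rpow_natCast, ← Real.rpow_mul (Real.cosh_pos x).le]
  norm_num [Real.rpow_neg_one]

noncomputable def gx (x : ℝ) : ℝ := -(1 / 2) * sx x * (Real.sinh x / Real.cosh x)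

lemma hasDerivAt_sx (x : ℝ) : HasDerivAt sx (gx x) x := by
  have hc : 0 < Real.cosh x := Real.cosh_pos x
  have h := (Real.hasDerivAt_cosh x).rpow_const (p := (-(1 / 2) : ℝ)) (Or.inl hc.ne')
  refine HasDerivAt.congr_deriv h ?_
  unfold gx sx
  rw [Real.rpow_sub_one hc.ne']
  ring

lemma hasDerivAt_gx (x : ℝ) : HasDerivAt gx (1 / 4 * sx x - Wex x * sx x) x := by
  have hc : 0 < Real.cosh x := Real.cosh_pos x
  have h1 := (Real.hasDerivAt_sinh x).fun_div (Real.hasDerivAt_cosh x) hc.ne'
  have h2 := ((hasDerivAt_sx x).const_mul (-(1 / 2))).fun_mul h1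
  refine HasDerivAt.congr_deriv h2 ?_
  unfold gx Wex
  have e : Real.sinh x ^ 2 = Real.cosh x ^ 2 - 1 := by rw [Real.cosh_sq]; ring
  field_simp
  ring_nf
  rw [e]
  ring

lemma continuous_sx : Continuous sx :=
  continuous_iff_continuousAt.2 fun x => (hasDerivAt_sx x).continuousAt

lemma continuous_gx : Continuous gx :=
  continuous_iff_continuousAt.2 fun x => (hasDerivAt_gx x).continuousAt

lemma continuous_Wex : Continuous Wex := by
  unfold Wex
  exact Continuous.div continuous_const (Real.continuous_cosh.pow 2)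
    fun x => (pow_pos (Real.cosh_pos x) 2).ne'

lemma IsPrim.of_hasDerivAt {f f' : ℝ → ℝ} (h : ∀ x, HasDerivAt f (f' x) x)
    (hc : Continuous f') : IsPrim f f' :=
  ⟨fun a b => hc.intervalIntegrable a b, fun a b => by
    rw [intervalIntegral.integral_eq_sub_of_hasDerivAt (fun x _ => h x)
      (hc.intervalIntegrable _ _)]⟩

lemma memLp_sx : MemLp sx 2 volume := by
  rw [memLp_two_iff_integrable_sq continuous_sx.aestronglyMeasurable]
  simp_rw [sx_sq]
  exact integral_sech.1

lemma memLp_gx : MemLp gx 2 volume := by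
  refine memLp_sx.mono continuous_gx.aestronglyMeasurable (ae_of_all _ fun x => ?_)
  have hc : 0 < Real.cosh x := Real.cosh_pos x
  have h1 : |Real.sinh x| ≤ Real.cosh x := by
    apply abs_le_of_sq_le_sq _ hc.le
    rw [Real.cosh_sq]; linarith
  have h2 : |Real.sinh x / Real.cosh x| ≤ 1 := by
    rw [abs_div, abs_of_pos hc, div_le_one hc]; exact h1
  have h3 := (sx_pos x).le
  rw [Real.norm_eq_abs, Real.norm_eq_abs, gx, abs_mul, abs_mul, abs_of_nonneg h3]
  have : |(-(1 / 2) : ℝ)| = 1 / 2 := by rw [abs_neg]; norm_num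
  rw [this]
  nlinarith [abs_nonneg (Real.sinh x / Real.cosh x)]

lemma isH1R_sx : IsH1R sx gx :=
  ⟨memLp_sx, memLp_gx, IsPrim.of_hasDerivAt hasDerivAt_sx continuous_gx⟩

lemma Wex_bound (x : ℝ) : |Wex x| ≤ 3 / 4 := by
  have hc : 1 ≤ Real.cosh x := Real.one_le_cosh x
  unfold Wex
  rw [abs_of_nonneg (by positivity), div_le_iff₀ (by positivity)]
  nlinarith

lemma weak_real {v h : ℝ → ℝ} (hv : IsH1R v h) :
    Integrable (fun x => gx x * h x) volume ∧ Integrable (fun x => sx x * v x) volume ∧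
    Integrable (fun x => Wex x * (sx x * v x)) volume ∧
    (∫ x, gx x * h x) - ∫ x, Wex x * (sx x * v x) = -(1 / 4) * ∫ x, sx x * v x := by
  have i1 : Integrable (fun x => gx x * h x) volume := memLp_gx.integrable_mul hv.2.1
  have i2 : Integrable (fun x => sx x * v x) volume := memLp_sx.integrable_mul hv.1
  have i3 : Integrable (fun x => Wex x * (sx x * v x)) volume :=
    i2.bdd_mul continuous_Wex.aestronglyMeasurable (ae_of_all _ fun x => Wex_bound x)
  have i4 : Integrable (fun x => gx x * v x) volume := memLp_gx.integrable_mul hv.1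
  refine ⟨i1, i2, i3, ?_⟩
  have hg : IsPrim gx (fun x => 1 / 4 * sx x - Wex x * sx x) :=
    IsPrim.of_hasDerivAt hasDerivAt_gx
      ((continuous_const.mul continuous_sx).sub (continuous_Wex.mul continuous_sx))
  have hp := hg.mul hv.2.2
  have e : (fun x => (1 / 4 * sx x - Wex x * sx x) * v x + gx x * h x) =
      fun x => (1 / 4 * (sx x * v x) - Wex x * (sx x * v x)) + gx x * h x := by
    funext x; ring
  have h0 := hp.integral_eq_zero i4 (by
    rw [e]; exact ((i2.const_mul _).sub i3).add i1)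
  have i5 : Integrable (fun x => 1 / 4 * (sx x * v x) - Wex x * (sx x * v x)) volume :=
    (i2.const_mul _).sub i3
  rw [e, integral_add i5 i1, integral_sub (i2.const_mul _) i3, integral_const_mul] at h0
  linarith

lemma integral_real_mul_conj {a : ℝ → ℝ} {z : ℝ → ℂ}
    (h1 : Integrable (fun x => a x * (z x).re) volume)
    (h2 : Integrable (fun x => a x * (z x).im) volume) :
    ∫ x, (a x : ℂ) * conj (z x) =
      ((∫ x, a x * (z x).re : ℝ) : ℂ) - Complex.I * ((∫ x, a x * (z x).im : ℝ) : ℂ) := by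
  rw [← integral_complex_ofReal, ← integral_complex_ofReal, ← integral_const_mul, ← integral_sub]
  · refine integral_congr_ae (ae_of_all _ fun x => ?_)
    simp only
    apply Complex.ext <;> simp
  · exact h1.ofReal
  · exact h2.ofReal.const_mul _

theorem example_eigen : ∃ u : Fin 1 → ℝ → ℂ, IsEigenFamily Wex (fun _ => -(1 / 4)) u := by
  set k : ℝ := (√Real.pi)⁻¹ with hk
  have hk2 : k ^ 2 = Real.pi⁻¹ := by rw [hk, inv_pow, Real.sq_sqrt Real.pi_pos.le]
  refine ⟨fun _ x => ((k * sx x : ℝ) : ℂ), fun j => ⟨by norm_num, ?_⟩, fun i j => ?_⟩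
  · refine ⟨fun x => ((k * gx x : ℝ) : ℂ), ⟨?_, ?_, ?_⟩, ?_⟩
    · exact (memLp_sx.const_mul k).ofReal
    · exact (memLp_gx.const_mul k).ofReal
    · intro a b
      have h := (isH1R_sx.2.2.const_mul k).2 a b
      rw [← Complex.ofReal_sub, h, intervalIntegral.integral_ofReal]
    · intro v h hvh
      obtain ⟨a1, a2, a3, a4⟩ := weak_real hvh.re
      obtain ⟨b1, b2, b3, b4⟩ := weak_real hvh.im
      have e1 : ∫ x, ((k * gx x : ℝ) : ℂ) * conj (h x) =
          (k : ℂ) * (((∫ x, gx x * (h x).re : ℝ) : ℂ) -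
            Complex.I * ((∫ x, gx x * (h x).im : ℝ) : ℂ)) := by
        rw [← integral_real_mul_conj a1 b1, ← integral_const_mul]
        refine integral_congr_ae (ae_of_all _ fun x => ?_)
        simp only; push_cast; ring
      have e2 : ∫ x, ((k * sx x : ℝ) : ℂ) * conj (v x) =
          (k : ℂ) * (((∫ x, sx x * (v x).re : ℝ) : ℂ) -
            Complex.I * ((∫ x, sx x * (v x).im : ℝ) : ℂ)) := by
        rw [← integral_real_mul_conj a2 b2, ← integral_const_mul]
        refine integral_congr_ae (ae_of_all _ fun x => ?_)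
        simp only; push_cast; ring
      have e3 : ∫ x, (Wex x : ℂ) * (((k * sx x : ℝ) : ℂ) * conj (v x)) =
          (k : ℂ) * (((∫ x, Wex x * (sx x * (v x).re) : ℝ) : ℂ) -
            Complex.I * ((∫ x, Wex x * (sx x * (v x).im) : ℝ) : ℂ)) := by
        have a3' : Integrable (fun x => (Wex x * sx x) * (v x).re) volume := by
          simpa [mul_assoc] using a3
        have b3' : Integrable (fun x => (Wex x * sx x) * (v x).im) volume := by
          simpa [mul_assoc] using b3
        have := integral_real_mul_conj (a := fun x => Wex x * sx x) (z := v) a3' b3'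
        simp only [mul_assoc] at this ⊢
        rw [← this, ← integral_const_mul]
        refine integral_congr_ae (ae_of_all _ fun x => ?_)
        simp only; push_cast; ring
      rw [e1, e2, e3]
      have a4' := congrArg (fun t : ℝ => (t : ℂ)) a4
      have b4' := congrArg (fun t : ℝ => (t : ℂ)) b4
      push_cast at a4' b4' ⊢
      linear_combination (k : ℂ) * a4' - (k : ℂ) * Complex.I * b4'
  · have hij : i = j := Subsingleton.elim _ _
    rw [if_pos hij]
    have e : ∀ x, ((k * sx x : ℝ) : ℂ) * conj ((k * sx x : ℝ) : ℂ) =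
        ((k ^ 2 * (1 / Real.cosh x) : ℝ) : ℂ) := by
      intro x
      rw [Complex.conj_ofReal, ← Complex.ofReal_mul, ← sx_sq]
      congr 1; ring
    simp_rw [e]
    rw [integral_complex_ofReal, integral_const_mul, integral_sech.2, hk2,
      inv_mul_cancel₀ Real.pi_pos.ne']
    simp

/-- The one-bound-state constant is at least `4/(3√3π)`. -/
theorem ltOne_one_ge : ENNReal.ofReal (4 / (3 * √3 * Real.pi)) ≤ ltOne 1 := by
  obtain ⟨u, hu⟩ := example_eigen
  have hpi := Real.pi_pos
  have hk0 : 0 < √(3:ℝ) := Real.sqrt_pos.2 (by norm_num)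
  have hI := example_integral
  have hpos : 0 < ∫ x, Wex x ^ ((1:ℝ) + 1 / 2) := by rw [hI]; positivity
  refine le_trans ?_ (le_iSup_of_le Wex (le_iSup_of_le example_pot (le_iSup_of_le hpos le_rfl)))
  have h1 : ENNReal.ofReal (1 / 4) ≤ negLow 1 Wex := by
    refine le_trans (le_of_eq ?_) (le_iSup_of_le _ (le_iSup_of_le u (le_iSup_of_le hu le_rfl)))
    rw [Real.rpow_one, abs_neg, abs_of_pos (by norm_num)]
  refine le_trans ?_ (ENNReal.div_le_div_right h1 _)
  rw [hI, ← ENNReal.ofReal_div_of_pos (by positivity)]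
  refine ENNReal.ofReal_le_ofReal (le_of_eq ?_)
  have hk2 : √3 ^ 2 = 3 := Real.sq_sqrt (by norm_num)
  field_simp
  try norm_num

/-- **The sharp one-dimensional Lieb-Thirring constant at `γ = 1`.** -/
theorem ltConst_one : ltConst 1 = ltOne 1 ∧ ltOne 1 = ENNReal.ofReal (4 / (3 * √3 * Real.pi)) := by
  have h1 := ltOne_one_ge
  have h2 := ltOne_le_ltConst 1
  have h3 := ltConst_one_le
  exact ⟨le_antisymm (h3.trans h1) h2, le_antisymm (h2.trans h3) h1⟩

end P371
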