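import Vale.Agent.P371.Defs
/-! Definitions used in the final statement (scalar potentials). -/
namespace P371
open Set MeasureTheory
open scoped ENNReal ComplexConjugate

/-- `u` is (the continuous representative of) an element of `H¹(ℝ; ℂ)`, with weak derivative
`g`. -/
def IsH1 (u g : ℝ → ℂ) : Prop :=
  MemLp u 2 volume ∧ MemLp g 2 volume ∧ ∀ a b : ℝ, u b - u a = ∫ t in a..b, g t

/-- Scalar potentials for the exponent `γ`. -/
def IsPotential (γ : ℝ) (W : ℝ → ℝ) : Prop :=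
  Measurable W ∧ (∀ x, 0 ≤ W x) ∧ Integrable (fun x => W x ^ (γ + 1 / 2)) volume

/-- `u` is an eigenfunction of `H_W = -d²/dx² - W` (defined through its closed form on `H¹`)
with eigenvalue `lam`:  `∫ u' v̄' - ∫ W u v̄ = lam ∫ u v̄` for all `v ∈ H¹`. -/
def IsEigen (W : ℝ → ℝ) (lam : ℝ) (u : ℝ → ℂ) : Prop :=
  ∃ g, IsH1 u g ∧ ∀ v h, IsH1 v h →
    (∫ x, g x * conj (h x)) - ∫ x, (W x : ℂ) * (u x * conj (v x)) =
      (lam : ℂ) * ∫ x, u x * conj (v x)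

/-- An orthonormal family of eigenfunctions with negative eigenvalues. -/
def IsEigenFamily (W : ℝ → ℝ) {n : ℕ} (lam : Fin n → ℝ) (u : Fin n → ℝ → ℂ) : Prop :=
  (∀ j, lam j < 0 ∧ IsEigen W (lam j) (u j)) ∧
    ∀ i j, ∫ x, u i x * conj (u j x) = if i = j then 1 else 0

/-- `Tr (H_W)_-^γ`. -/
noncomputable def negTrace (γ : ℝ) (W : ℝ → ℝ) : ℝ≥0∞ :=
  ⨆ (n : ℕ) (lam : Fin n → ℝ) (u : Fin n → ℝ → ℂ) (_ : IsEigenFamily W lam u),
    ∑ j, ENNReal.ofReal (|lam j| ^ γ)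

/-- `|λ₁|^γ` for the lowest eigenvalue. -/
noncomputable def negLow (γ : ℝ) (W : ℝ → ℝ) : ℝ≥0∞ :=
  ⨆ (lam : Fin 1 → ℝ) (u : Fin 1 → ℝ → ℂ) (_ : IsEigenFamily W lam u),
    ENNReal.ofReal (|lam 0| ^ γ)

/-- The one-dimensional scalar Lieb-Thirring constant `L_γ(1)`. -/
noncomputable def ltConst (γ : ℝ) : ℝ≥0∞ :=
  ⨆ (W : ℝ → ℝ) (_ : IsPotential γ W) (_ : 0 < ∫ x, W x ^ (γ + 1 / 2)),
    negTrace γ W / ENNReal.ofReal (∫ x, W x ^ (γ + 1 / 2))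

/-- The one-bound-state constant `L_γ^{(1)}`. -/
noncomputable def ltOne (γ : ℝ) : ℝ≥0∞ :=
  ⨆ (W : ℝ → ℝ) (_ : IsPotential γ W) (_ : 0 < ∫ x, W x ^ (γ + 1 / 2)),
    negLow γ W / ENNReal.ofReal (∫ x, W x ^ (γ + 1 / 2))

end P371
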