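import Vale.Agent.P371.Dual
import Vale.Agent.P371.FinalDefs

/-!
# P371 : the sharp Lieb-Thirring inequality at `γ = 1`
-/

namespace P371

open Set MeasureTheory Filter Topology
open scoped ComplexConjugate ENNReal

lemma intervalIntegrable_of_memLp {E : Type*} [NormedAddCommGroup E] {g : ℝ → E}
    (h : MemLp g 2 volume) (a b : ℝ) : IntervalIntegrable g volume a b := by
  have h1 : LocallyIntegrable g volume := h.locallyIntegrable (by norm_num)
  exact intervalIntegrable_iff.2 ((h1.integrableOn_isCompact isCompact_uIcc).mono_set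
    uIoc_subset_uIcc)

lemma IsH1.re {u g : ℝ → ℂ} (h : IsH1 u g) : IsH1R (fun x => (u x).re) (fun x => (g x).re) := by
  refine ⟨h.1.re, h.2.1.re, ?_, ?_⟩
  · intro a b
    exact intervalIntegrable_of_memLp h.2.1.re a b
  · intro a b
    have hg : IntervalIntegrable g volume a b :=
      intervalIntegrable_of_memLp h.2.1 a b
    have := h.2.2 a b
    have h2 := congrArg Complex.re this
    rw [Complex.sub_re] at h2
    rw [h2]
    exact (Complex.reCLM.intervalIntegral_comp_comm hg).symm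

lemma IsH1.im {u g : ℝ → ℂ} (h : IsH1 u g) : IsH1R (fun x => (u x).im) (fun x => (g x).im) := by
  refine ⟨h.1.im, h.2.1.im, ?_, ?_⟩
  · intro a b
    exact intervalIntegrable_of_memLp h.2.1.im a b
  · intro a b
    have hg : IntervalIntegrable g volume a b :=
      intervalIntegrable_of_memLp h.2.1 a b
    have := h.2.2 a b
    have h2 := congrArg Complex.im this
    rw [Complex.sub_im] at h2
    rw [h2]
    exact (Complex.imCLM.intervalIntegral_comp_comm hg).symm

lemma memLp_conj {u : ℝ → ℂ} {p : ℝ≥0∞} (h : MemLp u p volume) :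
    MemLp (fun x => conj (u x)) p volume := by
  have := h.star
  exact this

lemma integrable_mul_conj {u v : ℝ → ℂ} (hu : MemLp u 2 volume) (hv : MemLp v 2 volume) :
    Integrable (fun x => u x * conj (v x)) volume :=
  hu.integrable_mul (memLp_conj hv)

/-- the Gram matrix of the real family `(Re u_j, Im u_j)` is at most `1` -/
lemma gram_le {n : ℕ} (u : Fin n → ℝ → ℂ) (hu : ∀ j, MemLp (u j) 2 volume)
    (horth : ∀ i j, ∫ x, u i x * conj (u j x) = if i = j then 1 else 0)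
    (α β : Fin n → ℝ) :
    ∫ x, (∑ j, (α j * (u j x).re + β j * (u j x).im)) ^ 2 ≤ ∑ j, (α j ^ 2 + β j ^ 2) := by
  set c : Fin n → ℂ := fun j => ⟨α j, - β j⟩ with hc
  have e1 : ∀ x, ∑ j, (α j * (u j x).re + β j * (u j x).im) = (∑ j, c j * u j x).re := by
    intro x
    rw [Complex.re_sum]
    refine Finset.sum_congr rfl fun j _ => ?_
    simp [hc, Complex.mul_re]
  have e2 : ∀ x, (((‖∑ j, c j * u j x‖ ^ 2 : ℝ)) : ℂ) =
      ∑ i, ∑ j, (c i * conj (c j)) * (u i x * conj (u j x)) := by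
    intro x
    push_cast
    rw [← Complex.mul_conj', map_sum, Finset.sum_mul_sum]
    refine Finset.sum_congr rfl fun i _ => Finset.sum_congr rfl fun j _ => ?_
    rw [map_mul]; ring
  have hint : ∀ i j, Integrable (fun x => (c i * conj (c j)) * (u i x * conj (u j x))) volume :=
    fun i j => (integrable_mul_conj (hu i) (hu j)).const_mul _
  have hI : Integrable (fun x => ((‖∑ j, c j * u j x‖ ^ 2 : ℝ) : ℂ)) volume := by
    simp_rw [e2]
    exact integrable_finsetSum _ fun i _ => integrable_finsetSum _ fun j _ => hint i j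
  have hI' : Integrable (fun x => ‖∑ j, c j * u j x‖ ^ 2) volume := by
    have := hI.re
    exact this
  have e3 : ((∫ x, ‖∑ j, c j * u j x‖ ^ 2 : ℝ) : ℂ) = ((∑ j, (α j ^ 2 + β j ^ 2) : ℝ) : ℂ) := by
    rw [← integral_complex_ofReal]
    simp_rw [e2]
    rw [integral_finsetSum _ fun i _ => integrable_finsetSum _ fun j _ => hint i j]
    push_cast
    refine Finset.sum_congr rfl fun i _ => ?_
    rw [integral_finsetSum _ fun j _ => hint i j]
    simp_rw [integral_const_mul, horth]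
    simp only [mul_ite, mul_one, mul_zero, Finset.sum_ite_eq, Finset.mem_univ, if_true]
    rw [Complex.mul_conj, Complex.normSq_apply]
    simp only [hc]
    push_cast
    ring
  have e4 : ∫ x, ‖∑ j, c j * u j x‖ ^ 2 = ∑ j, (α j ^ 2 + β j ^ 2) := by exact_mod_cast e3
  rw [← e4]
  refine integral_mono_of_nonneg (ae_of_all _ fun x => sq_nonneg _) hI' (ae_of_all _ fun x => ?_)
  simp only
  rw [e1]
  exact sq_le_sq' (by
    have := Complex.abs_re_le_norm (∑ j, c j * u j x)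
    linarith [(abs_le.1 this).1]) ((le_abs_self _).trans (Complex.abs_re_le_norm _))

/-- Dual inequality for complex orthonormal families. -/
theorem dual_complex {n : ℕ} (u g : Fin n → ℝ → ℂ) (h : ∀ j, IsH1 (u j) (g j))
    (horth : ∀ i j, ∫ x, u i x * conj (u j x) = if i = j then 1 else 0) :
    Integrable (fun x => (∑ j, ‖u j x‖ ^ 2) ^ 3) volume ∧
      Real.pi ^ 2 * ∫ x, (∑ j, ‖u j x‖ ^ 2) ^ 3 ≤ 4 * ∫ x, ∑ j, ‖g j x‖ ^ 2 := by
  classical
  set U : Fin n ⊕ Fin n → ℝ → ℝ := Sum.elim (fun j x => (u j x).re) (fun j x => (u j x).im) with hU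
  set V : Fin n ⊕ Fin n → ℝ → ℝ := Sum.elim (fun j x => (g j x).re) (fun j x => (g j x).im) with hV
  have h1 : ∀ i, IsH1R (U i) (V i) := by
    rintro (j | j)
    · exact (h j).re
    · exact (h j).im
  have hn : ∀ z : ℂ, ‖z‖ ^ 2 = z.re ^ 2 + z.im ^ 2 := fun z => by
    rw [← Complex.normSq_eq_norm_sq, Complex.normSq_apply]; ring
  have eU : ∀ x, ∑ i, U i x ^ 2 = ∑ j, ‖u j x‖ ^ 2 := by
    intro x
    rw [Fintype.sum_sum_type, ← Finset.sum_add_distrib]
    exact Finset.sum_congr rfl fun j _ => by simp [hU, hn]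
  have eV : ∀ x, ∑ i, V i x ^ 2 = ∑ j, ‖g j x‖ ^ 2 := by
    intro x
    rw [Fintype.sum_sum_type, ← Finset.sum_add_distrib]
    exact Finset.sum_congr rfl fun j _ => by simp [hV, hn]
  have hG : ∀ ξ : Fin n ⊕ Fin n → ℝ, ∫ x, (∑ i, ξ i * U i x) ^ 2 ≤ ∑ i, ξ i ^ 2 := by
    intro ξ
    have := gram_le u (fun j => (h j).1) horth (fun j => ξ (Sum.inl j)) (fun j => ξ (Sum.inr j))
    simp only [Fintype.sum_sum_type]
    simp only [Finset.sum_add_distrib] at this
    exact this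
  have := dual U V h1 hG
  simp_rw [eU, eV] at this
  exact this

/-- Young's inequality in the form needed. -/
lemma young {w r : ℝ} (hw : 0 ≤ w) (hr : 0 ≤ r) :
    w * r ≤ Real.pi ^ 2 / 4 * r ^ 3 + 4 / (3 * √3 * Real.pi) * w ^ ((1:ℝ) + 1 / 2) := by
  have hpi := Real.pi_pos
  set s := √w with hs
  have hs0 : 0 ≤ s := Real.sqrt_nonneg _
  have hw2 : w = s ^ 2 := (Real.sq_sqrt hw).symm
  have h3 : w ^ ((1:ℝ) + 1 / 2) = s ^ 3 := by
    rw [Real.rpow_add' hw (by norm_num), Real.rpow_one, ← Real.sqrt_eq_rpow, ← hs, hw2]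
    ring
  rw [h3, hw2]
  set k := √3 with hk
  have hk0 : 0 < k := Real.sqrt_pos.2 (by norm_num)
  have hk2 : k ^ 2 = 3 := Real.sq_sqrt (by norm_num)
  set t := k * Real.pi / 2 * r with ht
  have ht0 : 0 ≤ t := by positivity
  have hr2 : r = 2 / (k * Real.pi) * t := by rw [ht]; field_simp
  have key : 3 * s ^ 2 * t ≤ t ^ 3 + 2 * s ^ 3 := by
    nlinarith [mul_nonneg (sq_nonneg (t - s)) (by positivity : (0:ℝ) ≤ t + 2 * s)]
  have e1 : s ^ 2 * r = 2 / (3 * k * Real.pi) * (3 * s ^ 2 * t) := by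
    rw [hr2]; field_simp
  have e2 : Real.pi ^ 2 / 4 * r ^ 3 = 2 / (3 * k * Real.pi) * t ^ 3 := by
    rw [hr2]
    field_simp
    rw [hk2]; ring
  have e3 : 4 / (3 * k * Real.pi) * s ^ 3 = 2 / (3 * k * Real.pi) * (2 * s ^ 3) := by ring
  rw [e1, e2, e3, ← mul_add]
  exact mul_le_mul_of_nonneg_left key (by positivity)

/-- The sharp Lieb-Thirring inequality for orthonormal families in `H¹` (form version):
`∫ W ρ - ∑ ∫ |u_j'|² ≤ 4/(3√3π) ∫ W^{3/2}`. -/
theorem lt_form {W : ℝ → ℝ} (hW : IsPotential 1 W) {n : ℕ} (u g : Fin n → ℝ → ℂ)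
    (h : ∀ j, IsH1 (u j) (g j))
    (horth : ∀ i j, ∫ x, u i x * conj (u j x) = if i = j then 1 else 0) :
    (∀ j, Integrable (fun x => W x * ‖u j x‖ ^ 2) volume) ∧
    ∑ j, ((∫ x, W x * ‖u j x‖ ^ 2) - ∫ x, ‖g j x‖ ^ 2) ≤
      4 / (3 * √3 * Real.pi) * ∫ x, W x ^ ((1:ℝ) + 1 / 2) := by
  obtain ⟨hI, hD⟩ := dual_complex u g h horth
  set ρ : ℝ → ℝ := fun x => ∑ j, ‖u j x‖ ^ 2 with hρ
  have hρ0 : ∀ x, 0 ≤ ρ x := fun x => Finset.sum_nonneg fun i _ => sq_nonneg _
  have hbd : Integrable (fun x => Real.pi ^ 2 / 4 * ρ x ^ 3 +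
      4 / (3 * √3 * Real.pi) * W x ^ ((1:ℝ) + 1 / 2)) volume :=
    (hI.const_mul _).add (hW.2.2.const_mul _)
  have hyoung : ∀ x, W x * ρ x ≤ Real.pi ^ 2 / 4 * ρ x ^ 3 +
      4 / (3 * √3 * Real.pi) * W x ^ ((1:ℝ) + 1 / 2) := fun x => young (hW.2.1 x) (hρ0 x)
  have hle : ∀ j x, ‖u j x‖ ^ 2 ≤ ρ x := fun j x =>
    Finset.single_le_sum (f := fun j => ‖u j x‖ ^ 2) (fun i _ => sq_nonneg _) (Finset.mem_univ j)
  have hIj : ∀ j, Integrable (fun x => W x * ‖u j x‖ ^ 2) volume := by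
    intro j
    refine hbd.mono' ?_ (ae_of_all _ fun x => ?_)
    · exact hW.1.aestronglyMeasurable.mul ((h j).1.1.norm.pow 2)
    · rw [Real.norm_of_nonneg (mul_nonneg (hW.2.1 x) (sq_nonneg _))]
      exact (mul_le_mul_of_nonneg_left (hle j x) (hW.2.1 x)).trans (hyoung x)
  refine ⟨hIj, ?_⟩
  have hgj : ∀ j, Integrable (fun x => ‖g j x‖ ^ 2) volume := fun j => by
    have := (h j).2.1.norm.integrable_sq
    exact this
  rw [Finset.sum_sub_distrib, ← integral_finsetSum _ fun j _ => hIj j,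
    ← integral_finsetSum _ fun j _ => hgj j]
  have e1 : ∫ x, ∑ j, W x * ‖u j x‖ ^ 2 ≤
      Real.pi ^ 2 / 4 * (∫ x, ρ x ^ 3) +
        4 / (3 * √3 * Real.pi) * ∫ x, W x ^ ((1:ℝ) + 1 / 2) := by
    rw [← integral_const_mul, ← integral_const_mul, ← integral_add (hI.const_mul _)
      (hW.2.2.const_mul _)]
    refine integral_mono (integrable_finsetSum _ fun j _ => hIj j) hbd fun x => ?_
    simp only
    rw [← Finset.mul_sum]
    exact hyoung x
  linarith

/-- The sharp Lieb-Thirring inequality for eigenvalues at `γ = 1`. -/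
theorem lt_eigen {W : ℝ → ℝ} (hW : IsPotential 1 W) {n : ℕ} {lam : Fin n → ℝ}
    {u : Fin n → ℝ → ℂ} (hfam : IsEigenFamily W lam u) :
    ∑ j, |lam j| ≤ 4 / (3 * √3 * Real.pi) * ∫ x, W x ^ ((1:ℝ) + 1 / 2) := by
  obtain ⟨h1, horth⟩ := hfam
  choose hneg g hg hweak using h1
  obtain ⟨-, hsum⟩ := lt_form hW u g hg horth
  refine le_trans (le_of_eq ?_) hsum
  refine Finset.sum_congr rfl fun j _ => ?_
  have hw := hweak j (u j) (g j) (hg j)
  rw [horth j j, if_pos rfl, mul_one] at hw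
  have e1 : ∫ x, g j x * conj (g j x) = ((∫ x, ‖g j x‖ ^ 2 : ℝ) : ℂ) := by
    rw [← integral_complex_ofReal]
    refine integral_congr_ae (ae_of_all _ fun x => ?_)
    simp only
    rw [Complex.mul_conj']
    push_cast; rfl
  have e2 : ∫ x, (W x : ℂ) * (u j x * conj (u j x)) =
      ((∫ x, W x * ‖u j x‖ ^ 2 : ℝ) : ℂ) := by
    rw [← integral_complex_ofReal]
    refine integral_congr_ae (ae_of_all _ fun x => ?_)
    simp only
    rw [Complex.mul_conj']
    push_cast; rfl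
  rw [e1, e2] at hw
  have hw' : (∫ x, ‖g j x‖ ^ 2) - ∫ x, W x * ‖u j x‖ ^ 2 = lam j := by exact_mod_cast hw
  rw [abs_of_neg (hneg j)]
  linarith

theorem negTrace_one_le {W : ℝ → ℝ} (hW : IsPotential 1 W) :
    negTrace 1 W ≤ ENNReal.ofReal (4 / (3 * √3 * Real.pi)) *
      ENNReal.ofReal (∫ x, W x ^ ((1:ℝ) + 1 / 2)) := by
  rw [← ENNReal.ofReal_mul (by positivity)]
  refine iSup_le fun n => iSup_le fun lam => iSup_le fun u => iSup_le fun hfam => ?_
  simp only [Real.rpow_one]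
  rw [← ENNReal.ofReal_sum_of_nonneg fun j _ => abs_nonneg _]
  exact ENNReal.ofReal_le_ofReal (lt_eigen hW hfam)

theorem ltConst_one_le : ltConst 1 ≤ ENNReal.ofReal (4 / (3 * √3 * Real.pi)) := by
  refine iSup_le fun W => iSup_le fun hW => iSup_le fun hpos => ?_
  exact ENNReal.div_le_of_le_mul (negTrace_one_le hW)

theorem negLow_le_negTrace (γ : ℝ) (W : ℝ → ℝ) : negLow γ W ≤ negTrace γ W := by
  refine iSup_le fun lam => iSup_le fun u => iSup_le fun hfam => ?_
  refine le_trans ?_ (le_iSup_of_le 1 (le_iSup_of_le lam (le_iSup_of_le u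
    (le_iSup_of_le hfam le_rfl))))
  simp

theorem ltOne_le_ltConst (γ : ℝ) : ltOne γ ≤ ltConst γ := by
  refine iSup_mono fun W => iSup_mono fun hW => iSup_mono fun hpos => ?_
  gcongr
  exact negLow_le_negTrace γ W

end P371
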