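import Vale.Agent.P371.Pointwise
import Vale.Agent.P371.Trig

/-!
# P371 : two-sided polynomial approximation of the kernel coefficients
-/

namespace P371

open Polynomial Set Real Filter Topology

/-- the exact coefficient of the trigonometric kernel -/
noncomputable def Bphi (ω x y z : ℝ) : ℝ :=
  -ω ^ 2 - ω ^ 2 * ((sinc (ω * (x - y) / 2) - cos (ω * (x - y) / 2)) /
    (cos (ω * (x + z - 1) / 2) * cos (ω * (y + z - 1) / 2)))

lemma phi_bracket_eq {ω : ℝ} (h0 : 0 < ω) (h1 : ω < π) {x y z : ℝ} (hx : x ∈ Icc (0:ℝ) 1)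
    (hy : y ∈ Icc (0:ℝ) 1) (hz : z ∈ Icc (0:ℝ) 1) (hne : x ≠ y) :
    2 * ((phi ω (x + z) - phi ω (y + z)) / (x - y)) + phi ω (x + z) * phi ω (y + z) =
      Bphi ω x y z := by
  set a := ω * (x + z - 1) / 2 with ha
  set b := ω * (y + z - 1) / 2 with hb
  have hca : 0 < cos a := cos_arg_pos h0 h1 ⟨by linarith [hx.1, hz.1], by linarith [hx.2, hz.2]⟩
  have hcb : 0 < cos b := cos_arg_pos h0 h1 ⟨by linarith [hy.1, hz.1], by linarith [hy.2, hz.2]⟩
  have hab : a - b = ω * (x - y) / 2 := by rw [ha, hb]; ring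
  have hxy : x - y ≠ 0 := sub_ne_zero.2 hne
  have hδ : a - b ≠ 0 := by
    rw [hab]; positivity
  have e1 : phi ω (x + z) = -ω * (sin a / cos a) := by rw [phi, tan_eq_sin_div_cos]
  have e2 : phi ω (y + z) = -ω * (sin b / cos b) := by rw [phi, tan_eq_sin_div_cos]
  have e3 : x - y = 2 * (a - b) / ω := by rw [hab]; field_simp
  have e5 : ω * (x - y) / 2 = a - b := hab.symm
  unfold Bphi
  rw [e5, ← ha, ← hb, sinc_of_ne_zero hδ, e1, e2, e3]
  generalize hd : a - b = δ at *
  have hs : sin δ = sin a * cos b - cos a * sin b := by rw [← hd, sin_sub]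
  have hc : cos δ = cos a * cos b + sin a * sin b := by rw [← hd, cos_sub]
  rw [hs, hc]
  field_simp
  ring

theorem exists_poly_near {ω η : ℝ} (h0 : 0 < ω) (h1 : ω < π) (hη : 0 < η) :
    ∃ q : ℝ[X], ∀ x ∈ Icc (0:ℝ) 1, ∀ y ∈ Icc (0:ℝ) 1, ∀ z ∈ Icc (0:ℝ) 1,
      |2 * D q x y z + q.eval (x + z) * q.eval (y + z) - Bphi ω x y z| ≤ η := by
  -- continuity of the derivative
  have hcont : ContinuousOn (dphi ω) (Icc 0 2) := by
    unfold dphi
    refine ContinuousOn.mul continuousOn_const (ContinuousOn.div continuousOn_const ?_ ?_)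
    · exact (by fun_prop : Continuous fun z : ℝ => cos (ω * (z - 1) / 2) ^ 2).continuousOn
    · intro z hz
      have := cos_arg_pos h0 h1 hz
      positivity
  have hcontphi : ContinuousOn (phi ω) (Icc 0 2) := fun z hz =>
    (hasDerivAt_phi h0 h1 hz).continuousAt.continuousWithinAt
  obtain ⟨B, hB⟩ := isCompact_Icc.exists_bound_of_continuousOn hcontphi
  have hB0 : 0 ≤ B := (norm_nonneg _).trans (hB 0 (by simp))
  set ε := min 1 (η / (6 + 4 * B)) with hε
  have hε0 : 0 < ε := lt_min one_pos (div_pos hη (by positivity))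
  have hε1 : ε ≤ 1 := min_le_left _ _
  have hε2 : ε * (6 + 4 * B) ≤ η := by
    have : ε ≤ η / (6 + 4 * B) := min_le_right _ _
    rwa [le_div_iff₀ (by positivity)] at this
  obtain ⟨p, hp⟩ := exists_polynomial_near_of_continuousOn 0 2 (dphi ω) hcont ε hε0
  set q : ℝ[X] := antid p + C (phi ω 0 - (antid p).eval 0) with hq
  have hqd : ∀ z, HasDerivAt (fun z => q.eval z) (p.eval z) z := by
    intro z
    have := q.hasDerivAt z
    have e : derivative q = p := by rw [hq]; simp [derivative_antid]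
    rwa [e] at this
  have hdiff : ∀ z ∈ Icc (0:ℝ) 2, HasDerivWithinAt (fun z => q.eval z - phi ω z)
      (p.eval z - dphi ω z) (Icc 0 2) z := fun z hz =>
    ((hqd z).sub (hasDerivAt_phi h0 h1 hz)).hasDerivWithinAt
  have hlip : ∀ z ∈ Icc (0:ℝ) 2, ∀ w ∈ Icc (0:ℝ) 2,
      |(q.eval z - phi ω z) - (q.eval w - phi ω w)| ≤ ε * |z - w| := by
    intro z hz w hw
    have := (convex_Icc (0:ℝ) 2).norm_image_sub_le_of_norm_hasDerivWithin_le (C := ε)
      hdiff (fun x hx => (hp x hx).le) hw hz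
    simpa [Real.norm_eq_abs] using this
  have hq0 : q.eval 0 = phi ω 0 := by rw [hq]; simp
  have hclose : ∀ z ∈ Icc (0:ℝ) 2, |q.eval z - phi ω z| ≤ 2 * ε := by
    intro z hz
    have := hlip z hz 0 (by simp)
    rw [hq0, sub_self, sub_zero, sub_zero, abs_of_nonneg hz.1] at this
    nlinarith [hz.2]
  -- off diagonal
  have off : ∀ x ∈ Icc (0:ℝ) 1, ∀ y ∈ Icc (0:ℝ) 1, ∀ z ∈ Icc (0:ℝ) 1, x ≠ y →
      |2 * D q x y z + q.eval (x + z) * q.eval (y + z) - Bphi ω x y z| ≤ η := by
    intro x hx y hy z hz hne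
    have hxz : x + z ∈ Icc (0:ℝ) 2 := ⟨by linarith [hx.1, hz.1], by linarith [hx.2, hz.2]⟩
    have hyz : y + z ∈ Icc (0:ℝ) 2 := ⟨by linarith [hy.1, hz.1], by linarith [hy.2, hz.2]⟩
    have hd : x - y ≠ 0 := sub_ne_zero.2 hne
    rw [← phi_bracket_eq h0 h1 hx hy hz hne]
    have hD : D q x y z = (q.eval (x + z) - q.eval (y + z)) / (x - y) := by
      rw [← D_mul]; field_simp
    have k1 : |D q x y z - (phi ω (x + z) - phi ω (y + z)) / (x - y)| ≤ ε := by
      have h2 := hlip _ hxz _ hyz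
      rw [hD, ← sub_div, abs_div, div_le_iff₀ (abs_pos.2 hd)]
      have e1 : x + z - (y + z) = x - y := by ring
      rw [e1] at h2
      refine le_of_eq_of_le ?_ h2
      congr 1; ring
    have k2 : |q.eval (x + z) * q.eval (y + z) - phi ω (x + z) * phi ω (y + z)| ≤
        4 * B * ε + 4 * ε ^ 2 := by
      have hz1 := hclose _ hxz
      have hw1 := hclose _ hyz
      have hBz : |phi ω (x + z)| ≤ B := hB _ hxz
      have hBw : |phi ω (y + z)| ≤ B := hB _ hyz
      set X := q.eval (x + z) - phi ω (x + z) with hX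
      set Y := q.eval (y + z) - phi ω (y + z) with hY
      have e : q.eval (x + z) * q.eval (y + z) - phi ω (x + z) * phi ω (y + z) =
          phi ω (x + z) * Y + X * phi ω (y + z) + X * Y := by
        rw [hX, hY]; ring
      have b1 : |phi ω (x + z) * Y| ≤ B * (2 * ε) := by
        rw [abs_mul]; exact mul_le_mul hBz hw1 (abs_nonneg _) hB0
      have b2 : |X * phi ω (y + z)| ≤ (2 * ε) * B := by
        rw [abs_mul]; exact mul_le_mul hz1 hBw (abs_nonneg _) (by positivity)
      have b3 : |X * Y| ≤ (2 * ε) * (2 * ε) := by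
        rw [abs_mul]; exact mul_le_mul hz1 hw1 (abs_nonneg _) (by positivity)
      rw [e]
      calc |phi ω (x + z) * Y + X * phi ω (y + z) + X * Y| ≤
          |phi ω (x + z) * Y| + |X * phi ω (y + z)| + |X * Y| := abs_add_three _ _ _
        _ ≤ B * (2 * ε) + (2 * ε) * B + (2 * ε) * (2 * ε) := by linarith
        _ = _ := by ring
    have e : 2 * D q x y z + q.eval (x + z) * q.eval (y + z) -
        (2 * ((phi ω (x + z) - phi ω (y + z)) / (x - y)) + phi ω (x + z) * phi ω (y + z)) =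
        2 * (D q x y z - (phi ω (x + z) - phi ω (y + z)) / (x - y)) +
        (q.eval (x + z) * q.eval (y + z) - phi ω (x + z) * phi ω (y + z)) := by ring
    rw [e]
    calc _ ≤ |2 * (D q x y z - (phi ω (x + z) - phi ω (y + z)) / (x - y))| +
        |q.eval (x + z) * q.eval (y + z) - phi ω (x + z) * phi ω (y + z)| := abs_add_le _ _
      _ ≤ 2 * ε + (4 * B * ε + 4 * ε ^ 2) := by
        rw [abs_mul, abs_two]; linarith
      _ ≤ η := by nlinarith
  refine ⟨q, fun x hx y hy z hz => ?_⟩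
  by_cases hxy : x ≠ y
  · exact off x hx y hy z hz hxy
  push Not at hxy
  subst hxy
  obtain ⟨w, hw, hwx⟩ : ∃ w ∈ Icc (0:ℝ) 1, w ≠ x := by
    by_cases h : x = 0
    · exact ⟨1, by simp, by rw [h]; norm_num⟩
    · exact ⟨0, by simp, fun h' => h h'.symm⟩
  have hxz : x + z ∈ Icc (0:ℝ) 2 := ⟨by linarith [hx.1, hz.1], by linarith [hx.2, hz.2]⟩
  have hc0 : cos (ω * (x + z - 1) / 2) ≠ 0 := (cos_arg_pos h0 h1 hxz).ne'
  have hcontA : ContinuousAt (fun t : ℝ => |2 * D q (x + t * (w - x)) x z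
      + q.eval (x + t * (w - x) + z) * q.eval (x + z) - Bphi ω (x + t * (w - x)) x z|) 0 := by
    have c1 : Continuous fun t : ℝ => D q (x + t * (w - x)) x z :=
      (continuous_D q x z).comp (by fun_prop)
    have c2 : Continuous fun t : ℝ => q.eval (x + t * (w - x) + z) :=
      q.continuous.comp (by fun_prop)
    have c3 : ContinuousAt (fun t : ℝ => Bphi ω (x + t * (w - x)) x z) 0 := by
      unfold Bphi
      refine ContinuousAt.sub continuousAt_const (ContinuousAt.mul continuousAt_const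
        (ContinuousAt.div ?_ ?_ ?_))
      · have : Continuous fun t : ℝ => sinc (ω * (x + t * (w - x) - x) / 2) -
            cos (ω * (x + t * (w - x) - x) / 2) :=
          (continuous_sinc.comp (by fun_prop)).sub (by fun_prop)
        exact this.continuousAt
      · exact (by fun_prop : Continuous fun t : ℝ => cos (ω * (x + t * (w - x) + z - 1) / 2) *
          cos (ω * (x + z - 1) / 2)).continuousAt
      · simp only [zero_mul, add_zero]
        exact mul_ne_zero hc0 hc0
    exact (((c1.const_mul 2).add (c2.mul_const _)).continuousAt.sub c3).abs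
  have hlim := hcontA.tendsto.mono_left (nhdsWithin_le_nhds (s := Ioi (0:ℝ)))
  simp only [zero_mul, add_zero] at hlim
  refine le_of_tendsto hlim ?_
  filter_upwards [Ioo_mem_nhdsGT (zero_lt_one : (0:ℝ) < 1)] with t ht
  apply off _ _ _ hx _ hz
  · intro h
    have : t * (w - x) = 0 := by linarith
    rcases mul_eq_zero.1 this with h | h
    · linarith [ht.1]
    · exact hwx (by linarith)
  · constructor
    · nlinarith [ht.1, ht.2, hx.1, hx.2, hw.1, hw.2]
    · nlinarith [ht.1, ht.2, hx.1, hx.2, hw.1, hw.2]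

end P371
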