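import Vale.Agent.P371.Defs

/-!
# P371 : matrix-valued case, the certificate in terms of the matrix moments `U A^k Uᴴ`
(`U : κ × ι`, columns = eigenfunctions, rows = components; `M = Uᴴ U`, `A = ∫ M`).
-/

namespace P371

open Polynomial Matrix

variable {ι κ : Type*} [Fintype ι] [DecidableEq ι] [Fintype κ] [DecidableEq κ]

/-- matrix moments `m_k = U A^k Uᴴ` -/
noncomputable def mmom (A : Matrix ι ι ℂ) (U : Matrix κ ι ℂ) (k : ℕ) : Matrix κ κ ℂ :=
  U * A ^ k * Uᴴ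

/-- their derivative when `U' = V`, `A' = Uᴴ U` -/
noncomputable def dmmom (A : Matrix ι ι ℂ) (U V : Matrix κ ι ℂ) (k : ℕ) : Matrix κ κ ℂ :=
  V * A ^ k * Uᴴ + U * A ^ k * Vᴴ + ∑ j ∈ Finset.range k, mmom A U j * mmom A U (k - 1 - j)

/-- the certificate `tr (M q(L_A + R_A) M)` -/
noncomputable def certM (q : ℝ[X]) (A : Matrix ι ι ℂ) (U : Matrix κ ι ℂ) : ℝ :=
  ∑ n ∈ Finset.range (q.natDegree + 1), q.coeff n *
    ∑ k ∈ Finset.range (n + 1), (n.choose k : ℝ) *
      (trace (mmom A U k * mmom A U (n - k))).re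

/-- its derivative -/
noncomputable def dcertM (q : ℝ[X]) (A : Matrix ι ι ℂ) (U V : Matrix κ ι ℂ) : ℝ :=
  ∑ n ∈ Finset.range (q.natDegree + 1), q.coeff n *
    ∑ k ∈ Finset.range (n + 1), (n.choose k : ℝ) *
      (trace (dmmom A U V k * mmom A U (n - k) + mmom A U k * dmmom A U V (n - k))).re

end P371
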