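import Vale.Agent.P371.MatMoments
import Vale.Agent.P371.Dual

/-!
# P371 : the dual inequality for matrix-valued families
-/

namespace P371

open Set Matrix MeasureTheory Filter Topology
open scoped ComplexConjugate ComplexOrder

variable {ι κ : Type*} [Fintype ι] [DecidableEq ι] [Fintype κ] [DecidableEq κ]

/-- The pointwise certificate inequality (proved in `PointMat`). -/
def PointwiseMat (ι κ : Type*) [Fintype ι] [DecidableEq ι] [Fintype κ] [DecidableEq κ] : Prop :=
  ∀ c : ℝ, c < Real.pi ^ 2 → ∃ q : Polynomial ℝ, ∀ (A : Matrix ι ι ℂ), A.PosSemidef →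
    (1 - A).PosSemidef → ∀ U V : Matrix κ ι ℂ,
      dcertM q A U V ≤ 4 * (trace (V * Vᴴ)).re - c * (trace ((U * Uᴴ) ^ 3)).re

lemma isPrimC_integral_Iic {f : ℝ → ℂ} (hf : Integrable f volume) :
    IsPrimC (fun x => ∫ t in Iic x, f t) f := by
  have h : ∀ a b : ℝ, (∫ t in Iic b, f t) - (∫ t in Iic a, f t) = ∫ t in a..b, f t := fun a b =>
    intervalIntegral.integral_Iic_sub_Iic hf.integrableOn hf.integrableOn
  constructor
  · refine ⟨fun a b => hf.re.intervalIntegrable, fun a b => ?_⟩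
    have := congrArg Complex.re (h a b)
    rw [Complex.sub_re] at this
    rw [this]
    exact (Complex.reCLM.intervalIntegral_comp_comm hf.intervalIntegrable).symm
  · refine ⟨fun a b => hf.im.intervalIntegrable, fun a b => ?_⟩
    have := congrArg Complex.im (h a b)
    rw [Complex.sub_im] at this
    rw [this]
    exact (Complex.imCLM.intervalIntegral_comp_comm hf.intervalIntegrable).symm

/-- `A(x) = ∫_{-∞}^x Uᴴ U` -/
noncomputable def AmatC (U : ℝ → Matrix κ ι ℂ) (x : ℝ) : Matrix ι ι ℂ :=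
  Matrix.of fun i j => ∫ t in Iic x, ((U t)ᴴ * U t) i j

omit [Fintype ι] [DecidableEq ι] [DecidableEq κ] in
lemma integrable_gram {U : ℝ → Matrix κ ι ℂ} (hU : ∀ a i, MemLp (fun x => U x a i) 2 volume)
    (i j : ι) : Integrable (fun t => ((U t)ᴴ * U t) i j) volume := by
  simp only [Matrix.mul_apply, Matrix.conjTranspose_apply]
  refine integrable_finsetSum _ fun a _ => ?_
  have := (hU a i).star.integrable_mul (hU a j)
  exact this

lemma isPrimM_AmatC {U : ℝ → Matrix κ ι ℂ} (hU : ∀ a i, MemLp (fun x => U x a i) 2 volume) :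
    IsPrimM (AmatC U) (fun x => (U x)ᴴ * U x) := fun i j =>
  isPrimC_integral_Iic (integrable_gram hU i j)

/-- the matrix `∫_s Uᴴ U` is positive semidefinite -/
lemma posSemidef_setIntegral {U : ℝ → Matrix κ ι ℂ}
    (hU : ∀ a i, MemLp (fun x => U x a i) 2 volume) (s : Set ℝ) :
    (Matrix.of fun i j => ∫ t in s, ((U t)ᴴ * U t) i j : Matrix ι ι ℂ).PosSemidef := by
  have hint : ∀ i j, Integrable (fun t => ((U t)ᴴ * U t) i j) (volume.restrict s) := fun i j =>
    (integrable_gram hU i j).integrableOn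
  rw [posSemidef_iff_dotProduct_mulVec]
  constructor
  · ext i j
    rw [conjTranspose_apply, of_apply, of_apply]
    change conj (∫ t in s, ((U t)ᴴ * U t) j i) = _
    rw [← integral_conj]
    refine integral_congr_ae (ae_of_all _ fun t => ?_)
    have h := (isHermitian_conjTranspose_mul_self (U t)).apply i j
    exact h
  · intro ξ
    have e1 : star ξ ⬝ᵥ ((Matrix.of fun i j => ∫ t in s, ((U t)ᴴ * U t) i j : Matrix ι ι ℂ) *ᵥ ξ) =
        ∫ t in s, star ξ ⬝ᵥ (((U t)ᴴ * U t) *ᵥ ξ) := by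
      simp only [dotProduct, mulVec, of_apply, Finset.mul_sum]
      rw [integral_finsetSum _ fun i _ => integrable_finsetSum _ fun j _ =>
        ((hint i j).mul_const _).const_mul _]
      refine Finset.sum_congr rfl fun i _ => ?_
      rw [integral_finsetSum _ fun j _ => ((hint i j).mul_const _).const_mul _]
      refine Finset.sum_congr rfl fun j _ => ?_
      rw [integral_const_mul, integral_mul_const]
    have e2 : ∀ t, star ξ ⬝ᵥ (((U t)ᴴ * U t) *ᵥ ξ) = ((∑ a, ‖(U t *ᵥ ξ) a‖ ^ 2 : ℝ) : ℂ) := by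
      intro t
      rw [← mulVec_mulVec, dotProduct_mulVec, ← star_mulVec, dotProduct]
      push_cast
      refine Finset.sum_congr rfl fun a _ => ?_
      rw [Pi.star_apply, ← Complex.conj_mul']
      rfl
    rw [e1]
    simp_rw [e2]
    rw [integral_complex_ofReal]
    exact_mod_cast integral_nonneg fun t => Finset.sum_nonneg fun a _ => sq_nonneg _

lemma AmatC_posSemidef {U : ℝ → Matrix κ ι ℂ}
    (hU : ∀ a i, MemLp (fun x => U x a i) 2 volume) (x : ℝ) : (AmatC U x).PosSemidef :=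
  posSemidef_setIntegral hU (Iic x)

lemma one_sub_AmatC_posSemidef {U : ℝ → Matrix κ ι ℂ}
    (hU : ∀ a i, MemLp (fun x => U x a i) 2 volume)
    (horth : ∀ i j, ∫ x, ((U x)ᴴ * U x) i j = if i = j then 1 else 0) (x : ℝ) :
    (1 - AmatC U x).PosSemidef := by
  have e : 1 - AmatC U x = (Matrix.of fun i j => ∫ t in Ioi x, ((U t)ᴴ * U t) i j) := by
    ext i j
    rw [Matrix.sub_apply, Matrix.one_apply, ← horth i j]
    have h := integral_add_compl (measurableSet_Iic (a := x)) (integrable_gram hU i j)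
    rw [compl_Iic] at h
    simp only [AmatC, of_apply]
    rw [← h]; ring
  rw [e]
  exact posSemidef_setIntegral hU (Ioi x)

/-- entries of `A(x)` are bounded uniformly in `x` -/
lemma AmatC_bound {U : ℝ → Matrix κ ι ℂ} (hU : ∀ a i, MemLp (fun x => U x a i) 2 volume) :
    ∃ B : ℝ, 1 ≤ B ∧ ∀ x i j, ‖AmatC U x i j‖ ≤ B := by
  refine ⟨1 + ∑ i, ∑ j, ∫ t, ‖((U t)ᴴ * U t) i j‖, ?_, fun x i j => ?_⟩
  · have : 0 ≤ ∑ i, ∑ j, ∫ t, ‖((U t)ᴴ * U t) i j‖ :=
      Finset.sum_nonneg fun i _ => Finset.sum_nonneg fun j _ =>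
        integral_nonneg fun t => norm_nonneg _
    linarith
  · have h1 : ‖AmatC U x i j‖ ≤ ∫ t, ‖((U t)ᴴ * U t) i j‖ := by
      simp only [AmatC, of_apply]
      refine (norm_integral_le_integral_norm _).trans ?_
      exact setIntegral_le_integral (integrable_gram hU i j).norm
        (ae_of_all _ fun _ => norm_nonneg _)
    have h2 : ∫ t, ‖((U t)ᴴ * U t) i j‖ ≤ ∑ j, ∫ t, ‖((U t)ᴴ * U t) i j‖ :=
      Finset.single_le_sum (f := fun j => ∫ t, ‖((U t)ᴴ * U t) i j‖)
        (fun j _ => integral_nonneg fun t => norm_nonneg _) (Finset.mem_univ j)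
    have h3 : ∑ j, ∫ t, ‖((U t)ᴴ * U t) i j‖ ≤ ∑ i, ∑ j, ∫ t, ‖((U t)ᴴ * U t) i j‖ :=
      Finset.single_le_sum (f := fun i => ∑ j, ∫ t, ‖((U t)ᴴ * U t) i j‖)
        (fun i _ => Finset.sum_nonneg fun j _ => integral_nonneg fun t => norm_nonneg _)
        (Finset.mem_univ i)
    linarith

/-- crude bound on powers -/
lemma pow_entry_bound {A : Matrix ι ι ℂ} {B : ℝ} (hB : 1 ≤ B) (hA : ∀ i j, ‖A i j‖ ≤ B)
    (k : ℕ) (i j : ι) : ‖(A ^ k) i j‖ ≤ (Fintype.card ι * B) ^ k := by
  induction k generalizing i j with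
  | zero =>
    rw [pow_zero, pow_zero, Matrix.one_apply]
    split_ifs <;> simp
  | succ k ih =>
    rw [pow_succ', Matrix.mul_apply]
    refine (norm_sum_le _ _).trans ?_
    calc ∑ l, ‖A i l * (A ^ k) l j‖ ≤ ∑ l : ι, B * (Fintype.card ι * B) ^ k := by
          refine Finset.sum_le_sum fun l _ => ?_
          rw [norm_mul]
          exact mul_le_mul (hA i l) (ih l j) (norm_nonneg _) (by linarith)
      _ = (Fintype.card ι * B) ^ (k + 1) := by
          rw [Finset.sum_const, Finset.card_univ, nsmul_eq_mul, pow_succ]; ring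

/-- the density `ρ = ∑ ‖U_{ai}‖²` -/
noncomputable def dens (U : Matrix κ ι ℂ) : ℝ := ∑ a, ∑ i, ‖U a i‖ ^ 2

lemma dens_nonneg (U : Matrix κ ι ℂ) : 0 ≤ dens U :=
  Finset.sum_nonneg fun _ _ => Finset.sum_nonneg fun _ _ => sq_nonneg _

lemma trace_mul_conjT (U : Matrix κ ι ℂ) : (trace (U * Uᴴ)).re = dens U := by
  rw [trace, dens, Complex.re_sum]
  refine Finset.sum_congr rfl fun a _ => ?_
  rw [diag_apply, Matrix.mul_apply, Complex.re_sum]
  refine Finset.sum_congr rfl fun i _ => ?_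
  rw [conjTranspose_apply]
  change (U a i * conj (U a i)).re = _
  rw [Complex.mul_conj, Complex.ofReal_re, Complex.normSq_eq_norm_sq]

lemma entry_mul_le (U : Matrix κ ι ℂ) (a b : κ) (i j : ι) : ‖U a i‖ * ‖U b j‖ ≤ dens U := by
  have h : ∀ a i, ‖U a i‖ ^ 2 ≤ dens U := by
    intro a i
    refine (Finset.single_le_sum (f := fun i => ‖U a i‖ ^ 2) (fun _ _ => sq_nonneg _)
      (Finset.mem_univ i)).trans ?_
    exact Finset.single_le_sum (f := fun a => ∑ i, ‖U a i‖ ^ 2)
      (fun _ _ => Finset.sum_nonneg fun _ _ => sq_nonneg _) (Finset.mem_univ a)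
  nlinarith [h a i, h b j, sq_nonneg (‖U a i‖ - ‖U b j‖)]

lemma mmom_entry_bound {A : Matrix ι ι ℂ} {B : ℝ} (hB : 1 ≤ B) (hA : ∀ i j, ‖A i j‖ ≤ B)
    (U : Matrix κ ι ℂ) (k : ℕ) (a b : κ) :
    ‖mmom A U k a b‖ ≤ (Fintype.card ι) ^ 2 * (Fintype.card ι * B) ^ k * dens U := by
  rw [mmom, Matrix.mul_apply]
  refine (norm_sum_le _ _).trans ?_
  calc ∑ j, ‖(U * A ^ k) a j * Uᴴ j b‖
      ≤ ∑ j : ι, ∑ i : ι, (Fintype.card ι * B) ^ k * dens U := by
        refine Finset.sum_le_sum fun j _ => ?_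
        rw [norm_mul, conjTranspose_apply, norm_star, Matrix.mul_apply]
        refine (mul_le_mul_of_nonneg_right (norm_sum_le _ _) (norm_nonneg _)).trans ?_
        rw [Finset.sum_mul]
        refine Finset.sum_le_sum fun i _ => ?_
        rw [norm_mul]
        have h1 := pow_entry_bound hB hA k i j
        have h2 := entry_mul_le U a b i j
        calc ‖U a i‖ * ‖(A ^ k) i j‖ * ‖U b j‖ = ‖(A ^ k) i j‖ * (‖U a i‖ * ‖U b j‖) := by ring
          _ ≤ (Fintype.card ι * B) ^ k * dens U :=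
            mul_le_mul h1 h2 (by positivity) (by positivity)
    _ = _ := by
        simp only [Finset.sum_const, Finset.card_univ, nsmul_eq_mul]; ring

lemma certM_bound (q : Polynomial ℝ) {B : ℝ} (hB : 1 ≤ B) : ∃ C : ℝ, 0 ≤ C ∧
    ∀ (A : Matrix ι ι ℂ) (_ : ∀ i j, ‖A i j‖ ≤ B) (U : Matrix κ ι ℂ),
      |certM q A U| ≤ C * dens U ^ 2 := by
  set b : ℕ → ℝ := fun k => (Fintype.card ι) ^ 2 * (Fintype.card ι * B) ^ k with hb
  have hb0 : ∀ k, 0 ≤ b k := fun k => by rw [hb]; positivity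
  refine ⟨∑ n ∈ Finset.range (q.natDegree + 1), |q.coeff n| *
    ∑ k ∈ Finset.range (n + 1), (n.choose k : ℝ) * ∑ _a : κ, ∑ _b : κ, b k * b (n - k), ?_,
    fun A hA U => ?_⟩
  · refine Finset.sum_nonneg fun n _ => mul_nonneg (abs_nonneg _) ?_
    refine Finset.sum_nonneg fun k _ => mul_nonneg (Nat.cast_nonneg _) ?_
    exact Finset.sum_nonneg fun _ _ => Finset.sum_nonneg fun _ _ => mul_nonneg (hb0 _) (hb0 _)
  · rw [certM]
    refine (Finset.abs_sum_le_sum_abs _ _).trans ?_
    rw [Finset.sum_mul]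
    refine Finset.sum_le_sum fun n _ => ?_
    rw [abs_mul, mul_assoc]
    refine mul_le_mul_of_nonneg_left ?_ (abs_nonneg _)
    refine (Finset.abs_sum_le_sum_abs _ _).trans ?_
    rw [Finset.sum_mul]
    refine Finset.sum_le_sum fun k _ => ?_
    rw [abs_mul, Nat.abs_cast, mul_assoc]
    refine mul_le_mul_of_nonneg_left ?_ (Nat.cast_nonneg _)
    refine (Complex.abs_re_le_norm _).trans ?_
    rw [trace]
    refine (norm_sum_le _ _).trans ?_
    rw [Finset.sum_mul]
    refine Finset.sum_le_sum fun a _ => ?_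
    rw [diag_apply, Matrix.mul_apply]
    refine (norm_sum_le _ _).trans ?_
    rw [Finset.sum_mul]
    refine Finset.sum_le_sum fun c _ => ?_
    rw [norm_mul]
    have h1 := mmom_entry_bound hB hA U k a c
    have h2 := mmom_entry_bound hB hA U (n - k) c a
    calc ‖mmom A U k a c‖ * ‖mmom A U (n - k) c a‖ ≤ (b k * dens U) * (b (n - k) * dens U) :=
          mul_le_mul h1 h2 (norm_nonneg _) (mul_nonneg (hb0 _) (dens_nonneg U))
      _ = b k * b (n - k) * dens U ^ 2 := by ring

lemma trace_cube_nonneg (U : Matrix κ ι ℂ) : 0 ≤ (trace ((U * Uᴴ) ^ 3)).re := by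
  have h : ((U * Uᴴ) ^ 3).PosSemidef := (posSemidef_self_mul_conjTranspose U).pow 3
  exact (Complex.le_def.1 h.trace_nonneg).1

/-- The dual inequality for matrix-valued orthonormal families. -/
theorem dualMat (hP : PointwiseMat ι κ) (U V : ℝ → Matrix κ ι ℂ)
    (hU : ∀ a i, MemLp (fun x => U x a i) 2 volume)
    (hV : ∀ a i, MemLp (fun x => V x a i) 2 volume) (hUV : IsPrimM U V)
    (horth : ∀ i j, ∫ x, ((U x)ᴴ * U x) i j = if i = j then 1 else 0) :
    Integrable (fun x => (trace ((U x * (U x)ᴴ) ^ 3)).re) volume ∧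
      Real.pi ^ 2 * ∫ x, (trace ((U x * (U x)ᴴ) ^ 3)).re ≤ 4 * ∫ x, dens (V x) := by
  have hcont : ∀ a i, Continuous fun x => U x a i := fun a i => by
    have h := hUV a i
    have h1 : (fun x => U x a i) = fun x => (((U x a i).re : ℝ) : ℂ) + ((U x a i).im : ℝ) * Complex.I := by
      funext x; exact (Complex.re_add_im _).symm
    rw [h1]
    have := h.1.continuous
    have := h.2.continuous
    fun_prop
  set ρ : ℝ → ℝ := fun x => dens (U x) with hρ
  set S : ℝ → ℝ := fun x => dens (V x) with hS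
  set τ : ℝ → ℝ := fun x => (trace ((U x * (U x)ᴴ) ^ 3)).re with hτ
  have hUc : Continuous U := continuous_matrix fun a i => hcont a i
  have hτc : Continuous τ := by
    have : Continuous fun x => (U x * (U x)ᴴ) ^ 3 :=
      (hUc.matrix_mul hUc.matrix_conjTranspose).pow 3
    exact Complex.continuous_re.comp this.matrix_trace
  have hρ0 : ∀ x, 0 ≤ ρ x := fun x => dens_nonneg _
  have hS0 : ∀ x, 0 ≤ S x := fun x => dens_nonneg _
  have hτ0 : ∀ x, 0 ≤ τ x := fun x => trace_cube_nonneg _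
  have hρi : Integrable ρ volume := integrable_finsetSum _ fun a _ => integrable_finsetSum _
    fun i _ => (hU a i).norm.integrable_sq
  have hSi : Integrable S volume := integrable_finsetSum _ fun a _ => integrable_finsetSum _
    fun i _ => (hV a i).norm.integrable_sq
  obtain ⟨B, hB1, hB⟩ := AmatC_bound hU
  -- main estimate on bounded intervals
  have main : ∀ c : ℝ, 0 < c → c < Real.pi ^ 2 → ∀ R : ℝ, 0 ≤ R →
      c * ∫ x in (-R)..R, τ x ≤ 4 * ∫ x, S x := by
    intro c hc0 hc R hR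
    obtain ⟨q, hq⟩ := hP c hc
    set Φ : ℝ → ℝ := fun x => certM q (AmatC U x) (U x) with hΦ
    set dΦ : ℝ → ℝ := fun x => dcertM q (AmatC U x) (U x) (V x) with hdΦ
    have hprim : IsPrim Φ dΦ := isPrim_certM q (isPrimM_AmatC hU) hUV
    have hpt : ∀ x, dΦ x ≤ 4 * S x - c * τ x := fun x => by
      have := hq (AmatC U x) (AmatC_posSemidef hU x) (one_sub_AmatC_posSemidef hU horth x)
        (U x) (V x)
      rwa [trace_mul_conjT] at this
    obtain ⟨C, hC0, hC'⟩ := certM_bound (ι := ι) (κ := κ) q hB1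
    have hC : ∀ x, |Φ x| ≤ C * ρ x ^ 2 := fun x => hC' _ (hB x) _
    -- let δ → 0
    refine le_of_forall_pos_le_add fun ε hε => ?_
    obtain ⟨δ, hδ0, hδ⟩ : ∃ δ : ℝ, 0 < δ ∧ 2 * (C * δ ^ 2) ≤ ε := by
      have hpos : 0 < ε / (2 * (C + 1)) := by positivity
      refine ⟨√(ε / (2 * (C + 1))), Real.sqrt_pos.2 hpos, ?_⟩
      rw [Real.sq_sqrt hpos.le]
      have : 2 * (C * (ε / (2 * (C + 1)))) = ε * (C / (C + 1)) := by field_simp
      rw [this]
      have h2 : C / (C + 1) ≤ 1 := by rw [div_le_one (by positivity)]; linarith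
      nlinarith
    obtain ⟨b, hbR, hb⟩ := exists_small_right hρi hδ0 R
    obtain ⟨a, haR, ha⟩ := exists_small_left hρi hδ0 (-R)
    have hab : a ≤ b := by linarith
    have hτi : ∀ s t, IntervalIntegrable τ volume s t := fun s t => hτc.intervalIntegrable s t
    have i1 : Φ b - Φ a ≤ 4 * (∫ x in a..b, S x) - c * ∫ x in a..b, τ x := by
      rw [hprim.2 a b, ← intervalIntegral.integral_const_mul, ← intervalIntegral.integral_const_mul,
        ← intervalIntegral.integral_sub (hSi.intervalIntegrable.const_mul 4)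
          ((hτi a b).const_mul c)]
      exact intervalIntegral.integral_mono_on hab (hprim.1 a b)
        ((hSi.intervalIntegrable.const_mul 4).sub ((hτi a b).const_mul c)) fun x _ => hpt x
    have i2 : ∫ x in (-R)..R, τ x ≤ ∫ x in a..b, τ x :=
      intervalIntegral.integral_mono_interval haR (by linarith) hbR
        (ae_of_all _ fun x => hτ0 x) (hτi a b)
    have i3 : ∫ x in a..b, S x ≤ ∫ x, S x := by
      rw [intervalIntegral.integral_of_le hab]
      exact setIntegral_le_integral hSi (ae_of_all _ hS0)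
    have i4 : |Φ b| ≤ C * δ ^ 2 := (hC b).trans (by
      have := hρ0 b
      gcongr)
    have i5 : |Φ a| ≤ C * δ ^ 2 := (hC a).trans (by
      have := hρ0 a
      gcongr)
    have i6 := (abs_le.1 i4).1
    have i7 := (abs_le.1 i5).2
    nlinarith
  -- let c → π²
  have main2 : ∀ R : ℝ, 0 ≤ R → Real.pi ^ 2 * ∫ x in (-R)..R, τ x ≤ 4 * ∫ x, S x := by
    intro R hR
    have hpi : 0 < Real.pi ^ 2 := by positivity
    have hlim : Tendsto (fun c : ℝ => c * ∫ x in (-R)..R, τ x) (𝓝[<] (Real.pi ^ 2))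
        (𝓝 (Real.pi ^ 2 * ∫ x in (-R)..R, τ x)) :=
      ((continuous_id.mul continuous_const).tendsto _).mono_left nhdsWithin_le_nhds
    refine le_of_tendsto hlim ?_
    filter_upwards [Ioo_mem_nhdsLT hpi] with c hc using main c hc.1 hc.2 R hR
  have hI : Integrable τ volume := by
    refine integrable_of_intervalIntegral_norm_bounded
      (a := fun n : ℕ => -(n:ℝ)) (b := fun n : ℕ => (n:ℝ)) (l := atTop)
      ((4 * ∫ x, S x) / Real.pi ^ 2) (fun n => (hτc.integrableOn_Ioc)) ?_ ?_ ?_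
    · exact tendsto_neg_atTop_atBot.comp tendsto_natCast_atTop_atTop
    · exact tendsto_natCast_atTop_atTop
    · refine Eventually.of_forall fun n => ?_
      have hpi : 0 < Real.pi ^ 2 := by positivity
      rw [le_div_iff₀ hpi, mul_comm]
      have := main2 n (Nat.cast_nonneg n)
      refine le_trans (le_of_eq ?_) this
      congr 1
      refine intervalIntegral.integral_congr fun x _ => ?_
      rw [Real.norm_of_nonneg (hτ0 x)]
  refine ⟨hI, ?_⟩
  have hlim : Tendsto (fun n : ℕ => Real.pi ^ 2 * ∫ x in (-(n:ℝ))..n, τ x) atTop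
      (𝓝 (Real.pi ^ 2 * ∫ x, τ x)) :=
    (intervalIntegral_tendsto_integral hI
      (tendsto_neg_atTop_atBot.comp tendsto_natCast_atTop_atTop)
      tendsto_natCast_atTop_atTop).const_mul _
  exact le_of_tendsto hlim (Eventually.of_forall fun n => main2 n (Nat.cast_nonneg n))

end P371
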