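import Vale.Agent.P371.MatLT

/-!
# P371 : lower bounds and the final theorem for matrix-valued potentials at `γ = 1`
-/

namespace P371M

open Set MeasureTheory Matrix Filter Topology
open scoped ComplexConjugate ComplexOrder ENNReal
open P371 (Wex)

variable {m : ℕ}

lemma isHermitian_real_smul_one (c : ℝ) : ((c : ℂ) • (1 : Matrix (Fin m) (Fin m) ℂ)).IsHermitian := by
  rw [IsHermitian, conjTranspose_smul, conjTranspose_one]
  congr 1
  exact Complex.conj_ofReal c

lemma eigenvalues_smul_one (c : ℝ)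
    (h : ((c : ℂ) • (1 : Matrix (Fin m) (Fin m) ℂ)).IsHermitian) (i : Fin m) :
    h.eigenvalues i = c := by
  have h1 := h.mulVec_eigenvectorBasis i
  rw [smul_mulVec, one_mulVec] at h1
  have hne : (h.eigenvectorBasis i) ≠ 0 := by
    intro h0
    have := h.eigenvectorBasis.orthonormal.1 i
    rw [h0, norm_zero] at this
    exact zero_ne_one this
  have hne' : ((h.eigenvectorBasis i : EuclideanSpace ℂ (Fin m)) : Fin m → ℂ) ≠ 0 := by
    intro h0
    apply hne
    ext k
    exact congrFun h0 k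
  obtain ⟨k, hk⟩ := Function.ne_iff.1 hne'
  have h2 := congrFun h1 k
  simp only [Pi.smul_apply, smul_eq_mul] at h2
  rw [Complex.real_smul] at h2
  have h3 := mul_right_cancel₀ hk h2
  exact_mod_cast h3.symm

lemma trPow_smul_one (p c : ℝ) :
    trPow p ((c : ℂ) • (1 : Matrix (Fin m) (Fin m) ℂ)) = m * c ^ p := by
  rw [trPow, dif_pos (isHermitian_real_smul_one c)]
  simp [eigenvalues_smul_one]

/-- the potential `Wex • 1` -/
noncomputable def WexM (m : ℕ) (x : ℝ) : Matrix (Fin m) (Fin m) ℂ :=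
  ((Wex x : ℝ) : ℂ) • (1 : Matrix (Fin m) (Fin m) ℂ)

lemma WexM_pot : IsPotential 1 (WexM m) := by
  obtain ⟨h1, h2, h3⟩ := P371.example_pot
  refine ⟨fun a b => ?_, fun x => ?_, ?_⟩
  · simp only [WexM, Matrix.smul_apply, smul_eq_mul]
    exact (Complex.measurable_ofReal.comp h1).mul_const _
  · exact PosSemidef.one.smul (by exact_mod_cast h2 x)
  · simp only [WexM, trPow_smul_one]
    exact h3.const_mul _

lemma WexM_int : ∫ x, trPow ((1:ℝ) + 1 / 2) (WexM m x) = m * (3 * √3 * Real.pi / 16) := by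
  simp only [WexM, trPow_smul_one]
  rw [integral_const_mul, P371.example_integral]

lemma WexM_family : ∃ u : Fin m → ℝ → Fin m → ℂ,
    IsEigenFamily (WexM m) (fun _ => -(1 / 4)) u := by
  obtain ⟨u0, hu0⟩ := P371.example_eigen
  obtain ⟨hneg, g0, hg0, hw⟩ := hu0.1 0
  have horth := hu0.2 0 0
  rw [if_pos rfl] at horth
  refine ⟨fun j x a => if a = j then u0 0 x else 0, fun j => ⟨by norm_num, ?_⟩, fun i j => ?_⟩
  · refine ⟨fun x a => if a = j then g0 x else 0, fun a => ?_, fun v h hv => ?_⟩
    · by_cases haj : a = j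
      · simp only [haj, if_true]
        exact hg0
      · simp only [haj, if_false]
        exact ⟨MemLp.zero', MemLp.zero', fun x y => by simp⟩
    · have h1 : ∀ x, ∑ a, (if a = j then g0 x else 0) * conj (h x a) = g0 x * conj (h x j) := by
        intro x; simp [ite_mul, Finset.sum_ite_eq']
      have h2 : ∀ x, ∑ a, (if a = j then u0 0 x else 0) * conj (v x a) =
          u0 0 x * conj (v x j) := by
        intro x; simp [ite_mul, Finset.sum_ite_eq']
      have h3 : ∀ x, ∑ a, (WexM m x *ᵥ fun a => if a = j then u0 0 x else 0) a * conj (v x a) =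
          (Wex x : ℂ) * (u0 0 x * conj (v x j)) := by
        intro x
        rw [WexM, smul_mulVec, one_mulVec]
        simp only [Pi.smul_apply, smul_eq_mul]
        rw [← h2, Finset.mul_sum]
        refine Finset.sum_congr rfl fun a _ => ?_
        ring
      simp_rw [h1, h2, h3]
      exact hw _ _ (hv j)
  · by_cases hij : i = j
    · subst hij
      rw [if_pos rfl, ← horth]
      congr 1
      funext x
      rw [Finset.sum_eq_single i]
      · simp
      · intro b _ hb; simp [hb]
      · simp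
    · rw [if_neg hij]
      have : ∀ x, ∑ a, (if a = i then u0 0 x else 0) * conj (if a = j then u0 0 x else 0) = 0 := by
        intro x
        refine Finset.sum_eq_zero fun a _ => ?_
        by_cases ha : a = i
        · have : a ≠ j := fun h => hij (ha.symm.trans h)
          simp [this]
        · simp [ha]
      simp_rw [this]
      simp

theorem ltConst_one_ge (hm : 1 ≤ m) :
    ENNReal.ofReal (4 / (3 * √3 * Real.pi)) ≤ ltConst 1 m := by
  obtain ⟨u, hu⟩ := WexM_family (m := m)
  have hpi := Real.pi_pos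
  have hk0 : 0 < √(3:ℝ) := Real.sqrt_pos.2 (by norm_num)
  have hm0 : (0:ℝ) < m := by exact_mod_cast hm
  have hI := WexM_int (m := m)
  have hpos : 0 < ∫ x, trPow ((1:ℝ) + 1 / 2) (WexM m x) := by rw [hI]; positivity
  refine le_trans ?_ (le_iSup_of_le (WexM m) (le_iSup_of_le WexM_pot (le_iSup_of_le hpos le_rfl)))
  have h1 : ENNReal.ofReal (m / 4) ≤ negTrace 1 (WexM m) := by
    refine le_trans (le_of_eq ?_) (le_iSup_of_le m (le_iSup_of_le _ (le_iSup_of_le u
      (le_iSup_of_le hu le_rfl))))
    rw [Finset.sum_const, Finset.card_univ, Fintype.card_fin, Real.rpow_one, abs_neg,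
      abs_of_pos (by norm_num), nsmul_eq_mul, ENNReal.ofReal_div_of_pos (by norm_num),
      ENNReal.ofReal_div_of_pos (by norm_num)]
    simp [div_eq_mul_inv]
  refine le_trans ?_ (ENNReal.div_le_div_right h1 _)
  rw [hI, ← ENNReal.ofReal_div_of_pos (by positivity)]
  refine ENNReal.ofReal_le_ofReal (le_of_eq ?_)
  have hk2 : √3 ^ 2 = 3 := Real.sq_sqrt (by norm_num)
  field_simp
  try norm_num

theorem ltOne_one_ge : ENNReal.ofReal (4 / (3 * √3 * Real.pi)) ≤ ltOne 1 := by
  obtain ⟨u, hu⟩ := WexM_family (m := 1)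
  have hpi := Real.pi_pos
  have hk0 : 0 < √(3:ℝ) := Real.sqrt_pos.2 (by norm_num)
  have hI := WexM_int (m := 1)
  have hpos : 0 < ∫ x, trPow ((1:ℝ) + 1 / 2) (WexM 1 x) := by rw [hI]; positivity
  refine le_trans ?_ (le_iSup_of_le (WexM 1) (le_iSup_of_le WexM_pot (le_iSup_of_le hpos le_rfl)))
  have h1 : ENNReal.ofReal (1 / 4) ≤ negLow 1 (WexM 1) := by
    refine le_trans (le_of_eq ?_) (le_iSup_of_le _ (le_iSup_of_le u
      (le_iSup_of_le hu le_rfl)))
    rw [Real.rpow_one, abs_neg, abs_of_pos (by norm_num)]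
  refine le_trans ?_ (ENNReal.div_le_div_right h1 _)
  rw [hI, ← ENNReal.ofReal_div_of_pos (by positivity)]
  refine ENNReal.ofReal_le_ofReal (le_of_eq ?_)
  have hk2 : √3 ^ 2 = 3 := Real.sq_sqrt (by norm_num)
  push_cast
  field_simp
  try norm_num

theorem ltOne_le (γ : ℝ) : ltOne γ ≤ ltConst γ 1 := by
  refine iSup_mono fun W => iSup_mono fun hW => iSup_mono fun hpos => ?_
  gcongr
  refine iSup_le fun lam => iSup_le fun u => iSup_le fun hfam => ?_
  refine le_trans ?_ (le_iSup_of_le 1 (le_iSup_of_le lam (le_iSup_of_le u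
    (le_iSup_of_le hfam le_rfl))))
  simp

/-- The final theorem, given the pointwise inequality. -/
theorem final (hP : ∀ n m : ℕ, P371.PointwiseMat (Fin n) (Fin m)) (hm : 1 ≤ m) :
    ltConst 1 m = ltOne 1 ∧ ltOne 1 = ENNReal.ofReal (4 / (3 * √3 * Real.pi)) := by
  have h1 := ltConst_one_le (m := m) fun n => hP n m
  have h1' := ltConst_one_le (m := 1) fun n => hP n 1
  have h2 := ltConst_one_ge hm
  have h3 := ltOne_one_ge
  have h4 := ltOne_le 1
  have h5 : ltOne 1 = ENNReal.ofReal (4 / (3 * √3 * Real.pi)) := le_antisymm (h4.trans h1') h3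
  exact ⟨(le_antisymm h1 h2).trans h5.symm, h5⟩

end P371M
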