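import Mathlib

/-! # P371 : definitions used in the final statement (matrix-valued potentials) -/

namespace P371M

open Set MeasureTheory Matrix
open scoped ENNReal ComplexConjugate ComplexOrder

/-- `tr (A^p) = ∑ i, (eigenvalue i)^p` for a Hermitian matrix `A`. -/
noncomputable def trPow {m : ℕ} (p : ℝ) (A : Matrix (Fin m) (Fin m) ℂ) : ℝ :=
  open Classical in if h : A.IsHermitian then ∑ i, h.eigenvalues i ^ p else 0

/-- `u` is (the continuous representative of) an element of `H¹(ℝ; ℂ^m)`, with weak derivative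
`g`. -/
def IsH1 {m : ℕ} (u g : ℝ → Fin m → ℂ) : Prop :=
  ∀ a, MemLp (fun x => u x a) 2 volume ∧ MemLp (fun x => g x a) 2 volume ∧
    ∀ x y : ℝ, u y a - u x a = ∫ t in x..y, g t a

/-- `m × m` matrix potentials for the exponent `γ`. -/
def IsPotential {m : ℕ} (γ : ℝ) (W : ℝ → Matrix (Fin m) (Fin m) ℂ) : Prop :=
  (∀ a b, Measurable fun x => W x a b) ∧ (∀ x, (W x).PosSemidef) ∧
    Integrable (fun x => trPow (γ + 1 / 2) (W x)) volume

/-- `u` is an eigenfunction of `H_W = -d²/dx² - W` (defined through its closed form on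
`H¹(ℝ; ℂ^m)`) with eigenvalue `lam`. -/
def IsEigen {m : ℕ} (W : ℝ → Matrix (Fin m) (Fin m) ℂ) (lam : ℝ) (u : ℝ → Fin m → ℂ) : Prop :=
  ∃ g, IsH1 u g ∧ ∀ v h, IsH1 v h →
    (∫ x, ∑ a, g x a * conj (h x a)) - ∫ x, ∑ a, (W x *ᵥ u x) a * conj (v x a) =
      (lam : ℂ) * ∫ x, ∑ a, u x a * conj (v x a)

/-- An orthonormal family of eigenfunctions with negative eigenvalues. -/
def IsEigenFamily {m : ℕ} (W : ℝ → Matrix (Fin m) (Fin m) ℂ) {n : ℕ} (lam : Fin n → ℝ)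
    (u : Fin n → ℝ → Fin m → ℂ) : Prop :=
  (∀ j, lam j < 0 ∧ IsEigen W (lam j) (u j)) ∧
    ∀ i j, ∫ x, ∑ a, u i x a * conj (u j x a) = if i = j then 1 else 0

/-- `Tr (H_W)_-^γ`. -/
noncomputable def negTrace {m : ℕ} (γ : ℝ) (W : ℝ → Matrix (Fin m) (Fin m) ℂ) : ℝ≥0∞ :=
  ⨆ (n : ℕ) (lam : Fin n → ℝ) (u : Fin n → ℝ → Fin m → ℂ) (_ : IsEigenFamily W lam u),
    ∑ j, ENNReal.ofReal (|lam j| ^ γ)

/-- `|λ₁|^γ` for the lowest eigenvalue. -/
noncomputable def negLow {m : ℕ} (γ : ℝ) (W : ℝ → Matrix (Fin m) (Fin m) ℂ) : ℝ≥0∞ :=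
  ⨆ (lam : Fin 1 → ℝ) (u : Fin 1 → ℝ → Fin m → ℂ) (_ : IsEigenFamily W lam u),
    ENNReal.ofReal (|lam 0| ^ γ)

/-- The one-dimensional Lieb-Thirring constant `L_γ(m)`. -/
noncomputable def ltConst (γ : ℝ) (m : ℕ) : ℝ≥0∞ :=
  ⨆ (W : ℝ → Matrix (Fin m) (Fin m) ℂ) (_ : IsPotential γ W)
    (_ : 0 < ∫ x, trPow (γ + 1 / 2) (W x)),
    negTrace γ W / ENNReal.ofReal (∫ x, trPow (γ + 1 / 2) (W x))

/-- The one-bound-state constant `L_γ^{(1)}` (scalar potentials). -/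
noncomputable def ltOne (γ : ℝ) : ℝ≥0∞ :=
  ⨆ (W : ℝ → Matrix (Fin 1) (Fin 1) ℂ) (_ : IsPotential γ W)
    (_ : 0 < ∫ x, trPow (γ + 1 / 2) (W x)),
    negLow γ W / ENNReal.ofReal (∫ x, trPow (γ + 1 / 2) (W x))

end P371M
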