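import Vale.Agent.P371.MatDefs

/-!
# P371 : positive kernels needed for the matrix pointwise inequality
-/

namespace P371

open Matrix Finset MeasureTheory Filter Topology
open scoped ComplexConjugate

variable {ι : Type*} [Fintype ι]

/-- nonnegativity of the (real part of the) quadratic form -/
def NN (M : Matrix ι ι ℂ) : Prop :=
  ∀ x : ι → ℂ, 0 ≤ ∑ i, ∑ j, (conj (x i) * M i j * x j).re

/-- real kernels whose Schur product preserves nonnegativity -/
def PK (K : ι → ι → ℝ) : Prop :=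
  ∀ M : Matrix ι ι ℂ, NN M → ∀ x : ι → ℂ, 0 ≤ ∑ i, ∑ j, K i j * (conj (x i) * M i j * x j).re

lemma PK.nn {K : ι → ι → ℝ} (hK : PK K) {M : Matrix ι ι ℂ} (hM : NN M) :
    NN (Matrix.of fun i j => (K i j : ℂ) * M i j) := by
  intro x
  have h := hK M hM x
  have e : ∀ i j, (conj (x i) * (Matrix.of fun i j => (K i j : ℂ) * M i j) i j * x j).re =
      K i j * (conj (x i) * M i j * x j).re := by
    intro i j
    rw [Matrix.of_apply, ← Complex.re_ofReal_mul]
    congr 1; ring
  simp_rw [e]; exact h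

lemma PK.congr {K L : ι → ι → ℝ} (hK : PK K) (h : ∀ i j, L i j = K i j) : PK L := by
  intro M hM x
  simp_rw [h]; exact hK M hM x

lemma PK.mul {K L : ι → ι → ℝ} (hK : PK K) (hL : PK L) : PK (fun i j => K i j * L i j) := by
  intro M hM x
  have h := hK _ (hL.nn hM) x
  refine h.trans_eq (Finset.sum_congr rfl fun i _ => Finset.sum_congr rfl fun j _ => ?_)
  have e : conj (x i) * (Matrix.of fun i j => (L i j : ℂ) * M i j) i j * x j =
      (L i j : ℂ) * (conj (x i) * M i j * x j) := by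
    rw [Matrix.of_apply]; ring
  rw [e, Complex.re_ofReal_mul]; ring

lemma PK.add {K L : ι → ι → ℝ} (hK : PK K) (hL : PK L) : PK (fun i j => K i j + L i j) := by
  intro M hM x
  have h := add_nonneg (hK M hM x) (hL M hM x)
  simp_rw [add_mul, Finset.sum_add_distrib]; exact h

lemma PK.smul {K : ι → ι → ℝ} (hK : PK K) {c : ℝ} (hc : 0 ≤ c) : PK (fun i j => c * K i j) := by
  intro M hM x
  have h := mul_nonneg hc (hK M hM x)
  simp_rw [mul_assoc c, ← Finset.mul_sum]; exact h

lemma PK.one : PK (fun _ _ : ι => (1:ℝ)) := by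
  intro M hM x
  simpa using hM x

lemma PK.const {c : ℝ} (hc : 0 ≤ c) : PK (fun _ _ : ι => c) :=
  (PK.one.smul hc).congr fun _ _ => by ring

lemma PK.rank (f : ι → ℝ) : PK (fun i j => f i * f j) := by
  intro M hM x
  have h := hM (fun i => (f i : ℂ) * x i)
  refine h.trans_eq (Finset.sum_congr rfl fun i _ => Finset.sum_congr rfl fun j _ => ?_)
  rw [← Complex.re_ofReal_mul]
  congr 1
  simp only [map_mul, Complex.conj_ofReal]
  push_cast; ring

lemma PK.prod {K : ℕ → ι → ι → ℝ} (hK : ∀ n, PK (K n)) (n : ℕ) :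
    PK (fun i j => ∏ k ∈ range n, K k i j) := by
  induction n with
  | zero => simpa using (PK.one : PK (fun _ _ : ι => (1:ℝ)))
  | succ n ih => exact (ih.mul (hK n)).congr fun i j => by rw [Finset.prod_range_succ]

lemma PK.of_tendsto {K : ℕ → ι → ι → ℝ} {L : ι → ι → ℝ} (hK : ∀ n, PK (K n))
    (h : ∀ i j, Tendsto (fun n => K n i j) atTop (𝓝 (L i j))) : PK L := by
  intro M hM x
  refine ge_of_tendsto' (tendsto_finsetSum _ fun i _ => tendsto_finsetSum _ fun j _ =>
    (h i j).mul_const _) fun n => hK n M hM x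

lemma PK.integral {μ : Measure ℝ} {K : ℝ → ι → ι → ℝ} (hK : ∀ᵐ t ∂μ, PK (K t))
    (hint : ∀ i j, Integrable (fun t => K t i j) μ) : PK (fun i j => ∫ t, K t i j ∂μ) := by
  intro M hM x
  have e : ∑ i, ∑ j, (∫ t, K t i j ∂μ) * (conj (x i) * M i j * x j).re =
      ∫ t, ∑ i, ∑ j, K t i j * (conj (x i) * M i j * x j).re ∂μ := by
    rw [integral_finsetSum _ fun i _ => integrable_finsetSum _ fun j _ =>
      (hint i j).mul_const _]
    refine Finset.sum_congr rfl fun i _ => ?_
    rw [integral_finsetSum _ fun j _ => (hint i j).mul_const _]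
    refine Finset.sum_congr rfl fun j _ => ?_
    rw [integral_mul_const]
  rw [e]
  exact integral_nonneg_of_ae (hK.mono fun t ht => ht M hM x)

lemma PK.cauchy (x : ι → ℝ) (hx : ∀ i, 0 < x i) : PK (fun i j => 1 / (x i + x j)) := by
  have h := PK.integral (μ := volume.restrict (Set.Ioi (0:ℝ)))
    (K := fun t i j => Real.exp (-(x i + x j) * t)) (ι := ι) ?_ ?_
  · refine h.congr fun i j => ?_
    rw [integral_exp_mul_Ioi (by have := hx i; have := hx j; linarith), mul_zero, Real.exp_zero,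
      neg_div_neg_eq]
  · refine Eventually.of_forall fun t => (PK.rank fun i => Real.exp (-(x i) * t)).congr
      fun i j => ?_
    rw [← Real.exp_add]; congr 1; ring
  · intro i j
    exact integrableOn_exp_mul_Ioi (by have := hx i; have := hx j; linarith) 0

/-- `sin (π s y) / sin (π y)` with `y = (y_i + y_j)/2` is a positive kernel. -/
lemma PK.sin_ratio {s : ℝ} (hs0 : 0 ≤ s) (hs1 : s ≤ 1) (y : ι → ℝ)
    (hy : ∀ i, y i ∈ Set.Ioo (0:ℝ) 1) :
    PK (fun i j => Real.sin (Real.pi * (s * ((y i + y j) / 2))) /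
      Real.sin (Real.pi * ((y i + y j) / 2))) := by
  have hY : ∀ i j, (y i + y j) / 2 ∈ Set.Ioo (0:ℝ) 1 := fun i j =>
    ⟨by linarith [(hy i).1, (hy j).1], by linarith [(hy i).2, (hy j).2]⟩
  have hfac : ∀ n : ℕ, PK (fun i j => (1 - (s * ((y i + y j) / 2)) ^ 2 / ((n:ℝ) + 1) ^ 2) /
      (1 - ((y i + y j) / 2) ^ 2 / ((n:ℝ) + 1) ^ 2)) := by
    intro n
    have hn : (1:ℝ) ≤ (n:ℝ) + 1 := by
      have : (0:ℝ) ≤ n := Nat.cast_nonneg n
      linarith
    have hn0 : (0:ℝ) < (n:ℝ) + 1 := by linarith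
    have h1 : PK (fun i j => 1 / ((1 - y i / (n + 1)) / 2 + (1 - y j / (n + 1)) / 2)) :=
      PK.cauchy (fun i => (1 - y i / (n + 1)) / 2) fun i => by
        have : y i / (n + 1) < 1 := by
          rw [div_lt_one hn0]; linarith [(hy i).2]
        linarith
    have h2 : PK (fun i j => 1 / ((1 + y i / (n + 1)) / 2 + (1 + y j / (n + 1)) / 2)) :=
      PK.cauchy (fun i => (1 + y i / (n + 1)) / 2) fun i => by
        have : 0 < y i / (n + 1) := div_pos (hy i).1 hn0
        linarith
    have hs2 : 0 ≤ (1 - s ^ 2) / 2 := by nlinarith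
    refine ((PK.const (sq_nonneg s)).add ((h1.add h2).smul hs2)).congr fun i j => ?_
    obtain ⟨hY0, hY1⟩ := hY i j
    set Y := (y i + y j) / 2 with hYd
    have e1 : (1 - y i / (n + 1)) / 2 + (1 - y j / (n + 1)) / 2 = 1 - Y / (n + 1) := by
      rw [hYd]; ring
    have e2 : (1 + y i / (n + 1)) / 2 + (1 + y j / (n + 1)) / 2 = 1 + Y / (n + 1) := by
      rw [hYd]; ring
    rw [e1, e2]
    set z := Y / ((n:ℝ) + 1) with hz
    have hz0 : 0 < z := div_pos hY0 hn0
    have hz1 : z < 1 := by rw [hz, div_lt_one hn0]; linarith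
    have e3 : (s * Y) ^ 2 / ((n:ℝ) + 1) ^ 2 = s ^ 2 * z ^ 2 := by rw [hz]; field_simp
    have e4 : Y ^ 2 / ((n:ℝ) + 1) ^ 2 = z ^ 2 := by rw [hz]; field_simp
    rw [e3, e4]
    have h3 : (1 - z) ≠ 0 := by linarith
    have h4 : (1 + z) ≠ 0 := by linarith
    have h5 : (1 - z ^ 2) ≠ 0 := by
      have : (1 - z ^ 2) = (1 - z) * (1 + z) := by ring
      rw [this]; exact mul_ne_zero h3 h4
    rw [div_eq_iff h5]
    field_simp
    ring
  have hprod := fun n => (PK.prod hfac n).smul hs0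
  refine PK.of_tendsto hprod fun i j => ?_
  obtain ⟨hY0, hY1⟩ := hY i j
  set Y := (y i + y j) / 2 with hYd
  have hsin : Real.sin (Real.pi * Y) ≠ 0 := by
    refine (Real.sin_pos_of_pos_of_lt_pi (by positivity) ?_).ne'
    have := Real.pi_pos
    nlinarith
  have t1 := Real.tendsto_euler_sin_prod (s * Y)
  have t2 := Real.tendsto_euler_sin_prod Y
  refine (t1.div t2 hsin).congr fun n => ?_
  rw [Finset.prod_div_distrib, Pi.div_apply]
  have hpi := Real.pi_pos
  have hYne : Y ≠ 0 := hY0.ne'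
  rw [mul_div_mul_comm]
  congr 1
  field_simp

end P371
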