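import Vale.Agent.P371.MatKer

/-!
# P371 : the kernel inequality for `φ_ω`
-/

namespace P371

open Matrix Finset MeasureTheory Filter Topology Real
open scoped ComplexConjugate

variable {ι : Type*} [Fintype ι]

lemma PK.cos_ratio {s b : ℝ} (hs0 : 0 < s) (hs1 : s < 1) (hb : |b| ≤ (1 - s) * (π / 2))
    (θ : ι → ℝ) (hθ : ∀ i, θ i ∈ Set.Ioo (-(π / 2)) (π / 2)) :
    PK (fun i j => cos (s * ((θ i + θ j) / 2) + b) / cos ((θ i + θ j) / 2)) := by
  have hpi := Real.pi_pos
  set β : ℝ := (1 - s) * (π / 2) with hβ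
  have hβ0 : 0 < β := by rw [hβ]; exact mul_pos (by linarith) (by linarith)
  have hβ1 : 2 * β < π := by rw [hβ]; nlinarith
  obtain ⟨hb1, hb2⟩ := abs_le.1 hb
  have h2 : 0 < sin (2 * β) := sin_pos_of_pos_of_lt_pi (by linarith) hβ1
  have hA : 0 ≤ sin (β + b) / sin (2 * β) :=
    div_nonneg (sin_nonneg_of_nonneg_of_le_pi (by linarith) (by linarith)) h2.le
  have hB : 0 ≤ sin (β - b) / sin (2 * β) :=
    div_nonneg (sin_nonneg_of_nonneg_of_le_pi (by linarith) (by linarith)) h2.le
  have k1 := PK.sin_ratio hs0.le hs1.le (fun i => θ i / π + 1 / 2) fun i => by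
    obtain ⟨h3, h4⟩ := hθ i
    have e : θ i / π + 1 / 2 = (θ i + π / 2) / π := by field_simp
    constructor
    · rw [e]; exact div_pos (by linarith) hpi
    · rw [e, div_lt_one hpi]; linarith
  have k2 := PK.sin_ratio hs0.le hs1.le (fun i => 1 / 2 - θ i / π) fun i => by
    obtain ⟨h3, h4⟩ := hθ i
    have e : 1 / 2 - θ i / π = (π / 2 - θ i) / π := by field_simp
    constructor
    · rw [e]; exact div_pos (by linarith) hpi
    · rw [e, div_lt_one hpi]; linarith
  refine ((k2.smul hA).add (k1.smul hB)).congr fun i j => ?_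
  set Θ := (θ i + θ j) / 2 with hΘ
  have e1 : π * ((θ i / π + 1 / 2 + (θ j / π + 1 / 2)) / 2) = Θ + π / 2 := by
    rw [hΘ]; field_simp; ring
  have e2 : π * ((1 / 2 - θ i / π + (1 / 2 - θ j / π)) / 2) = π / 2 - Θ := by
    rw [hΘ]; field_simp; ring
  have e3 : π * (s * ((θ i / π + 1 / 2 + (θ j / π + 1 / 2)) / 2)) = (s * Θ - β) + π / 2 := by
    rw [hΘ, hβ]; field_simp; ring
  have e4 : π * (s * ((1 / 2 - θ i / π + (1 / 2 - θ j / π)) / 2)) = π / 2 - (s * Θ + β) := by
    rw [hΘ, hβ]; field_simp; ring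
  rw [e1, e2, e3, e4, sin_add_pi_div_two, sin_pi_div_two_sub, sin_add_pi_div_two,
    sin_pi_div_two_sub]
  have hsb : sin β ≠ 0 := (sin_pos_of_pos_of_lt_pi hβ0 (by linarith)).ne'
  have hcb : cos β ≠ 0 := (cos_pos_of_mem_Ioo ⟨by linarith, by linarith⟩).ne'
  have key : sin (β + b) / sin (2 * β) * cos (s * Θ + β) +
      sin (β - b) / sin (2 * β) * cos (s * Θ - β) = cos (s * Θ + b) := by
    rw [sin_two_mul, sin_add, sin_sub, cos_add, cos_sub, cos_add]
    field_simp
    ring
  rw [← key]; ring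

/-- `κ(u,v) = (ω²/2) ∫₀¹ s(1-s) cos(ω(su+(1-s)v)) ds` -/
noncomputable def kap (ω u v : ℝ) : ℝ :=
  ω ^ 2 / 2 * ∫ s in (0:ℝ)..1, s * (1 - s) * cos (ω * (s * u + (1 - s) * v))

lemma kap_comm (ω u v : ℝ) : kap ω u v = kap ω v u := by
  unfold kap
  congr 1
  have := intervalIntegral.integral_comp_sub_left (a := 0) (b := 1)
    (fun s => s * (1 - s) * cos (ω * (s * v + (1 - s) * u))) 1
  simp only [sub_zero, sub_self] at this
  rw [← this]
  refine intervalIntegral.integral_congr fun s _ => ?_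
  rw [show (1 - s) * (1 - (1 - s)) = s * (1 - s) by ring,
    show (1 - s) * v + (1 - (1 - s)) * u = s * u + (1 - s) * v by ring]

lemma kap_mul {ω : ℝ} (h0 : 0 < ω) (u v : ℝ) :
    (u - v) ^ 2 * kap ω u v = (sinc (ω * (u - v) / 2) - cos (ω * (u - v) / 2)) *
      cos (ω * (u + v) / 2) := by
  by_cases huv : u = v
  · subst huv; simp
  have hd : u - v ≠ 0 := sub_ne_zero.2 huv
  have hδ : ω * (u - v) / 2 ≠ 0 := by positivity
  rw [sinc_of_ne_zero hδ]
  have hderiv : ∀ s : ℝ, HasDerivAt (fun s : ℝ =>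
      -(s * (1 - s) * (-(ω * (u - v)) * sin (ω * (s * u + (1 - s) * v)))) +
        (1 - 2 * s) * cos (ω * (s * u + (1 - s) * v)) +
        2 * sin (ω * (s * u + (1 - s) * v)) / (ω * (u - v)))
      ((ω * (u - v)) ^ 2 * (s * (1 - s) * cos (ω * (s * u + (1 - s) * v)))) s := by
    intro s
    have hx : HasDerivAt (fun s : ℝ => ω * (s * u + (1 - s) * v)) (ω * (u - v)) s := by
      have h1 : HasDerivAt (fun s : ℝ => s * u) (1 * u) s := (hasDerivAt_id s).mul_const u
      have h2 : HasDerivAt (fun s : ℝ => (1 - s) * v) (-1 * v) s :=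
        ((hasDerivAt_id s).const_sub 1).mul_const v
      have := (h1.add h2).const_mul ω
      refine this.congr_deriv ?_
      ring
    have hsin := hx.sin
    have hcos := hx.cos
    have hp : HasDerivAt (fun s : ℝ => s * (1 - s)) (1 - 2 * s) s := by
      have := (hasDerivAt_id s).mul ((hasDerivAt_id s).const_sub 1)
      refine this.congr_deriv ?_
      simp only [id]; ring
    have hq : HasDerivAt (fun s : ℝ => 1 - 2 * s) (-2) s := by
      have := ((hasDerivAt_id s).const_mul 2).const_sub 1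
      refine this.congr_deriv ?_
      ring
    have := ((hp.mul (hsin.const_mul (-(ω * (u - v))))).neg.add (hq.mul hcos)).add
      ((hsin.const_mul 2).div_const (ω * (u - v)))
    refine this.congr_deriv ?_
    field_simp
    ring
  have hint := intervalIntegral.integral_eq_sub_of_hasDerivAt (a := 0) (b := 1)
    (fun s _ => hderiv s) (by
      apply Continuous.intervalIntegrable
      fun_prop)
  rw [intervalIntegral.integral_const_mul] at hint
  have e : (u - v) ^ 2 * kap ω u v = 1 / 2 * ((ω * (u - v)) ^ 2 *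
      ∫ s in (0:ℝ)..1, s * (1 - s) * cos (ω * (s * u + (1 - s) * v))) := by
    unfold kap; ring
  rw [e, hint]
  have eu : ω * u = ω * (u + v) / 2 + ω * (u - v) / 2 := by ring
  have ev : ω * v = ω * (u + v) / 2 - ω * (u - v) / 2 := by ring
  have ed : ω * (u - v) = 2 * (ω * (u - v) / 2) := by ring
  simp only [sub_self, mul_zero, zero_mul, one_mul, add_zero, sub_zero, zero_add, mul_one, neg_zero]
  rw [ed, eu, ev]
  generalize ω * (u - v) / 2 = δ at *
  generalize ω * (u + v) / 2 = e
  rw [cos_add, cos_sub, sin_add, sin_sub]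
  field_simp
  ring

lemma PK_kap {ω : ℝ} (h0 : 0 < ω) (h1 : ω < π) (u : ι → ℝ) (hu : ∀ i, |u i| ≤ 1 / 2)
    {w : ℝ} (hw : |w| ≤ 1 / 2) :
    PK (fun i j => (kap ω (u i) w + kap ω (u j) w) / cos (ω * (u i + u j) / 2)) := by
  have hpi := Real.pi_pos
  have key : PK (fun i j => ∫ s in Set.Ioc (0:ℝ) 1,
      ω ^ 2 * (s * (1 - s)) * (cos (s * (ω * u i - ω * u j) / 2) *
        (cos (s * ((ω * u i + ω * u j) / 2) + ω * (1 - s) * w) /
          cos ((ω * u i + ω * u j) / 2)))) := by
    refine PK.integral ?_ ?_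
    · refine ae_restrict_of_forall_mem measurableSet_Ioc fun s hs => ?_
      rcases hs.2.lt_or_eq with hs1 | hs1
      · have hpos : 0 ≤ ω ^ 2 * (s * (1 - s)) := by
          have : 0 ≤ 1 - s := by linarith
          have := hs.1.le
          positivity
        have hc : PK (fun i j => cos (s * (ω * u i - ω * u j) / 2)) := by
          refine ((PK.rank fun i => cos (s * (ω * u i) / 2)).add
            (PK.rank fun i => sin (s * (ω * u i) / 2))).congr fun i j => ?_
          rw [← cos_sub]; congr 1; ring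
        have hr := PK.cos_ratio (s := s) (b := ω * (1 - s) * w) hs.1 hs1 (by
          rw [abs_mul, abs_of_nonneg (mul_nonneg h0.le (by linarith))]
          have h3 : 0 ≤ 1 - s := by linarith
          calc ω * (1 - s) * |w| ≤ ω * (1 - s) * (1 / 2) :=
                mul_le_mul_of_nonneg_left hw (mul_nonneg h0.le h3)
            _ ≤ (1 - s) * (π / 2) := by nlinarith) (fun i => ω * u i) (fun i => by
          have h3 := abs_le.1 (hu i)
          constructor <;> nlinarith [h3.1, h3.2])
        exact (hc.mul hr).smul hpos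
      · subst hs1
        refine (PK.const le_rfl).congr fun i j => ?_
        ring
    · intro i j
      refine (Continuous.integrableOn_Icc ?_).mono_set Set.Ioc_subset_Icc_self
      fun_prop
  refine key.congr fun i j => ?_
  rw [← intervalIntegral.integral_of_le zero_le_one]
  have e1 : ∀ s : ℝ, ω ^ 2 * (s * (1 - s)) * (cos (s * (ω * u i - ω * u j) / 2) *
        (cos (s * ((ω * u i + ω * u j) / 2) + ω * (1 - s) * w) /
          cos ((ω * u i + ω * u j) / 2))) =
      (ω ^ 2 / 2 / cos (ω * (u i + u j) / 2)) * ((s * (1 - s) * cos (ω * (s * u i + (1 - s) * w))) +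
        (s * (1 - s) * cos (ω * (s * u j + (1 - s) * w)))) := by
    intro s
    have e2 : ω * (s * u i + (1 - s) * w) = (s * ((ω * u i + ω * u j) / 2) + ω * (1 - s) * w) +
      (s * (ω * u i - ω * u j) / 2) := by ring
    have e3 : ω * (s * u j + (1 - s) * w) = (s * ((ω * u i + ω * u j) / 2) + ω * (1 - s) * w) -
      (s * (ω * u i - ω * u j) / 2) := by ring
    have e4 : (ω * u i + ω * u j) / 2 = ω * (u i + u j) / 2 := by ring
    rw [e2, e3, cos_add (s * ((ω * u i + ω * u j) / 2) + ω * (1 - s) * w),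
      cos_sub (s * ((ω * u i + ω * u j) / 2) + ω * (1 - s) * w), e4]
    ring
  simp_rw [e1]
  rw [intervalIntegral.integral_const_mul, intervalIntegral.integral_add]
  · unfold kap; ring
  · apply Continuous.intervalIntegrable; fun_prop
  · apply Continuous.intervalIntegrable; fun_prop

/-- The kernel inequality. -/
theorem kernel_ineq {ω : ℝ} (h0 : 0 < ω) (h1 : ω < π) (u : ι → ℝ) (hu : ∀ i, |u i| ≤ 1 / 2)
    (M : Matrix ι ι ℂ) (hH : M.IsHermitian) (hM : NN M) :
    0 ≤ ∑ p, ∑ r, ∑ s, (sinc (ω * (u p - u r) / 2) - cos (ω * (u p - u r) / 2)) /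
      (cos (ω * (u p + u s) / 2) * cos (ω * (u r + u s) / 2)) * (M p r * M r s * M s p).re := by
  have hC : ∀ p r, 0 < cos (ω * (u p + u r) / 2) := fun p r => by
    have h3 := abs_le.1 (hu p)
    have h4 := abs_le.1 (hu r)
    have hpi := Real.pi_pos
    refine cos_pos_of_mem_Ioo ⟨?_, ?_⟩ <;> nlinarith [h3.1, h3.2, h4.1, h4.2]
  have hCs : ∀ p r, cos (ω * (u p + u r) / 2) = cos (ω * (u r + u p) / 2) := fun p r => by
    rw [add_comm]
  set C : ι → ι → ℝ := fun p r => cos (ω * (u p + u r) / 2) with hCdef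
  have hC' : ∀ p r, 0 < C p r := hC
  have hCs' : ∀ p r, C p r = C r p := hCs
  set k : ι → ι → ℝ := fun p r => kap ω (u p) (u r) with hk
  have hks : ∀ p r, k p r = k r p := fun p r => kap_comm _ _ _
  -- the symmetric weight
  set t : ι → ι → ι → ℝ := fun p r s => (M p r * M r s * M s p).re / (C p r * C r s * C s p) with ht
  have hMc : ∀ p r, conj (M p r) = M r p := fun p r => by
    have := hH.apply r p
    simpa using this
  have hswap : ∀ p r s, t p r s = t r p s := by
    intro p r s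
    simp only [ht]
    have e : conj (M p r * M r s * M s p) = M r p * M p s * M s r := by
      simp only [map_mul, hMc]; ring
    rw [← e, Complex.conj_re, hCs' r p, hCs' p s, hCs' s r]
    congr 1
    ring
  have hcyc : ∀ p r s, t p r s = t r s p := by
    intro p r s
    simp only [ht]
    rw [show M r s * M s p * M p r = M p r * M r s * M s p by ring,
      show C r s * C s p * C p r = C p r * C r s * C s p by ring]
  set G : ι → ι → ι → ℝ := fun p r s => t p r s * ((u p - u s) * (u r - u s) * k p s) with hG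
  -- positivity
  have hpos : ∀ s, 0 ≤ ∑ p, ∑ r, (G p r s + G r p s) := by
    intro s
    have h := PK_kap h0 h1 u hu (hu s) M hM (fun r => M r s * ((u r - u s) / C r s : ℝ))
    refine h.trans_eq (Finset.sum_congr rfl fun p _ => Finset.sum_congr rfl fun r _ => ?_)
    have e1 : conj (M p s * ((u p - u s) / C p s : ℝ)) * M p r * (M r s * ((u r - u s) / C r s : ℝ)) =
        (((u p - u s) / C p s * ((u r - u s) / C r s) : ℝ) : ℂ) * (M p r * M r s * M s p) := by
      rw [map_mul, hMc, Complex.conj_ofReal]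
      push_cast; ring
    rw [e1, Complex.re_ofReal_mul]
    simp only [hG]
    rw [hswap r p s]
    simp only [ht]
    have h1 := (hC' p r).ne'
    have h2 := (hC' r s).ne'
    have h3 := (hC' s p).ne'
    have h4 : C p s = C s p := hCs' p s
    change (k p s + k r s) / C p r * _ = _
    rw [h4]
    field_simp
  have hsum1 : 0 ≤ 2 * ∑ p, ∑ r, ∑ s, G p r s := by
    have h := Finset.sum_nonneg fun s (_ : s ∈ univ) => hpos s
    simp_rw [Finset.sum_add_distrib] at h
    have e1 : ∑ s, ∑ p, ∑ r, G p r s = ∑ p, ∑ r, ∑ s, G p r s := by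
      rw [Finset.sum_comm]
      exact Finset.sum_congr rfl fun p _ => Finset.sum_comm
    have e2 : ∑ s, ∑ p, ∑ r, G r p s = ∑ p, ∑ r, ∑ s, G p r s := by
      rw [← e1]
      exact Finset.sum_congr rfl fun s _ => Finset.sum_comm
    rw [e1, e2] at h
    linarith
  refine hsum1.trans_eq ?_
  have e3 : ∑ p, ∑ r, ∑ s, G p r s = ∑ p, ∑ r, ∑ s, G s r p := by
    calc ∑ p, ∑ r, ∑ s, G p r s = ∑ r, ∑ p, ∑ s, G p r s := Finset.sum_comm
      _ = ∑ r, ∑ s, ∑ p, G p r s := Finset.sum_congr rfl fun r _ => Finset.sum_comm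
      _ = ∑ r, ∑ p, ∑ s, G s r p := rfl
      _ = ∑ p, ∑ r, ∑ s, G s r p := Finset.sum_comm
  have e4 : 2 * ∑ p, ∑ r, ∑ s, G p r s =
      ∑ p, ∑ r, ∑ s, t p r s * ((u p - u s) ^ 2 * k p s) := by
    rw [two_mul]
    nth_rewrite 2 [e3]
    rw [← Finset.sum_add_distrib]
    refine Finset.sum_congr rfl fun p _ => ?_
    rw [← Finset.sum_add_distrib]
    refine Finset.sum_congr rfl fun r _ => ?_
    rw [← Finset.sum_add_distrib]
    refine Finset.sum_congr rfl fun s _ => ?_
    simp only [hG]
    rw [hks s p, hcyc s r p, hcyc r p s, hswap p s r, hcyc s p r]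
    ring
  rw [e4]
  refine Finset.sum_congr rfl fun p _ => ?_
  rw [Finset.sum_comm]
  refine Finset.sum_congr rfl fun r _ => Finset.sum_congr rfl fun s _ => ?_
  have h2 := kap_mul h0 (u p) (u r)
  change (u p - u r) ^ 2 * k p r = _ * C p r at h2
  have h3 := (hC' p r).ne'
  have h4 := (hC' r s).ne'
  have h5 := (hC' s p).ne'
  have h6 : sinc (ω * (u p - u r) / 2) - cos (ω * (u p - u r) / 2) =
      (u p - u r) ^ 2 * k p r / C p r := by
    rw [h2]; field_simp
  rw [h6]
  change _ = _ / (C p s * C r s) * _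
  rw [hcyc p s r, hswap s r p, hcyc r s p, hcyc s p r]
  simp only [ht]
  rw [hCs' p s]
  field_simp

end P371
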