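import Vale.Agent.P371.MatYoung
import Vale.Agent.P371.MatDual
import Vale.Agent.P371.Example

/-!
# P371 : the sharp matrix-valued Lieb-Thirring inequality at `γ = 1`
-/

namespace P371M

open Set MeasureTheory Matrix Filter Topology
open scoped ComplexConjugate ComplexOrder ENNReal
open P371 (IsPrimC IsPrimM PointwiseMat dens)

variable {m n : ℕ}

lemma IsH1.scalar {u g : ℝ → Fin m → ℂ} (h : IsH1 u g) (a : Fin m) :
    P371.IsH1 (fun x => u x a) (fun x => g x a) := h a

lemma IsH1.primC {u g : ℝ → Fin m → ℂ} (h : IsH1 u g) (a : Fin m) :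
    IsPrimC (fun x => u x a) (fun x => g x a) :=
  ⟨(P371.IsH1.re (h.scalar a)).2.2, (P371.IsH1.im (h.scalar a)).2.2⟩

/-- the `m × n` matrix with columns `u_j` -/
def col (u : Fin n → ℝ → Fin m → ℂ) (x : ℝ) : Matrix (Fin m) (Fin n) ℂ :=
  Matrix.of fun a j => u j x a

lemma gram_col (u : Fin n → ℝ → Fin m → ℂ)
    (horth : ∀ i j, ∫ x, ∑ a, u i x a * conj (u j x a) = if i = j then 1 else 0) (i j : Fin n) :
    ∫ x, ((col u x)ᴴ * col u x) i j = if i = j then 1 else 0 := by
  have e : ∀ x, ((col u x)ᴴ * col u x) i j = ∑ a, u j x a * conj (u i x a) := by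
    intro x
    rw [Matrix.mul_apply]
    refine Finset.sum_congr rfl fun a _ => ?_
    rw [conjTranspose_apply, mul_comm]
    rfl
  simp_rw [e, horth j i, eq_comm]

lemma trace_W (W : Matrix (Fin m) (Fin m) ℂ) (u : Fin n → ℝ → Fin m → ℂ) (x : ℝ) :
    trace (W * (col u x * (col u x)ᴴ)) = ∑ j, ∑ a, (W *ᵥ u j x) a * conj (u j x a) := by
  rw [← Matrix.mul_assoc, trace_mul_comm, trace]
  refine Finset.sum_congr rfl fun j _ => ?_
  rw [diag_apply, Matrix.mul_apply]
  refine Finset.sum_congr rfl fun a _ => ?_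
  rw [conjTranspose_apply, mul_comm, Matrix.mul_apply]
  rfl

lemma quad_nonneg {W : Matrix (Fin m) (Fin m) ℂ} (hW : W.PosSemidef) (v : Fin m → ℂ) :
    0 ≤ ∑ a, (W *ᵥ v) a * conj (v a) := by
  have h := (posSemidef_iff_dotProduct_mulVec.1 hW).2 v
  rw [dotProduct] at h
  refine h.trans (le_of_eq ?_)
  refine Finset.sum_congr rfl fun a _ => ?_
  rw [mul_comm]
  rfl

/-- The sharp inequality for orthonormal families in `H¹(ℝ; ℂ^m)` (form version). -/
theorem lt_form (hP : PointwiseMat (Fin n) (Fin m)) {W : ℝ → Matrix (Fin m) (Fin m) ℂ}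
    (hW : IsPotential 1 W) (u g : Fin n → ℝ → Fin m → ℂ) (h : ∀ j, IsH1 (u j) (g j))
    (horth : ∀ i j, ∫ x, ∑ a, u i x a * conj (u j x a) = if i = j then 1 else 0) :
    ∑ j, ((∫ x, (∑ a, (W x *ᵥ u j x) a * conj (u j x a)).re) -
        ∫ x, (∑ a, g j x a * conj (g j x a)).re) ≤
      4 / (3 * √3 * Real.pi) * ∫ x, trPow ((1:ℝ) + 1 / 2) (W x) := by
  obtain ⟨hWm, hWp, hWi⟩ := hW
  have hU : ∀ a i, MemLp (fun x => col u x a i) 2 volume := fun a i => (h i a).1
  have hV : ∀ a i, MemLp (fun x => col g x a i) 2 volume := fun a i => (h i a).2.1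
  have hUV : IsPrimM (col u) (col g) := fun a i => (h i).primC a
  obtain ⟨hI, hD⟩ := P371.dualMat hP (col u) (col g) hU hV hUV (gram_col u horth)
  set τ : ℝ → ℝ := fun x => (trace ((col u x * (col u x)ᴴ) ^ 3)).re with hτ
  have hbd : Integrable (fun x => Real.pi ^ 2 / 4 * τ x +
      4 / (3 * √3 * Real.pi) * trPow ((1:ℝ) + 1 / 2) (W x)) volume :=
    (hI.const_mul _).add (hWi.const_mul _)
  have hyoung : ∀ x, (trace (W x * (col u x * (col u x)ᴴ))).re ≤ Real.pi ^ 2 / 4 * τ x +
      4 / (3 * √3 * Real.pi) * trPow ((1:ℝ) + 1 / 2) (W x) := fun x =>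
    matYoung (hWp x) (posSemidef_self_mul_conjTranspose _)
  have hq0 : ∀ j x, 0 ≤ (∑ a, (W x *ᵥ u j x) a * conj (u j x a)).re := fun j x =>
    (Complex.le_def.1 (quad_nonneg (hWp x) (u j x))).1
  have htr : ∀ x, (trace (W x * (col u x * (col u x)ᴴ))).re =
      ∑ j, (∑ a, (W x *ᵥ u j x) a * conj (u j x a)).re := fun x => by
    rw [trace_W, Complex.re_sum]
  have hle : ∀ j x, (∑ a, (W x *ᵥ u j x) a * conj (u j x a)).re ≤
      (trace (W x * (col u x * (col u x)ᴴ))).re := fun j x => by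
    rw [htr]
    exact Finset.single_le_sum (f := fun j => (∑ a, (W x *ᵥ u j x) a * conj (u j x a)).re)
      (fun i _ => hq0 i x) (Finset.mem_univ j)
  have hIj : ∀ j, Integrable (fun x => (∑ a, (W x *ᵥ u j x) a * conj (u j x a)).re) volume := by
    intro j
    refine hbd.mono' ?_ (ae_of_all _ fun x => ?_)
    · have h1 : AEStronglyMeasurable (fun x => ∑ a, (W x *ᵥ u j x) a * conj (u j x a)) volume := by
        simp only [mulVec, dotProduct]
        refine Finset.aestronglyMeasurable_fun_sum _ fun a _ => ?_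
        refine AEStronglyMeasurable.mul ?_ ((h j a).1.1.star)
        refine Finset.aestronglyMeasurable_fun_sum _ fun b _ => ?_
        exact (hWm a b).aestronglyMeasurable.mul (h j b).1.1
      exact Complex.continuous_re.comp_aestronglyMeasurable h1
    · rw [Real.norm_of_nonneg (hq0 j x)]
      exact (hle j x).trans (hyoung x)
  have hg2 : ∀ j x, (∑ a, g j x a * conj (g j x a)).re = ∑ a, ‖g j x a‖ ^ 2 := fun j x => by
    rw [Complex.re_sum]
    refine Finset.sum_congr rfl fun a _ => ?_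
    rw [Complex.mul_conj, Complex.ofReal_re, Complex.normSq_eq_norm_sq]
  have hgj : ∀ j, Integrable (fun x => (∑ a, g j x a * conj (g j x a)).re) volume := fun j => by
    simp_rw [hg2]
    exact integrable_finsetSum _ fun a _ => (h j a).2.1.norm.integrable_sq
  rw [Finset.sum_sub_distrib, ← integral_finsetSum _ fun j _ => hIj j,
    ← integral_finsetSum _ fun j _ => hgj j]
  have e0 : ∫ x, ∑ j, (∑ a, g j x a * conj (g j x a)).re = ∫ x, dens (col g x) := by
    congr 1
    funext x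
    simp_rw [hg2]
    rw [dens, Finset.sum_comm]
    rfl
  have e1 : ∫ x, ∑ j, (∑ a, (W x *ᵥ u j x) a * conj (u j x a)).re ≤
      Real.pi ^ 2 / 4 * (∫ x, τ x) +
        4 / (3 * √3 * Real.pi) * ∫ x, trPow ((1:ℝ) + 1 / 2) (W x) := by
    rw [← integral_const_mul, ← integral_const_mul, ← integral_add (hI.const_mul _)
      (hWi.const_mul _)]
    refine integral_mono (integrable_finsetSum _ fun j _ => hIj j) hbd fun x => ?_
    simp only
    rw [← htr]
    exact hyoung x
  rw [e0]
  linarith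

lemma integral_ofReal_re {f : ℝ → ℂ} (hf : ∀ x, ((f x).re : ℂ) = f x) :
    ∫ x, f x = ((∫ x, (f x).re : ℝ) : ℂ) := by
  rw [← integral_complex_ofReal]
  exact integral_congr_ae (ae_of_all _ fun x => (hf x).symm)

/-- The sharp matrix-valued Lieb-Thirring inequality for eigenvalues at `γ = 1`. -/
theorem lt_eigen (hP : PointwiseMat (Fin n) (Fin m)) {W : ℝ → Matrix (Fin m) (Fin m) ℂ}
    (hW : IsPotential 1 W) {lam : Fin n → ℝ} {u : Fin n → ℝ → Fin m → ℂ}
    (hfam : IsEigenFamily W lam u) :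
    ∑ j, |lam j| ≤ 4 / (3 * √3 * Real.pi) * ∫ x, trPow ((1:ℝ) + 1 / 2) (W x) := by
  obtain ⟨h1, horth⟩ := hfam
  choose hneg g hg hweak using h1
  refine le_trans (le_of_eq ?_) (lt_form hP hW u g hg horth)
  refine Finset.sum_congr rfl fun j _ => ?_
  have hw := hweak j (u j) (g j) (hg j)
  rw [horth j j, if_pos rfl, mul_one] at hw
  have r1 : ∀ x, (((∑ a, g j x a * conj (g j x a)).re : ℝ) : ℂ) =
      ∑ a, g j x a * conj (g j x a) := fun x => by
    rw [Complex.re_sum]
    push_cast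
    refine Finset.sum_congr rfl fun a _ => ?_
    rw [Complex.mul_conj, Complex.ofReal_re]
  have r2 : ∀ x, (((∑ a, (W x *ᵥ u j x) a * conj (u j x a)).re : ℝ) : ℂ) =
      ∑ a, (W x *ᵥ u j x) a * conj (u j x a) := fun x => by
    have := Complex.le_def.1 (quad_nonneg (hW.2.1 x) (u j x))
    apply Complex.ext
    · simp
    · rw [Complex.ofReal_im]; exact this.2
  rw [integral_ofReal_re r1, integral_ofReal_re r2] at hw
  have hw' : (∫ x, (∑ a, g j x a * conj (g j x a)).re) -
      ∫ x, (∑ a, (W x *ᵥ u j x) a * conj (u j x a)).re = lam j := by exact_mod_cast hw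
  rw [abs_of_neg (hneg j)]
  linarith

theorem ltConst_one_le (hP : ∀ n : ℕ, PointwiseMat (Fin n) (Fin m)) :
    ltConst 1 m ≤ ENNReal.ofReal (4 / (3 * √3 * Real.pi)) := by
  refine iSup_le fun W => iSup_le fun hW => iSup_le fun hpos => ?_
  apply ENNReal.div_le_of_le_mul
  rw [← ENNReal.ofReal_mul (by positivity)]
  refine iSup_le fun n => iSup_le fun lam => iSup_le fun u => iSup_le fun hfam => ?_
  simp only [Real.rpow_one]
  rw [← ENNReal.ofReal_sum_of_nonneg fun j _ => abs_nonneg _]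
  exact ENNReal.ofReal_le_ofReal (lt_eigen (hP n) hW hfam)

end P371M
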