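import Vale.Agent.P371.AC
import Vale.Agent.P371.MatDefs

/-!
# P371 : complex and matrix-valued absolutely continuous functions; matrix moments
-/

namespace P371

open Set Matrix MeasureTheory
open scoped ComplexConjugate

/-- complex version of `IsPrim` -/
def IsPrimC (f f' : ℝ → ℂ) : Prop :=
  IsPrim (fun x => (f x).re) (fun x => (f' x).re) ∧ IsPrim (fun x => (f x).im) (fun x => (f' x).im)

namespace IsPrimC

variable {f f' g g' : ℝ → ℂ}

lemma congr_deriv {h : ℝ → ℂ} (hf : IsPrimC f f') (e : ∀ x, f' x = h x) : IsPrimC f h := by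
  have : f' = h := funext e
  rwa [this] at hf

lemma congr_fun {h : ℝ → ℂ} (hf : IsPrimC f f') (e : ∀ x, f x = h x) : IsPrimC h f' := by
  have : f = h := funext e
  rwa [this] at hf

lemma zero : IsPrimC (fun _ => 0) (fun _ => 0) := by
  constructor
  · simpa using IsPrim.const 0
  · simpa using IsPrim.const 0

lemma add (hf : IsPrimC f f') (hg : IsPrimC g g') :
    IsPrimC (fun x => f x + g x) (fun x => f' x + g' x) := by
  constructor
  · simpa using hf.1.add hg.1
  · simpa using hf.2.add hg.2

lemma sum {α : Type*} (s : Finset α) {F F' : α → ℝ → ℂ} (h : ∀ i ∈ s, IsPrimC (F i) (F' i)) :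
    IsPrimC (fun x => ∑ i ∈ s, F i x) (fun x => ∑ i ∈ s, F' i x) := by
  constructor
  · have := IsPrim.sum s (F := fun i x => (F i x).re) (F' := fun i x => (F' i x).re)
      fun i hi => (h i hi).1
    simpa using this
  · have := IsPrim.sum s (F := fun i x => (F i x).im) (F' := fun i x => (F' i x).im)
      fun i hi => (h i hi).2
    simpa using this

lemma conj' (hf : IsPrimC f f') : IsPrimC (fun x => conj (f x)) (fun x => conj (f' x)) := by
  constructor
  · simpa using hf.1
  · have := hf.2.const_mul (-1)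
    simpa using this

lemma mul (hf : IsPrimC f f') (hg : IsPrimC g g') :
    IsPrimC (fun x => f x * g x) (fun x => f' x * g x + f x * g' x) := by
  constructor
  · have h1 := (hf.1.mul hg.1).add ((hf.2.mul hg.2).const_mul (-1))
    refine (h1.congr_fun fun x => ?_).congr_deriv fun x => ?_
    · simp [Complex.mul_re]; ring
    · simp [Complex.mul_re]; ring
  · have h1 := (hf.1.mul hg.2).add (hf.2.mul hg.1)
    refine (h1.congr_fun fun x => ?_).congr_deriv fun x => ?_
    · simp [Complex.mul_im]
    · simp [Complex.mul_im]; ring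

end IsPrimC

/-- matrix-valued version -/
def IsPrimM {α β : Type*} (F F' : ℝ → Matrix α β ℂ) : Prop :=
  ∀ i j, IsPrimC (fun x => F x i j) (fun x => F' x i j)

namespace IsPrimM

variable {α β δ : Type*} [Fintype β]

lemma mul {F F' : ℝ → Matrix α β ℂ} {G G' : ℝ → Matrix β δ ℂ} (hF : IsPrimM F F')
    (hG : IsPrimM G G') : IsPrimM (fun x => F x * G x) (fun x => F' x * G x + F x * G' x) := by
  intro i j
  have h := IsPrimC.sum Finset.univ (F := fun l x => F x i l * G x l j)
    (F' := fun l x => F' x i l * G x l j + F x i l * G' x l j) fun l _ => (hF i l).mul (hG l j)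
  refine (h.congr_fun fun x => ?_).congr_deriv fun x => ?_
  · exact (Matrix.mul_apply).symm
  · change _ = (F' x * G x + F x * G' x) i j
    rw [Finset.sum_add_distrib, Matrix.add_apply, Matrix.mul_apply, Matrix.mul_apply]

omit [Fintype β] in
lemma conjT {F F' : ℝ → Matrix α β ℂ} (hF : IsPrimM F F') :
    IsPrimM (fun x => (F x)ᴴ) (fun x => (F' x)ᴴ) := by
  intro i j
  exact (hF j i).conj'

omit [Fintype β] in
lemma congr_deriv {F F' G : ℝ → Matrix α β ℂ} (hF : IsPrimM F F') (e : ∀ x, F' x = G x) :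
    IsPrimM F G := by
  have : F' = G := funext e
  rwa [this] at hF

omit [Fintype β] in
lemma congr_fun {F F' G : ℝ → Matrix α β ℂ} (hF : IsPrimM F F') (e : ∀ x, F x = G x) :
    IsPrimM G F' := by
  have : F = G := funext e
  rwa [this] at hF

lemma trace_re {F F' : ℝ → Matrix β β ℂ} (hF : IsPrimM F F') :
    IsPrim (fun x => (trace (F x)).re) (fun x => (trace (F' x)).re) := by
  have h := IsPrimC.sum Finset.univ (F := fun l x => F x l l) (F' := fun l x => F' x l l)
    fun l _ => hF l l
  exact h.1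

end IsPrimM

variable {ι κ : Type*} [Fintype ι] [DecidableEq ι] [Fintype κ] [DecidableEq κ]

omit [DecidableEq κ] in
/-- `A^k Uᴴ` is absolutely continuous with the expected derivative -/
lemma isPrimM_powU {A : ℝ → Matrix ι ι ℂ} {U V : ℝ → Matrix κ ι ℂ}
    (hA : IsPrimM A (fun x => (U x)ᴴ * U x)) (hU : IsPrimM U V) (k : ℕ) :
    IsPrimM (fun x => A x ^ k * (U x)ᴴ) (fun x => A x ^ k * (V x)ᴴ +
      ∑ j ∈ Finset.range k, A x ^ (k - 1 - j) * (U x)ᴴ * mmom (A x) (U x) j) := by
  induction k with
  | zero => simpa using hU.conjT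
  | succ k ih =>
    have h1 := hA.mul ih
    refine (h1.congr_fun fun x => ?_).congr_deriv fun x => ?_
    · rw [pow_succ', Matrix.mul_assoc]
    · rw [Finset.sum_range_succ]
      have e0 : k + 1 - 1 - k = 0 := by omega
      have e1 : ∑ j ∈ Finset.range k, A x ^ (k + 1 - 1 - j) * (U x)ᴴ * mmom (A x) (U x) j =
          A x * ∑ j ∈ Finset.range k, A x ^ (k - 1 - j) * (U x)ᴴ * mmom (A x) (U x) j := by
        rw [Matrix.mul_sum]
        refine Finset.sum_congr rfl fun j hj => ?_
        have hj' : j < k := Finset.mem_range.1 hj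
        have : k + 1 - 1 - j = (k - 1 - j) + 1 := by omega
        rw [this, pow_succ']
        simp only [Matrix.mul_assoc]
      rw [e0, e1, pow_zero, Matrix.one_mul, mmom, pow_succ', Matrix.mul_add]
      simp only [Matrix.mul_assoc]
      abel

omit [DecidableEq κ] in
theorem isPrimM_mmom {A : ℝ → Matrix ι ι ℂ} {U V : ℝ → Matrix κ ι ℂ}
    (hA : IsPrimM A (fun x => (U x)ᴴ * U x)) (hU : IsPrimM U V) (k : ℕ) :
    IsPrimM (fun x => mmom (A x) (U x) k) (fun x => dmmom (A x) (U x) (V x) k) := by
  have h1 := hU.mul (isPrimM_powU hA hU k)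
  refine (h1.congr_fun fun x => ?_).congr_deriv fun x => ?_
  · rw [mmom, Matrix.mul_assoc]
  · rw [dmmom, Matrix.mul_add, ← Matrix.mul_assoc, ← Matrix.mul_assoc, ← add_assoc]
    congr 1
    rw [← Finset.sum_range_reflect, Matrix.mul_sum]
    refine Finset.sum_congr rfl fun j hj => ?_
    have hj' : j < k := Finset.mem_range.1 hj
    have e : k - 1 - (k - 1 - j) = j := by omega
    rw [e, mmom, mmom]
    simp only [Matrix.mul_assoc]

theorem isPrim_certM (q : Polynomial ℝ) {A : ℝ → Matrix ι ι ℂ} {U V : ℝ → Matrix κ ι ℂ}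
    (hA : IsPrimM A (fun x => (U x)ᴴ * U x)) (hU : IsPrimM U V) :
    IsPrim (fun x => certM q (A x) (U x)) (fun x => dcertM q (A x) (U x) (V x)) := by
  unfold certM dcertM
  exact IsPrim.sum _ fun n _ => IsPrim.const_mul _ <| IsPrim.sum _ fun k _ =>
    IsPrim.const_mul _ <| ((isPrimM_mmom hA hU k).mul (isPrimM_mmom hA hU (n - k))).trace_re

end P371
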