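import Vale.Agent.P371.LT
import Vale.Agent.P371.MatFinalDefs

/-!
# P371 : matrix Young inequality `tr (W R) ≤ π²/4 tr R³ + 4/(3√3π) tr W^{3/2}`
-/

namespace P371M

open Set MeasureTheory Matrix
open scoped ComplexConjugate ComplexOrder

variable {m : ℕ}

/-- spectral data -/
lemma spectral {A : Matrix (Fin m) (Fin m) ℂ} (hA : A.IsHermitian) :
    ∃ P : Matrix (Fin m) (Fin m) ℂ, P * Pᴴ = 1 ∧ Pᴴ * P = 1 ∧
      A = P * diagonal (fun i => (hA.eigenvalues i : ℂ)) * Pᴴ := by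
  refine ⟨(hA.eigenvectorUnitary : Matrix (Fin m) (Fin m) ℂ), ?_, ?_, ?_⟩
  · have := (mem_unitaryGroup_iff (A := (hA.eigenvectorUnitary : Matrix (Fin m) (Fin m) ℂ))).1
      hA.eigenvectorUnitary.2
    simpa [star_eq_conjTranspose] using this
  · have := (mem_unitaryGroup_iff' (A := (hA.eigenvectorUnitary : Matrix (Fin m) (Fin m) ℂ))).1
      hA.eigenvectorUnitary.2
    simpa [star_eq_conjTranspose] using this
  · have := hA.spectral_theorem
    conv_lhs => rw [this]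
    simp [Unitary.conjStarAlgAut_apply, star_eq_conjTranspose]
    rfl

lemma pow_three_conj {P D : Matrix (Fin m) (Fin m) ℂ} (h : Pᴴ * P = 1) :
    (P * D * Pᴴ) ^ 3 = P * D ^ 3 * Pᴴ := by
  have h2 : ∀ X : Matrix (Fin m) (Fin m) ℂ, Pᴴ * (P * X) = X := fun X => by
    rw [← Matrix.mul_assoc, h, Matrix.one_mul]
  simp only [pow_succ, pow_zero, Matrix.one_mul, Matrix.mul_assoc]
  rw [h2, h2]

lemma diag_conj (P : Matrix (Fin m) (Fin m) ℂ) (d : Fin m → ℝ) (i : Fin m) :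
    (P * diagonal (fun i => (d i : ℂ)) * Pᴴ) i i = ((∑ k, ‖P i k‖ ^ 2 * d k : ℝ) : ℂ) := by
  rw [Matrix.mul_apply]
  push_cast
  refine Finset.sum_congr rfl fun k _ => ?_
  rw [mul_diagonal, conjTranspose_apply]
  change P i k * (d k : ℂ) * conj (P i k) = _
  rw [← Complex.mul_conj']
  ring

lemma diag_cube_le {R : Matrix (Fin m) (Fin m) ℂ} (hR : R.PosSemidef) (i : Fin m) :
    0 ≤ (R i i).re ∧ (R i i).re ^ 3 ≤ ((R ^ 3) i i).re := by
  obtain ⟨P, hP1, hP2, hRP⟩ := spectral hR.1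
  set r := hR.1.eigenvalues with hr
  have hr0 : ∀ k, 0 ≤ r k := fun k => hR.eigenvalues_nonneg k
  have h1 : (R i i).re = ∑ k, ‖P i k‖ ^ 2 * r k := by
    have := diag_conj P r i
    rw [← hRP] at this
    rw [this, Complex.ofReal_re]
  have h2 : ((R ^ 3) i i).re = ∑ k, ‖P i k‖ ^ 2 * r k ^ 3 := by
    have e : R ^ 3 = P * diagonal (fun i => ((r i ^ 3 : ℝ) : ℂ)) * Pᴴ := by
      conv_lhs => rw [hRP]
      rw [pow_three_conj hP2, diagonal_pow]
      congr 3
      funext k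
      simp
    have := diag_conj P (fun k => r k ^ 3) i
    rw [← e] at this
    rw [this, Complex.ofReal_re]
  have h3 : ∑ k, ‖P i k‖ ^ 2 = 1 := by
    have := diag_conj P (fun _ => 1) i
    simp only [Complex.ofReal_one, diagonal_one, hP1, mul_one] at this
    rw [Matrix.one_apply_eq] at this
    exact_mod_cast this.symm
  rw [h1, h2]
  refine ⟨Finset.sum_nonneg fun k _ => mul_nonneg (sq_nonneg _) (hr0 k), ?_⟩
  exact Real.pow_arith_mean_le_arith_mean_pow _ _ _ (fun k _ => sq_nonneg _) h3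
    (fun k _ => hr0 k) 3

theorem matYoung {W R : Matrix (Fin m) (Fin m) ℂ} (hW : W.PosSemidef) (hR : R.PosSemidef) :
    (trace (W * R)).re ≤ Real.pi ^ 2 / 4 * (trace (R ^ 3)).re +
      4 / (3 * √3 * Real.pi) * trPow ((1:ℝ) + 1 / 2) W := by
  obtain ⟨P, hP1, hP2, hWP⟩ := spectral hW.1
  set w := hW.1.eigenvalues with hw
  have hw0 : ∀ k, 0 ≤ w k := fun k => hW.eigenvalues_nonneg k
  set R' := Pᴴ * R * P with hR'
  have hR'p : R'.PosSemidef := hR.conjTranspose_mul_mul_same P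
  have hRR : R = P * R' * Pᴴ := by
    rw [hR']
    calc R = (P * Pᴴ) * R * (P * Pᴴ) := by rw [hP1, Matrix.one_mul, Matrix.mul_one]
      _ = _ := by simp only [Matrix.mul_assoc]
  have h1 : (trace (W * R)).re = ∑ i, w i * (R' i i).re := by
    have e : trace (W * R) = trace (diagonal (fun i => (w i : ℂ)) * R') := by
      conv_lhs => rw [hWP]
      rw [Matrix.mul_assoc, Matrix.mul_assoc, trace_mul_comm, Matrix.mul_assoc]
    rw [e, trace, Complex.re_sum]
    refine Finset.sum_congr rfl fun i _ => ?_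
    rw [diag_apply, diagonal_mul, Complex.re_ofReal_mul]
  have h2 : (trace (R ^ 3)).re = ∑ i, ((R' ^ 3) i i).re := by
    have e : trace (R ^ 3) = trace (R' ^ 3) := by
      conv_lhs => rw [hRR]
      rw [pow_three_conj hP2, trace_mul_comm, ← Matrix.mul_assoc, hP2, Matrix.one_mul]
    rw [e, trace, Complex.re_sum]
    rfl
  have h3 : trPow ((1:ℝ) + 1 / 2) W = ∑ i, w i ^ ((1:ℝ) + 1 / 2) := by
    rw [trPow, dif_pos hW.1]
  rw [h1, h2, h3, Finset.mul_sum, Finset.mul_sum, ← Finset.sum_add_distrib]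
  refine Finset.sum_le_sum fun i _ => ?_
  obtain ⟨h4, h5⟩ := diag_cube_le hR'p i
  have h6 := P371.young (hw0 i) h4
  have hpi := Real.pi_pos
  nlinarith [mul_le_mul_of_nonneg_left h5 (by positivity : (0:ℝ) ≤ Real.pi ^ 2 / 4)]

end P371M
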