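import Vale.Agent.P371.Defs

/-!
# P371 : the pointwise inequality for the certificate
-/

namespace P371

open Polynomial Set Matrix Finset

section scalar

/-- `T n x y z = Σ_k C(n,k) (Σ_{j<k} x^j y^{k-1-j}) z^{n-k}` -/
def T (n : ℕ) (x y z : ℝ) : ℝ :=
  ∑ k ∈ range (n + 1), (n.choose k : ℝ) * ((∑ j ∈ range k, x ^ j * y ^ (k - 1 - j)) * z ^ (n - k))

lemma T_mul (n : ℕ) (x y z : ℝ) : T n x y z * (x - y) = (x + z) ^ n - (y + z) ^ n := by
  unfold T
  rw [add_pow, add_pow, ← Finset.sum_sub_distrib, Finset.sum_mul]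
  refine Finset.sum_congr rfl fun k _ => ?_
  have h := (Commute.all x y).geom_sum₂_mul k
  calc (n.choose k : ℝ) * ((∑ j ∈ range k, x ^ j * y ^ (k - 1 - j)) * z ^ (n - k)) * (x - y)
      = (n.choose k : ℝ) * (((∑ j ∈ range k, x ^ j * y ^ (k - 1 - j)) * (x - y)) * z ^ (n - k)) := by
        ring
    _ = _ := by rw [h]; ring

/-- divided difference of `q(· + z)` -/
noncomputable def D (q : ℝ[X]) (x y z : ℝ) : ℝ :=
  ∑ n ∈ range (q.natDegree + 1), q.coeff n * T n x y z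

lemma D_mul (q : ℝ[X]) (x y z : ℝ) : D q x y z * (x - y) = q.eval (x + z) - q.eval (y + z) := by
  unfold D
  rw [eval_eq_sum_range, eval_eq_sum_range, ← Finset.sum_sub_distrib, Finset.sum_mul]
  refine Finset.sum_congr rfl fun n _ => ?_
  rw [mul_assoc, T_mul]; ring

lemma continuous_D (q : ℝ[X]) (y z : ℝ) : Continuous fun x => D q x y z := by
  unfold D T
  fun_prop

lemma bracket_le {c : ℝ} (q : ℝ[X])
    (hq2 : ∀ z ∈ Icc (0:ℝ) 2, ∀ w ∈ Icc (0:ℝ) 2, z ≠ w →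
        2 * ((q.eval z - q.eval w) / (z - w)) + q.eval z * q.eval w + c ≤ 0)
    {x y z : ℝ} (hx : x ∈ Icc (0:ℝ) 1) (hy : y ∈ Icc (0:ℝ) 1) (hz : z ∈ Icc (0:ℝ) 1) :
    2 * D q x y z + q.eval (x + z) * q.eval (y + z) + c ≤ 0 := by
  -- off diagonal case
  have off : ∀ x ∈ Icc (0:ℝ) 1, x ≠ y →
      2 * D q x y z + q.eval (x + z) * q.eval (y + z) + c ≤ 0 := by
    intro x hx hne
    have h := hq2 (x + z) ⟨by linarith [hx.1, hz.1], by linarith [hx.2, hz.2]⟩ (y + z)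
      ⟨by linarith [hy.1, hz.1], by linarith [hy.2, hz.2]⟩ (by intro h; exact hne (by linarith))
    have h2 : D q x y z = (q.eval (x + z) - q.eval (y + z)) / (x + z - (y + z)) := by
      rw [← D_mul]; field_simp [sub_ne_zero.2 hne]
      ring
    rw [h2]; exact h
  by_cases hxy : x ≠ y
  · exact off x hx hxy
  push Not at hxy
  subst hxy
  -- approximate by points different from `x`
  obtain ⟨p, hp, hpx⟩ : ∃ p ∈ Icc (0:ℝ) 1, p ≠ x := by
    by_cases h : x = 0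
    · exact ⟨1, by simp, by rw [h]; norm_num⟩
    · exact ⟨0, by simp, fun h' => h h'.symm⟩
  have hcont : Continuous fun t : ℝ => 2 * D q (x + t * (p - x)) x z
      + q.eval (x + t * (p - x) + z) * q.eval (x + z) + c := by
    have h1 : Continuous fun t : ℝ => D q (x + t * (p - x)) x z :=
      (continuous_D q x z).comp (by fun_prop)
    have h2 : Continuous fun t : ℝ => q.eval (x + t * (p - x) + z) :=
      q.continuous.comp (by fun_prop)
    fun_prop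
  have hlim : Filter.Tendsto (fun t : ℝ => 2 * D q (x + t * (p - x)) x z
      + q.eval (x + t * (p - x) + z) * q.eval (x + z) + c) (nhdsWithin 0 (Ioi 0))
      (nhds (2 * D q x x z + q.eval (x + z) * q.eval (x + z) + c)) := by
    have := (hcont.tendsto 0).mono_left (nhdsWithin_le_nhds (s := Ioi (0:ℝ)))
    simpa using this
  refine le_of_tendsto hlim ?_
  filter_upwards [Ioo_mem_nhdsGT (zero_lt_one : (0:ℝ) < 1)] with t ht
  apply off
  · constructor
    · nlinarith [ht.1, ht.2, hx.1, hx.2, hp.1, hp.2]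
    · nlinarith [ht.1, ht.2, hx.1, hx.2, hp.1, hp.2]
  · intro h
    have : t * (p - x) = 0 := by linarith
    rcases mul_eq_zero.1 this with h | h
    · linarith [ht.1]
    · exact hpx (by linarith)

end scalar

variable {ι : Type*} [Fintype ι]

/-- the certificate `Φ_q = tr (M q(L_A + R_A) M)`, `M = U Uᵀ`, in terms of the moments -/
noncomputable def cert (q : ℝ[X]) (m : ℕ → ℝ) : ℝ :=
  ∑ n ∈ Finset.range (q.natDegree + 1), q.coeff n *
    ∑ k ∈ Finset.range (n + 1), (n.choose k : ℝ) * (m k * m (n - k))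

/-- derivative of the certificate -/
noncomputable def dcert (q : ℝ[X]) (m dm : ℕ → ℝ) : ℝ :=
  ∑ n ∈ Finset.range (q.natDegree + 1), q.coeff n *
    ∑ k ∈ Finset.range (n + 1), (n.choose k : ℝ) * (dm k * m (n - k) + m k * dm (n - k))

lemma inner_sym (n : ℕ) (m dm : ℕ → ℝ) :
    ∑ k ∈ Finset.range (n + 1), (n.choose k : ℝ) * (dm k * m (n - k) + m k * dm (n - k)) =
      2 * ∑ k ∈ Finset.range (n + 1), (n.choose k : ℝ) * (dm k * m (n - k)) := by
  have h : ∑ k ∈ Finset.range (n + 1), (n.choose k : ℝ) * (m k * dm (n - k)) =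
      ∑ k ∈ Finset.range (n + 1), (n.choose k : ℝ) * (dm k * m (n - k)) := by
    rw [← Finset.sum_range_reflect]
    refine Finset.sum_congr rfl fun k hk => ?_
    have hk' : k ≤ n := by simpa [Nat.lt_succ_iff] using hk
    have e1 : n + 1 - 1 - k = n - k := by omega
    have e2 : n - (n - k) = k := by omega
    rw [e1, e2, Nat.choose_symm hk']; ring
  rw [two_mul]
  nth_rewrite 1 [← h]
  rw [← Finset.sum_add_distrib]
  refine Finset.sum_congr rfl fun k _ => ?_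
  ring

lemma inner_diag (n : ℕ) (a u v : ι → ℝ) (m dm : ℕ → ℝ)
    (hm : ∀ k, m k = ∑ i, u i ^ 2 * a i ^ k)
    (hdm : ∀ k, dm k = 2 * ∑ i, v i * u i * a i ^ k + ∑ j ∈ Finset.range k, m j * m (k - 1 - j)) :
    ∑ k ∈ Finset.range (n + 1), (n.choose k : ℝ) * (dm k * m (n - k)) =
      2 * ∑ i, ∑ j, v i * u i * u j ^ 2 * (a i + a j) ^ n +
        ∑ p, ∑ r, ∑ s, u p ^ 2 * u r ^ 2 * u s ^ 2 * T n (a p) (a r) (a s) := by
  have hA : ∀ k, (∑ i, v i * u i * a i ^ k) * m (n - k) =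
      ∑ i, ∑ j, v i * u i * u j ^ 2 * (a i ^ k * a j ^ (n - k)) := by
    intro k
    rw [hm, Finset.sum_mul_sum]
    refine Finset.sum_congr rfl fun i _ => Finset.sum_congr rfl fun j _ => ?_
    ring
  have hB : ∀ k, (∑ j ∈ Finset.range k, m j * m (k - 1 - j)) * m (n - k) =
      ∑ p, ∑ r, ∑ s, u p ^ 2 * u r ^ 2 * u s ^ 2 *
        ((∑ j ∈ Finset.range k, a p ^ j * a r ^ (k - 1 - j)) * a s ^ (n - k)) := by
    intro k
    have h1 : ∑ j ∈ Finset.range k, m j * m (k - 1 - j) =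
        ∑ p, ∑ r, u p ^ 2 * u r ^ 2 * ∑ j ∈ Finset.range k, a p ^ j * a r ^ (k - 1 - j) := by
      have : ∀ j ∈ Finset.range k, m j * m (k - 1 - j) =
          ∑ p, ∑ r, u p ^ 2 * u r ^ 2 * (a p ^ j * a r ^ (k - 1 - j)) := by
        intro j _
        rw [hm, hm, Finset.sum_mul_sum]
        refine Finset.sum_congr rfl fun i _ => Finset.sum_congr rfl fun j _ => ?_
        ring
      rw [Finset.sum_congr rfl this, Finset.sum_comm]
      refine Finset.sum_congr rfl fun p _ => ?_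
      rw [Finset.sum_comm]
      refine Finset.sum_congr rfl fun r _ => ?_
      rw [Finset.mul_sum]
    rw [h1, hm (n - k), Finset.sum_mul]
    refine Finset.sum_congr rfl fun p _ => ?_
    rw [Finset.sum_mul]
    refine Finset.sum_congr rfl fun r _ => ?_
    rw [Finset.mul_sum]
    refine Finset.sum_congr rfl fun s _ => ?_
    ring
  have hC : ∀ k ∈ Finset.range (n + 1), (n.choose k : ℝ) * (dm k * m (n - k)) =
      2 * ((n.choose k : ℝ) * ∑ i, ∑ j, v i * u i * u j ^ 2 * (a i ^ k * a j ^ (n - k))) +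
      (n.choose k : ℝ) * ∑ p, ∑ r, ∑ s, u p ^ 2 * u r ^ 2 * u s ^ 2 *
        ((∑ j ∈ Finset.range k, a p ^ j * a r ^ (k - 1 - j)) * a s ^ (n - k)) := by
    intro k _
    rw [← hA, ← hB, hdm]; ring
  rw [Finset.sum_congr rfl hC, Finset.sum_add_distrib, ← Finset.mul_sum]
  congr 1
  · congr 1
    simp_rw [Finset.mul_sum]
    rw [Finset.sum_comm]
    refine Finset.sum_congr rfl fun i _ => ?_
    rw [Finset.sum_comm]
    refine Finset.sum_congr rfl fun j _ => ?_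
    rw [add_pow, Finset.mul_sum]
    refine Finset.sum_congr rfl fun k _ => ?_
    ring
  · simp_rw [Finset.mul_sum]
    rw [Finset.sum_comm]
    refine Finset.sum_congr rfl fun p _ => ?_
    rw [Finset.sum_comm]
    refine Finset.sum_congr rfl fun r _ => ?_
    rw [Finset.sum_comm]
    refine Finset.sum_congr rfl fun s _ => ?_
    unfold T
    rw [Finset.mul_sum]
    refine Finset.sum_congr rfl fun k _ => ?_
    ring

/-- The diagonal form of the pointwise inequality. -/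
lemma dcert_diag_le {c : ℝ} (q : ℝ[X])
    (hq2 : ∀ z ∈ Icc (0:ℝ) 2, ∀ w ∈ Icc (0:ℝ) 2, z ≠ w →
        2 * ((q.eval z - q.eval w) / (z - w)) + q.eval z * q.eval w + c ≤ 0)
    (a u v : ι → ℝ) (ha : ∀ i, a i ∈ Icc (0:ℝ) 1) (m dm : ℕ → ℝ)
    (hm : ∀ k, m k = ∑ i, u i ^ 2 * a i ^ k)
    (hdm : ∀ k, dm k = 2 * ∑ i, v i * u i * a i ^ k + ∑ j ∈ Finset.range k, m j * m (k - 1 - j)) :
    dcert q m dm ≤ 4 * ∑ i, v i ^ 2 - c * (∑ i, u i ^ 2) ^ 3 := by
  have h0 : dcert q m dm =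
      4 * ∑ i, ∑ j, v i * u i * u j ^ 2 * q.eval (a i + a j) +
        2 * ∑ p, ∑ r, ∑ s, u p ^ 2 * u r ^ 2 * u s ^ 2 * D q (a p) (a r) (a s) := by
    unfold dcert D
    have : ∀ n ∈ Finset.range (q.natDegree + 1), q.coeff n *
      ∑ k ∈ Finset.range (n + 1), (n.choose k : ℝ) * (dm k * m (n - k) + m k * dm (n - k)) =
        4 * ∑ i, ∑ j, v i * u i * u j ^ 2 * (q.coeff n * (a i + a j) ^ n) +
        2 * ∑ p, ∑ r, ∑ s, u p ^ 2 * u r ^ 2 * u s ^ 2 * (q.coeff n * T n (a p) (a r) (a s)) := by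
      intro n _
      rw [inner_sym, inner_diag n a u v m dm hm hdm]
      have e1 : ∑ i, ∑ j, v i * u i * u j ^ 2 * (q.coeff n * (a i + a j) ^ n) =
          q.coeff n * ∑ i, ∑ j, v i * u i * u j ^ 2 * (a i + a j) ^ n := by
        simp_rw [Finset.mul_sum]
        refine Finset.sum_congr rfl fun i _ => Finset.sum_congr rfl fun j _ => ?_
        ring
      have e2 : ∑ p, ∑ r, ∑ s, u p ^ 2 * u r ^ 2 * u s ^ 2 * (q.coeff n * T n (a p) (a r) (a s)) =
          q.coeff n * ∑ p, ∑ r, ∑ s, u p ^ 2 * u r ^ 2 * u s ^ 2 * T n (a p) (a r) (a s) := by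
        simp_rw [Finset.mul_sum]
        refine Finset.sum_congr rfl fun i _ => Finset.sum_congr rfl fun j _ =>
          Finset.sum_congr rfl fun j _ => ?_
        ring
      rw [e1, e2]; ring
    rw [Finset.sum_congr rfl this, Finset.sum_add_distrib, ← Finset.mul_sum, ← Finset.mul_sum]
    congr 1
    · congr 1
      rw [Finset.sum_comm]
      refine Finset.sum_congr rfl fun i _ => ?_
      rw [Finset.sum_comm]
      refine Finset.sum_congr rfl fun j _ => ?_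
      rw [eval_eq_sum_range, Finset.mul_sum]
    · congr 1
      rw [Finset.sum_comm]
      refine Finset.sum_congr rfl fun i _ => ?_
      rw [Finset.sum_comm]
      refine Finset.sum_congr rfl fun j _ => ?_
      rw [Finset.sum_comm]
      refine Finset.sum_congr rfl fun s _ => ?_
      rw [Finset.mul_sum]
  -- the quadratic part
  have h1 : 4 * ∑ i, ∑ j, v i * u i * u j ^ 2 * q.eval (a i + a j) ≤
      4 * ∑ i, v i ^ 2 + ∑ p, ∑ r, ∑ s, u p ^ 2 * u r ^ 2 * u s ^ 2 *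
        (q.eval (a p + a s) * q.eval (a r + a s)) := by
    have e3 : ∑ p, ∑ r, ∑ s, u p ^ 2 * u r ^ 2 * u s ^ 2 *
        (q.eval (a p + a s) * q.eval (a r + a s)) =
        ∑ i, (u i * ∑ j, u j ^ 2 * q.eval (a i + a j)) ^ 2 := by
      have : ∀ i, (u i * ∑ j, u j ^ 2 * q.eval (a i + a j)) ^ 2 =
          ∑ p, ∑ r, u p ^ 2 * u r ^ 2 * u i ^ 2 * (q.eval (a p + a i) * q.eval (a r + a i)) := by
        intro i
        rw [mul_pow, sq (∑ j, u j ^ 2 * q.eval (a i + a j)), Finset.sum_mul_sum, Finset.mul_sum]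
        refine Finset.sum_congr rfl fun p _ => ?_
        rw [Finset.mul_sum]
        refine Finset.sum_congr rfl fun r _ => ?_
        rw [add_comm (a i) (a p), add_comm (a i) (a r)]
        ring
      rw [Finset.sum_congr rfl fun i _ => this i]
      calc ∑ p, ∑ r, ∑ s, u p ^ 2 * u r ^ 2 * u s ^ 2 * (q.eval (a p + a s) * q.eval (a r + a s))
          = ∑ p, ∑ s, ∑ r, u p ^ 2 * u r ^ 2 * u s ^ 2 *
              (q.eval (a p + a s) * q.eval (a r + a s)) :=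
            Finset.sum_congr rfl fun p _ => Finset.sum_comm
        _ = _ := Finset.sum_comm
    rw [e3]
    have e4 : ∑ i, ∑ j, v i * u i * u j ^ 2 * q.eval (a i + a j) =
        ∑ i, v i * (u i * ∑ j, u j ^ 2 * q.eval (a i + a j)) := by
      refine Finset.sum_congr rfl fun i _ => ?_
      rw [Finset.mul_sum, Finset.mul_sum]
      refine Finset.sum_congr rfl fun j _ => ?_
      ring
    rw [e4, Finset.mul_sum, Finset.mul_sum, ← Finset.sum_add_distrib]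
    refine Finset.sum_le_sum fun i _ => ?_
    nlinarith [sq_nonneg (2 * v i - u i * ∑ j, u j ^ 2 * q.eval (a i + a j))]
  -- the cubic part
  have h2 : ∑ p, ∑ r, ∑ s, u p ^ 2 * u r ^ 2 * u s ^ 2 *
        (q.eval (a p + a s) * q.eval (a r + a s)) +
        2 * ∑ p, ∑ r, ∑ s, u p ^ 2 * u r ^ 2 * u s ^ 2 * D q (a p) (a r) (a s) +
        c * (∑ i, u i ^ 2) ^ 3 ≤ 0 := by
    have e5 : c * (∑ i, u i ^ 2) ^ 3 = ∑ p, ∑ r, ∑ s, u p ^ 2 * u r ^ 2 * u s ^ 2 * c := by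
      rw [pow_succ, sq, Finset.sum_mul_sum, Finset.sum_mul, Finset.mul_sum]
      refine Finset.sum_congr rfl fun p _ => ?_
      rw [Finset.sum_mul, Finset.mul_sum]
      refine Finset.sum_congr rfl fun r _ => ?_
      rw [Finset.mul_sum, Finset.mul_sum]
      refine Finset.sum_congr rfl fun s _ => ?_
      ring
    rw [e5, Finset.mul_sum, ← Finset.sum_add_distrib, ← Finset.sum_add_distrib]
    refine Finset.sum_nonpos fun p _ => ?_
    rw [Finset.mul_sum, ← Finset.sum_add_distrib, ← Finset.sum_add_distrib]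
    refine Finset.sum_nonpos fun r _ => ?_
    rw [Finset.mul_sum, ← Finset.sum_add_distrib, ← Finset.sum_add_distrib]
    refine Finset.sum_nonpos fun s _ => ?_
    have hb := bracket_le q hq2 (ha p) (ha r) (ha s)
    have hw : 0 ≤ u p ^ 2 * u r ^ 2 * u s ^ 2 := by positivity
    nlinarith [mul_nonneg hw (neg_nonneg.2 hb)]
  rw [h0]; linarith

variable [DecidableEq ι]

/-- moments `m_k = ⟨U, A^k U⟩` -/
def mom (A : Matrix ι ι ℝ) (U : ι → ℝ) (k : ℕ) : ℝ := U ⬝ᵥ (A ^ k *ᵥ U)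

/-- formal derivative of the moments when `U' = V`, `A' = U Uᵀ`:
`m_k' = 2 ⟨V, A^k U⟩ + Σ_{j<k} m_j m_{k-1-j}` -/
def dmom (A : Matrix ι ι ℝ) (U V : ι → ℝ) (k : ℕ) : ℝ :=
  2 * (V ⬝ᵥ (A ^ k *ᵥ U)) + ∑ j ∈ Finset.range k, mom A U j * mom A U (k - 1 - j)

/-- Spectral data of a symmetric matrix `0 ≤ A ≤ 1`. -/
theorem spectral_data (A : Matrix ι ι ℝ) (hA : A.IsHermitian)
    (hA0 : ∀ x : ι → ℝ, 0 ≤ x ⬝ᵥ (A *ᵥ x)) (hA1 : ∀ x : ι → ℝ, x ⬝ᵥ (A *ᵥ x) ≤ x ⬝ᵥ x) :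
    ∃ (P : Matrix ι ι ℝ) (d : ι → ℝ), (∀ i, d i ∈ Icc (0:ℝ) 1) ∧
      (∀ (k : ℕ) (x y : ι → ℝ), x ⬝ᵥ (A ^ k *ᵥ y) =
        ∑ i, (Pᵀ *ᵥ x) i * (Pᵀ *ᵥ y) i * d i ^ k) ∧
      (∀ x y : ι → ℝ, x ⬝ᵥ y = ∑ i, (Pᵀ *ᵥ x) i * (Pᵀ *ᵥ y) i) := by
  obtain ⟨P, d, hP1, hP2, hAd⟩ : ∃ (P : Matrix ι ι ℝ) (d : ι → ℝ), P * Pᵀ = 1 ∧ Pᵀ * P = 1 ∧
      A = P * diagonal d * Pᵀ := by
    refine ⟨(hA.eigenvectorUnitary : Matrix ι ι ℝ), hA.eigenvalues, ?_, ?_, ?_⟩
    · have := (mem_unitaryGroup_iff (A := (hA.eigenvectorUnitary : Matrix ι ι ℝ))).1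
        hA.eigenvectorUnitary.2
      simpa [star_eq_conjTranspose] using this
    · have := (mem_unitaryGroup_iff' (A := (hA.eigenvectorUnitary : Matrix ι ι ℝ))).1
        hA.eigenvectorUnitary.2
      simpa [star_eq_conjTranspose] using this
    · have := hA.spectral_theorem
      conv_lhs => rw [this]
      simp [Unitary.conjStarAlgAut_apply, star_eq_conjTranspose]
  -- powers
  have hpow : ∀ k : ℕ, A ^ k = P * diagonal (fun i => d i ^ k) * Pᵀ := by
    intro k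
    induction k with
    | zero => simp [hP1]
    | succ k ih =>
      rw [pow_succ, ih, hAd]
      calc P * diagonal (fun i => d i ^ k) * Pᵀ * (P * diagonal d * Pᵀ)
          = P * diagonal (fun i => d i ^ k) * (Pᵀ * P) * diagonal d * Pᵀ := by
            simp only [Matrix.mul_assoc]
        _ = P * (diagonal (fun i => d i ^ k) * diagonal d) * Pᵀ := by
            rw [hP2]; simp only [Matrix.mul_assoc, Matrix.one_mul]
        _ = _ := by
            rw [diagonal_mul_diagonal]; simp only [pow_succ]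
  have hbil : ∀ (k : ℕ) (x y : ι → ℝ), x ⬝ᵥ (A ^ k *ᵥ y) =
      ∑ i, (Pᵀ *ᵥ x) i * (Pᵀ *ᵥ y) i * d i ^ k := by
    intro k x y
    rw [hpow, ← Matrix.mulVec_mulVec, ← Matrix.mulVec_mulVec, dotProduct_mulVec, ← mulVec_transpose]
    simp only [dotProduct, mulVec_diagonal]
    refine Finset.sum_congr rfl fun i _ => ?_
    ring
  have hdot : ∀ x y : ι → ℝ, x ⬝ᵥ y = ∑ i, (Pᵀ *ᵥ x) i * (Pᵀ *ᵥ y) i := by
    intro x y
    have := hbil 0 x y
    simpa using this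
  have hinv : ∀ ξ : ι → ℝ, Pᵀ *ᵥ (P *ᵥ ξ) = ξ := by
    intro ξ; rw [Matrix.mulVec_mulVec, hP2, Matrix.one_mulVec]
  have hd : ∀ i, d i ∈ Icc (0:ℝ) 1 := by
    intro i
    have h1 := hA0 (P *ᵥ Pi.single i 1)
    have h2 := hA1 (P *ᵥ Pi.single i 1)
    have e1 : (P *ᵥ Pi.single i 1) ⬝ᵥ (A *ᵥ (P *ᵥ Pi.single i 1)) = d i := by
      have := hbil 1 (P *ᵥ Pi.single i 1) (P *ᵥ Pi.single i 1)
      rw [pow_one] at this
      rw [this, hinv]
      simp [Pi.single_apply]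
    have e2 : (P *ᵥ Pi.single i 1) ⬝ᵥ (P *ᵥ Pi.single i 1) = 1 := by
      rw [hdot, hinv]; simp [Pi.single_apply]
    rw [e1] at h1 h2
    rw [e2] at h2
    exact ⟨h1, h2⟩
  exact ⟨P, d, hd, hbil, hdot⟩

theorem mom_nonneg_le (A : Matrix ι ι ℝ) (hA : A.IsHermitian)
    (hA0 : ∀ x : ι → ℝ, 0 ≤ x ⬝ᵥ (A *ᵥ x)) (hA1 : ∀ x : ι → ℝ, x ⬝ᵥ (A *ᵥ x) ≤ x ⬝ᵥ x)
    (U : ι → ℝ) (k : ℕ) : 0 ≤ mom A U k ∧ mom A U k ≤ U ⬝ᵥ U := by
  obtain ⟨P, d, hd, hbil, hdot⟩ := spectral_data A hA hA0 hA1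
  rw [mom, hbil, hdot U U]
  constructor
  · exact Finset.sum_nonneg fun i _ =>
      mul_nonneg (mul_self_nonneg _) (pow_nonneg (hd i).1 k)
  · refine Finset.sum_le_sum fun i _ => ?_
    exact mul_le_of_le_one_right (mul_self_nonneg _) (pow_le_one₀ (hd i).1 (hd i).2)

theorem pointwise {c : ℝ} (q : ℝ[X])
    (hq2 : ∀ z ∈ Icc (0:ℝ) 2, ∀ w ∈ Icc (0:ℝ) 2, z ≠ w →
        2 * ((q.eval z - q.eval w) / (z - w)) + q.eval z * q.eval w + c ≤ 0)
    (A : Matrix ι ι ℝ) (hA : A.IsHermitian)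
    (hA0 : ∀ x : ι → ℝ, 0 ≤ x ⬝ᵥ (A *ᵥ x)) (hA1 : ∀ x : ι → ℝ, x ⬝ᵥ (A *ᵥ x) ≤ x ⬝ᵥ x)
    (U V : ι → ℝ) :
    dcert q (mom A U) (dmom A U V) ≤ 4 * (V ⬝ᵥ V) - c * (U ⬝ᵥ U) ^ 3 := by
  obtain ⟨P, d, hd, hbil, hdot⟩ := spectral_data A hA hA0 hA1
  have key := dcert_diag_le q hq2 d (Pᵀ *ᵥ U) (Pᵀ *ᵥ V) hd (mom A U) (dmom A U V)
    (fun k => by rw [mom, hbil]; exact Finset.sum_congr rfl fun i _ => by ring)
    (fun k => by rw [dmom, hbil])
  refine key.trans (le_of_eq ?_)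
  rw [hdot V V, hdot U U]
  simp only [sq]

end P371
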