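import Vale.Agent.P371.AC
import Vale.Agent.P371.Pointwise

/-!
# P371 : the moments `m_k = ⟨U, A^k U⟩` are locally absolutely continuous
-/

namespace P371

open Set Matrix MeasureTheory

variable {ι : Type*} [Fintype ι] [DecidableEq ι]

/-- the matrix `A(x) = ∫_{-∞}^x U Uᵀ` -/
noncomputable def Amat (U : ι → ℝ → ℝ) (x : ℝ) : Matrix ι ι ℝ :=
  Matrix.of fun i j => ∫ t in Iic x, U i t * U j t

omit [Fintype ι] [DecidableEq ι] in
lemma Amat_symm (U : ι → ℝ → ℝ) (x : ℝ) : (Amat U x)ᵀ = Amat U x := by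
  ext i j
  simp only [Amat, transpose_apply, of_apply]
  congr 1; funext t; ring

omit [Fintype ι] [DecidableEq ι] in
lemma isPrim_Amat (U : ι → ℝ → ℝ) (h : ∀ i, MemLp (U i) 2 volume) (i j : ι) :
    IsPrim (fun x => Amat U x i j) (fun x => U i x * U j x) := by
  have hint : Integrable (fun t => U i t * U j t) volume := (h i).integrable_mul (h j)
  refine ⟨fun a b => hint.intervalIntegrable, fun a b => ?_⟩
  simp only [Amat, of_apply]
  rw [intervalIntegral.integral_Iic_sub_Iic hint.integrableOn hint.integrableOn]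

lemma isPrim_vec (U V : ι → ℝ → ℝ) (h : ∀ i, IsH1R (U i) (V i)) (k : ℕ) (i : ι) :
    IsPrim (fun x => (Amat U x ^ k *ᵥ fun i => U i x) i)
      (fun x => (Amat U x ^ k *ᵥ fun i => V i x) i +
        ∑ j ∈ Finset.range k, mom (Amat U x) (fun i => U i x) j *
          (Amat U x ^ (k - 1 - j) *ᵥ fun i => U i x) i) := by
  induction k generalizing i with
  | zero => simpa using (h i).2.2
  | succ k ih =>
    have h1 : IsPrim (fun x => ∑ l, Amat U x i l * (Amat U x ^ k *ᵥ fun i => U i x) l)
        (fun x => ∑ l, ((U i x * U l x) * (Amat U x ^ k *ᵥ fun i => U i x) l +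
          Amat U x i l * ((Amat U x ^ k *ᵥ fun i => V i x) l +
        ∑ j ∈ Finset.range k, mom (Amat U x) (fun i => U i x) j *
          (Amat U x ^ (k - 1 - j) *ᵥ fun i => U i x) l))) :=
      IsPrim.sum _ fun l _ => (isPrim_Amat U (fun i => (h i).1) i l).mul (ih l)
    have e0 : ∀ (x : ℝ) (y : ι → ℝ) (n : ℕ), (Amat U x ^ (n + 1) *ᵥ y) i =
        ∑ l, Amat U x i l * (Amat U x ^ n *ᵥ y) l := by
      intro x y n
      rw [pow_succ', ← Matrix.mulVec_mulVec]
      rfl
    refine (h1.congr_fun fun x => ?_).congr_deriv fun x => ?_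
    · rw [e0]
    · rw [e0, Finset.sum_range_succ, Finset.sum_add_distrib]
      have e1 : ∑ l, U i x * U l x * (Amat U x ^ k *ᵥ fun i => U i x) l =
          mom (Amat U x) (fun i => U i x) k * (Amat U x ^ (k + 1 - 1 - k) *ᵥ fun i => U i x) i := by
        have : k + 1 - 1 - k = 0 := by omega
        rw [this, pow_zero, Matrix.one_mulVec, mom, dotProduct, Finset.sum_mul]
        refine Finset.sum_congr rfl fun l _ => ?_
        ring
      have e2 : ∑ l, Amat U x i l * ((Amat U x ^ k *ᵥ fun i => V i x) l +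
          ∑ j ∈ Finset.range k, mom (Amat U x) (fun i => U i x) j *
            (Amat U x ^ (k - 1 - j) *ᵥ fun i => U i x) l) =
          ∑ l, Amat U x i l * (Amat U x ^ k *ᵥ fun i => V i x) l +
          ∑ j ∈ Finset.range k, mom (Amat U x) (fun i => U i x) j *
            (Amat U x ^ (k + 1 - 1 - j) *ᵥ fun i => U i x) i := by
        simp_rw [mul_add]
        rw [Finset.sum_add_distrib]
        congr 1
        simp_rw [Finset.mul_sum]
        rw [Finset.sum_comm]
        refine Finset.sum_congr rfl fun j hj => ?_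
        have hj' : j < k := Finset.mem_range.1 hj
        have : k + 1 - 1 - j = (k - 1 - j) + 1 := by omega
        rw [this, e0, Finset.mul_sum]
        refine Finset.sum_congr rfl fun l _ => ?_
        ring
      rw [e1, e2]; ring

theorem isPrim_mom (U V : ι → ℝ → ℝ) (h : ∀ i, IsH1R (U i) (V i)) (k : ℕ) :
    IsPrim (fun x => mom (Amat U x) (fun i => U i x) k)
      (fun x => dmom (Amat U x) (fun i => U i x) (fun i => V i x) k) := by
  have h1 : IsPrim (fun x => ∑ i, U i x * (Amat U x ^ k *ᵥ fun i => U i x) i) _ :=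
    IsPrim.sum _ fun i _ => (h i).2.2.mul (isPrim_vec U V h k i)
  refine (h1.congr_fun fun x => rfl).congr_deriv fun x => ?_
  have hs : (Amat U x ^ k)ᵀ = Amat U x ^ k := by rw [transpose_pow, Amat_symm]
  have e1 : (fun i => V i x) ⬝ᵥ (Amat U x ^ k *ᵥ fun i => U i x) =
      (fun i => U i x) ⬝ᵥ (Amat U x ^ k *ᵥ fun i => V i x) := by
    rw [dotProduct_mulVec, ← mulVec_transpose, hs, dotProduct_comm]
  rw [Finset.sum_add_distrib, dmom, two_mul]
  nth_rewrite 2 [e1]
  simp only [dotProduct, mul_add, Finset.sum_add_distrib]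
  rw [add_assoc]
  congr 1
  congr 1
  simp_rw [Finset.mul_sum]
  rw [Finset.sum_comm]
  refine Finset.sum_congr rfl fun j _ => ?_
  rw [mom, mom, dotProduct, dotProduct, Finset.mul_sum]
  refine Finset.sum_congr rfl fun l _ => ?_
  ring

theorem isPrim_cert (q : Polynomial ℝ) (U V : ι → ℝ → ℝ) (h : ∀ i, IsH1R (U i) (V i)) :
    IsPrim (fun x => cert q (mom (Amat U x) (fun i => U i x)))
      (fun x => dcert q (mom (Amat U x) (fun i => U i x))
        (dmom (Amat U x) (fun i => U i x) (fun i => V i x))) := by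
  unfold cert dcert
  exact IsPrim.sum _ fun n _ => IsPrim.const_mul _ <| IsPrim.sum _ fun k _ =>
    IsPrim.const_mul _ <| (isPrim_mom U V h k).mul (isPrim_mom U V h (n - k))

end P371
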