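import Vale.Agent.P371.MatDefs
import Vale.Agent.P371.MatApprox
import Vale.Agent.P371.MatKer2

/-!
# P371 : the matrix pointwise inequality
-/

namespace P371

open Polynomial Matrix Finset
open scoped ComplexOrder ComplexConjugate

variable {ι κ : Type*} [Fintype ι] [DecidableEq ι] [Fintype κ] [DecidableEq κ]

/-- Spectral data of a positive semidefinite matrix. -/
theorem spectral_dataC (A : Matrix ι ι ℂ) (hA : A.PosSemidef) :
    ∃ (P : Matrix ι ι ℂ) (d : ι → ℝ), P * Pᴴ = 1 ∧ Pᴴ * P = 1 ∧ (∀ i, 0 ≤ d i) ∧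
      ∀ k : ℕ, A ^ k = P * diagonal (fun i => ((d i : ℂ)) ^ k) * Pᴴ := by
  obtain ⟨P, d, hP1, hP2, hd0, hAd⟩ : ∃ (P : Matrix ι ι ℂ) (d : ι → ℝ), P * Pᴴ = 1 ∧ Pᴴ * P = 1 ∧
      (∀ i, 0 ≤ d i) ∧ A = P * diagonal (fun i => (d i : ℂ)) * Pᴴ := by
    refine ⟨(hA.1.eigenvectorUnitary : Matrix ι ι ℂ), hA.1.eigenvalues, ?_, ?_,
      hA.eigenvalues_nonneg, ?_⟩
    · have := (mem_unitaryGroup_iff (A := (hA.1.eigenvectorUnitary : Matrix ι ι ℂ))).1
        hA.1.eigenvectorUnitary.2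
      simpa [star_eq_conjTranspose] using this
    · have := (mem_unitaryGroup_iff' (A := (hA.1.eigenvectorUnitary : Matrix ι ι ℂ))).1
        hA.1.eigenvectorUnitary.2
      simpa [star_eq_conjTranspose] using this
    · have := hA.1.spectral_theorem
      conv_lhs => rw [this]
      simp only [Unitary.conjStarAlgAut_apply, star_eq_conjTranspose]
      rfl
  refine ⟨P, d, hP1, hP2, hd0, fun k => ?_⟩
  induction k with
  | zero => simp [hP1]
  | succ k ih =>
    rw [pow_succ, ih, hAd]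
    calc P * diagonal (fun i => ((d i : ℂ)) ^ k) * Pᴴ * (P * diagonal (fun i => (d i : ℂ)) * Pᴴ)
        = P * diagonal (fun i => ((d i : ℂ)) ^ k) * (Pᴴ * P) * diagonal (fun i => (d i : ℂ)) * Pᴴ := by
          simp only [Matrix.mul_assoc]
      _ = P * (diagonal (fun i => ((d i : ℂ)) ^ k) * diagonal (fun i => (d i : ℂ))) * Pᴴ := by
          rw [hP2]; simp only [Matrix.mul_assoc, Matrix.one_mul]
      _ = _ := by
          rw [diagonal_mul_diagonal]; simp only [pow_succ]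

/-- `(tr M)³ ≤ N² tr M³`. -/
lemma trace_cube_le (M : Matrix ι ι ℂ) (hM : M.PosSemidef) :
    (trace M).re ^ 3 ≤ (Fintype.card ι : ℝ) ^ 2 * (trace (M ^ 3)).re := by
  obtain ⟨P, d, hP1, hP2, hd0, hpow⟩ := spectral_dataC M hM
  have htr : ∀ k : ℕ, (trace (M ^ k)).re = ∑ i, d i ^ k := by
    intro k
    rw [hpow, Matrix.mul_assoc, trace_mul_comm, Matrix.mul_assoc, hP2, Matrix.mul_one,
      trace_diagonal, Complex.re_sum]
    refine Finset.sum_congr rfl fun i _ => ?_
    rw [← Complex.ofReal_pow, Complex.ofReal_re]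
  have h1 := htr 1
  simp only [pow_one] at h1
  rw [h1, htr 3]
  have h2 := pow_sum_le_card_mul_sum_pow (s := (Finset.univ : Finset ι)) (f := d)
    (fun i _ => hd0 i) 2
  simpa using h2

/-- diagonal form of a moment -/
lemma mmom_diag (A : Matrix ι ι ℂ) (U : Matrix κ ι ℂ) (P : Matrix ι ι ℂ) (d : ι → ℝ) (k : ℕ)
    (hpow : A ^ k = P * diagonal (fun i => ((d i : ℂ)) ^ k) * Pᴴ) :
    mmom A U k = (U * P) * diagonal (fun i => ((d i : ℂ)) ^ k) * (U * P)ᴴ := by
  rw [mmom, hpow, conjTranspose_mul]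
  simp only [Matrix.mul_assoc]

lemma trace_two (U₁ U₂ U₃ U₄ : Matrix κ ι ℂ) (a b : ι → ℂ) :
    trace ((U₁ * diagonal a * U₂ᴴ) * (U₃ * diagonal b * U₄ᴴ)) =
      ∑ i, ∑ j, a i * b j * ((U₂ᴴ * U₃) i j * (U₄ᴴ * U₁) j i) := by
  have e : trace ((U₁ * diagonal a * U₂ᴴ) * (U₃ * diagonal b * U₄ᴴ)) =
      trace ((diagonal a * (U₂ᴴ * U₃)) * (diagonal b * (U₄ᴴ * U₁))) := by
    rw [Matrix.mul_assoc U₁, Matrix.mul_assoc U₁, trace_mul_comm]
    simp only [Matrix.mul_assoc]
  rw [e, trace]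
  refine Finset.sum_congr rfl fun i _ => ?_
  rw [diag_apply, mul_apply]
  refine Finset.sum_congr rfl fun j _ => ?_
  rw [diagonal_mul, diagonal_mul]; ring

lemma trace_three (U : Matrix κ ι ℂ) (a b c : ι → ℂ) :
    trace ((U * diagonal a * Uᴴ) * (U * diagonal b * Uᴴ) * (U * diagonal c * Uᴴ)) =
      ∑ p, ∑ r, ∑ s, a p * b r * c s * ((Uᴴ * U) p r * (Uᴴ * U) r s * (Uᴴ * U) s p) := by
  set M := Uᴴ * U with hM
  have e : trace ((U * diagonal a * Uᴴ) * (U * diagonal b * Uᴴ) * (U * diagonal c * Uᴴ)) =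
      trace ((diagonal a * M) * (diagonal b * M) * (diagonal c * M)) := by
    rw [hM, Matrix.mul_assoc U, Matrix.mul_assoc U, Matrix.mul_assoc U, trace_mul_comm]
    simp only [Matrix.mul_assoc]
  rw [e, trace]
  refine Finset.sum_congr rfl fun p _ => ?_
  rw [diag_apply, Matrix.mul_assoc, mul_apply]
  refine Finset.sum_congr rfl fun r _ => ?_
  rw [mul_apply (M := diagonal b * M), Finset.mul_sum]
  refine Finset.sum_congr rfl fun s _ => ?_
  rw [diagonal_mul, diagonal_mul, diagonal_mul]; ring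

lemma inner_diagM (n : ℕ) (a : ι → ℝ) (w : ι → ι → ℝ) (t : ι → ι → ι → ℝ) (F : ℕ → ℕ → ℝ)
    (hF : ∀ k l, F k l = 2 * ∑ i, ∑ j, w i j * (a i ^ k * a j ^ l) +
      ∑ j ∈ range k, ∑ p, ∑ r, ∑ s, t p r s * (a p ^ j * a r ^ (k - 1 - j) * a s ^ l)) :
    ∑ k ∈ range (n + 1), (n.choose k : ℝ) * F k (n - k) =
      2 * ∑ i, ∑ j, w i j * (a i + a j) ^ n +
        ∑ p, ∑ r, ∑ s, t p r s * T n (a p) (a r) (a s) := by
  have hC : ∀ k ∈ range (n + 1), (n.choose k : ℝ) * F k (n - k) =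
      2 * ((n.choose k : ℝ) * ∑ i, ∑ j, w i j * (a i ^ k * a j ^ (n - k))) +
      (n.choose k : ℝ) * ∑ p, ∑ r, ∑ s, t p r s *
        ((∑ j ∈ range k, a p ^ j * a r ^ (k - 1 - j)) * a s ^ (n - k)) := by
    intro k _
    have h1 : ∑ j ∈ range k, ∑ p, ∑ r, ∑ s, t p r s * (a p ^ j * a r ^ (k - 1 - j) * a s ^ (n - k))
        = ∑ p, ∑ r, ∑ s, t p r s *
        ((∑ j ∈ range k, a p ^ j * a r ^ (k - 1 - j)) * a s ^ (n - k)) := by
      rw [Finset.sum_comm]
      refine Finset.sum_congr rfl fun p _ => ?_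
      rw [Finset.sum_comm]
      refine Finset.sum_congr rfl fun r _ => ?_
      rw [Finset.sum_comm]
      refine Finset.sum_congr rfl fun s _ => ?_
      rw [Finset.sum_mul, Finset.mul_sum]
    rw [hF, h1]; ring
  rw [Finset.sum_congr rfl hC, Finset.sum_add_distrib, ← Finset.mul_sum]
  congr 1
  · congr 1
    simp_rw [Finset.mul_sum]
    rw [Finset.sum_comm]
    refine Finset.sum_congr rfl fun i _ => ?_
    rw [Finset.sum_comm]
    refine Finset.sum_congr rfl fun j _ => ?_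
    rw [add_pow, Finset.mul_sum]
    refine Finset.sum_congr rfl fun k _ => ?_
    ring
  · simp_rw [Finset.mul_sum]
    rw [Finset.sum_comm]
    refine Finset.sum_congr rfl fun p _ => ?_
    rw [Finset.sum_comm]
    refine Finset.sum_congr rfl fun r _ => ?_
    rw [Finset.sum_comm]
    refine Finset.sum_congr rfl fun s _ => ?_
    unfold T
    rw [Finset.mul_sum]
    refine Finset.sum_congr rfl fun k _ => ?_
    ring

/-- eigenbasis form of `dcertM` -/
lemma dcertM_eq (q : ℝ[X]) (A : Matrix ι ι ℂ) (U V : Matrix κ ι ℂ) (P : Matrix ι ι ℂ) (a : ι → ℝ)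
    (hpow : ∀ k : ℕ, A ^ k = P * diagonal (fun i => ((a i : ℂ)) ^ k) * Pᴴ) :
    dcertM q A U V =
      4 * ∑ i, ∑ j, ((((U * P)ᴴ * (U * P)) i j) * (((U * P)ᴴ * (V * P)) j i)).re *
        q.eval (a i + a j) +
      2 * ∑ p, ∑ r, ∑ s, ((((U * P)ᴴ * (U * P)) p r) * (((U * P)ᴴ * (U * P)) r s) *
        (((U * P)ᴴ * (U * P)) s p)).re * D q (a p) (a r) (a s) := by
  set U' := U * P with hU'
  set V' := V * P with hV'
  set M := U'ᴴ * U' with hM
  set L := U'ᴴ * V' with hL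
  have hm : ∀ k, mmom A U k = U' * diagonal (fun i => ((a i : ℂ)) ^ k) * U'ᴴ := fun k =>
    mmom_diag A U P a k (hpow k)
  have hMc : ∀ i j, conj (M i j) = M j i := by
    intro i j
    have h : M.IsHermitian := by rw [hM]; exact isHermitian_conjTranspose_mul_self U'
    simpa using h.apply j i
  have hLc : ∀ i j, (V'ᴴ * U') i j = conj (L j i) := by
    intro i j
    have : V'ᴴ * U' = Lᴴ := by rw [hL, conjTranspose_mul U'ᴴ V', conjTranspose_conjTranspose]
    rw [this, conjTranspose_apply]; rfl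
  have hF : ∀ k l, (trace (dmmom A U V k * mmom A U l)).re =
      2 * ∑ i, ∑ j, (M i j * L j i).re * (a i ^ k * a j ^ l) +
      ∑ j ∈ range k, ∑ p, ∑ r, ∑ s, (M p r * M r s * M s p).re *
        (a p ^ j * a r ^ (k - 1 - j) * a s ^ l) := by
    intro k l
    have e1 : V * A ^ k * Uᴴ = V' * diagonal (fun i => ((a i : ℂ)) ^ k) * U'ᴴ := by
      rw [hpow, hU', hV', conjTranspose_mul]; simp only [Matrix.mul_assoc]
    have e2 : U * A ^ k * Vᴴ = U' * diagonal (fun i => ((a i : ℂ)) ^ k) * V'ᴴ := by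
      rw [hpow, hU', hV', conjTranspose_mul]; simp only [Matrix.mul_assoc]
    have h1 : (trace ((V * A ^ k * Uᴴ) * mmom A U l)).re =
        ∑ i, ∑ j, (M i j * L j i).re * (a i ^ k * a j ^ l) := by
      rw [e1, hm, trace_two, Complex.re_sum]
      refine Finset.sum_congr rfl fun i _ => ?_
      rw [Complex.re_sum]
      refine Finset.sum_congr rfl fun j _ => ?_
      rw [← Complex.ofReal_pow, ← Complex.ofReal_pow, ← Complex.ofReal_mul, Complex.re_ofReal_mul]
      ring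
    have h2 : (trace ((U * A ^ k * Vᴴ) * mmom A U l)).re =
        ∑ i, ∑ j, (M i j * L j i).re * (a i ^ k * a j ^ l) := by
      rw [e2, hm, trace_two, Complex.re_sum]
      refine Finset.sum_congr rfl fun i _ => ?_
      rw [Complex.re_sum]
      refine Finset.sum_congr rfl fun j _ => ?_
      rw [← Complex.ofReal_pow, ← Complex.ofReal_pow, ← Complex.ofReal_mul, Complex.re_ofReal_mul,
        hLc, show (U'ᴴ * U') j i = conj (M i j) by rw [hMc], ← map_mul, Complex.conj_re,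
        mul_comm (L j i)]
      ring
    have h3 : (trace ((∑ j ∈ range k, mmom A U j * mmom A U (k - 1 - j)) * mmom A U l)).re =
        ∑ j ∈ range k, ∑ p, ∑ r, ∑ s, (M p r * M r s * M s p).re *
        (a p ^ j * a r ^ (k - 1 - j) * a s ^ l) := by
      rw [Finset.sum_mul, trace_sum, Complex.re_sum]
      refine Finset.sum_congr rfl fun j _ => ?_
      rw [hm, hm, hm, trace_three, Complex.re_sum]
      refine Finset.sum_congr rfl fun p _ => ?_
      rw [Complex.re_sum]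
      refine Finset.sum_congr rfl fun r _ => ?_
      rw [Complex.re_sum]
      refine Finset.sum_congr rfl fun s _ => ?_
      rw [← Complex.ofReal_pow, ← Complex.ofReal_pow, ← Complex.ofReal_pow, ← Complex.ofReal_mul,
        ← Complex.ofReal_mul, Complex.re_ofReal_mul]
      ring
    rw [dmmom, Matrix.add_mul, Matrix.add_mul, trace_add, trace_add, Complex.add_re,
      Complex.add_re, h1, h2, h3]
    ring
  have hn : ∀ n : ℕ, ∑ k ∈ range (n + 1), (n.choose k : ℝ) *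
      (trace (dmmom A U V k * mmom A U (n - k) + mmom A U k * dmmom A U V (n - k))).re =
      4 * ∑ i, ∑ j, (M i j * L j i).re * (a i + a j) ^ n +
        2 * ∑ p, ∑ r, ∑ s, (M p r * M r s * M s p).re * T n (a p) (a r) (a s) := by
    intro n
    have h1 := inner_diagM n a (fun i j => (M i j * L j i).re)
      (fun p r s => (M p r * M r s * M s p).re)
      (fun k l => (trace (dmmom A U V k * mmom A U l)).re) hF
    have h2 : ∑ k ∈ range (n + 1), (n.choose k : ℝ) *
        (trace (mmom A U k * dmmom A U V (n - k))).re =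
        ∑ k ∈ range (n + 1), (n.choose k : ℝ) * (trace (dmmom A U V k * mmom A U (n - k))).re := by
      rw [← Finset.sum_range_reflect]
      refine Finset.sum_congr rfl fun k hk => ?_
      have hk' : k ≤ n := by simpa [Nat.lt_succ_iff] using hk
      have e1 : n + 1 - 1 - k = n - k := by omega
      have e2 : n - (n - k) = k := by omega
      rw [e1, e2, Nat.choose_symm hk', trace_mul_comm]
    simp_rw [trace_add, Complex.add_re, mul_add, Finset.sum_add_distrib]
    rw [h2, h1]; ring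
  unfold dcertM D
  simp_rw [hn]
  have e1 : ∑ i, ∑ j, (M i j * L j i).re * q.eval (a i + a j) =
      ∑ n ∈ range (q.natDegree + 1), q.coeff n * ∑ i, ∑ j, (M i j * L j i).re * (a i + a j) ^ n := by
    simp_rw [Finset.mul_sum]
    symm
    rw [Finset.sum_comm]
    refine Finset.sum_congr rfl fun i _ => ?_
    rw [Finset.sum_comm]
    refine Finset.sum_congr rfl fun j _ => ?_
    rw [eval_eq_sum_range, Finset.mul_sum]
    refine Finset.sum_congr rfl fun n _ => ?_
    ring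
  have e2 : ∑ p, ∑ r, ∑ s, (M p r * M r s * M s p).re *
        ∑ n ∈ range (q.natDegree + 1), q.coeff n * T n (a p) (a r) (a s) =
      ∑ n ∈ range (q.natDegree + 1), q.coeff n *
        ∑ p, ∑ r, ∑ s, (M p r * M r s * M s p).re * T n (a p) (a r) (a s) := by
    simp_rw [Finset.mul_sum]
    symm
    rw [Finset.sum_comm]
    refine Finset.sum_congr rfl fun p _ => ?_
    rw [Finset.sum_comm]
    refine Finset.sum_congr rfl fun r _ => ?_
    rw [Finset.sum_comm]
    refine Finset.sum_congr rfl fun s _ => Finset.sum_congr rfl fun n _ => ?_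
    ring
  rw [e1, e2, Finset.mul_sum, Finset.mul_sum, ← Finset.sum_add_distrib]
  refine Finset.sum_congr rfl fun n _ => ?_
  ring

lemma NN_of_posSemidef {M : Matrix ι ι ℂ} (hM : M.PosSemidef) : NN M := by
  intro x
  have h := hM.dotProduct_mulVec_nonneg x
  have h2 := (Complex.le_def.1 h).1
  rw [Complex.zero_re] at h2
  refine h2.trans_eq ?_
  simp only [dotProduct, mulVec, Finset.mul_sum, Complex.re_sum]
  refine Finset.sum_congr rfl fun i _ => Finset.sum_congr rfl fun j _ => ?_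
  congr 1
  simp only [Pi.star_apply, mul_assoc]
  rfl

/-- the part quadratic in `V` -/
lemma quad_part (U V : Matrix κ ι ℂ) (f : ι → ι → ℝ) (hf : ∀ i j, f i j = f j i) :
    4 * ∑ i, ∑ j, ((Uᴴ * U) i j * (Uᴴ * V) j i).re * f i j ≤
      4 * (trace (V * Vᴴ)).re +
      ∑ p, ∑ r, ∑ s, ((Uᴴ * U) p r * (Uᴴ * U) r s * (Uᴴ * U) s p).re * (f p s * f r s) := by
  set M := Uᴴ * U with hM
  set L := Uᴴ * V with hL
  have hMH : Mᴴ = M := by rw [hM]; exact isHermitian_conjTranspose_mul_self U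
  set F : Matrix ι ι ℂ := Matrix.of fun i j => (f i j : ℂ) * M i j with hF
  have hFH : Fᴴ = F := by
    ext i j
    rw [conjTranspose_apply, hF, Matrix.of_apply, Matrix.of_apply]
    have : star (M j i) = M i j := by
      have := congrFun (congrFun hMH i) j
      rwa [conjTranspose_apply] at this
    rw [star_mul', this, hf j i]
    congr 1
    exact Complex.conj_ofReal _
  set G : Matrix κ ι ℂ := U * F with hG
  have e1 : ∑ i, ∑ j, (M i j * L j i).re * f i j = (trace (V * Gᴴ)).re := by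
    have : V * Gᴴ = V * F * Uᴴ := by rw [hG, conjTranspose_mul, hFH, Matrix.mul_assoc]
    rw [this, trace_mul_comm, ← Matrix.mul_assoc, ← hL, trace_mul_comm, trace, Complex.re_sum]
    refine Finset.sum_congr rfl fun i _ => ?_
    rw [diag_apply, mul_apply, Complex.re_sum]
    refine Finset.sum_congr rfl fun j _ => ?_
    rw [hF, Matrix.of_apply, mul_assoc, Complex.re_ofReal_mul]; ring
  have e2 : (trace (G * Gᴴ)).re =
      ∑ p, ∑ r, ∑ s, (M p r * M r s * M s p).re * (f p s * f r s) := by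
    have : G * Gᴴ = U * (F * F * Uᴴ) := by
      rw [hG, conjTranspose_mul, hFH]; simp only [Matrix.mul_assoc]
    rw [this, trace_mul_comm]
    have : F * F * Uᴴ * U = F * F * M := by rw [hM, Matrix.mul_assoc]
    rw [this, trace_mul_comm, trace, Complex.re_sum]
    refine Finset.sum_congr rfl fun p _ => ?_
    rw [diag_apply, mul_apply, Complex.re_sum]
    refine Finset.sum_congr rfl fun r _ => ?_
    rw [mul_apply, Finset.mul_sum, Complex.re_sum]
    refine Finset.sum_congr rfl fun s _ => ?_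
    rw [hF, Matrix.of_apply, Matrix.of_apply]
    have : M p r * ((f r s : ℂ) * M r s * ((f s p : ℂ) * M s p)) =
        ((f p s * f r s : ℝ) : ℂ) * (M p r * M r s * M s p) := by
      rw [hf s p]; push_cast; ring
    rw [this, Complex.re_ofReal_mul]; ring
  have e3 : (trace (G * Vᴴ)).re = (trace (V * Gᴴ)).re := by
    have : G * Vᴴ = (V * Gᴴ)ᴴ := by rw [conjTranspose_mul, conjTranspose_conjTranspose]
    rw [this, trace_conjTranspose]
    exact Complex.conj_re _
  have h0 : 0 ≤ (trace (((2:ℂ) • V - G) * ((2:ℂ) • V - G)ᴴ)).re :=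
    (Complex.le_def.1 (posSemidef_self_mul_conjTranspose ((2:ℂ) • V - G)).trace_nonneg).1
  have e4 : trace (((2:ℂ) • V - G) * ((2:ℂ) • V - G)ᴴ) =
      4 * trace (V * Vᴴ) - 2 * trace (V * Gᴴ) - 2 * trace (G * Vᴴ) + trace (G * Gᴴ) := by
    rw [conjTranspose_sub, conjTranspose_smul, Matrix.sub_mul, Matrix.mul_sub, Matrix.mul_sub]
    have h2 : star (2:ℂ) = 2 := by simp
    rw [h2]
    simp only [Matrix.smul_mul, Matrix.mul_smul, smul_smul, trace_sub, trace_smul, smul_eq_mul]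
    ring
  rw [e4] at h0
  simp only [Complex.add_re, Complex.sub_re, Complex.mul_re, Complex.re_ofNat, Complex.im_ofNat,
    zero_mul, sub_zero] at h0
  rw [e1, ← e2]
  linarith

lemma entry_le_trace (U : Matrix κ ι ℂ) (p r : ι) : ‖(Uᴴ * U) p r‖ ≤ (trace (Uᴴ * U)).re := by
  have e : (trace (Uᴴ * U)).re = ∑ c, ∑ i, ‖U c i‖ ^ 2 := by
    rw [trace, Complex.re_sum, Finset.sum_comm]
    refine Finset.sum_congr rfl fun i _ => ?_
    rw [diag_apply, mul_apply, Complex.re_sum]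
    refine Finset.sum_congr rfl fun c _ => ?_
    rw [conjTranspose_apply]
    have : star (U c i) * U c i = ((‖U c i‖ ^ 2 : ℝ) : ℂ) := by
      rw [Complex.star_def, ← Complex.normSq_eq_conj_mul_self, Complex.normSq_eq_norm_sq]
    rw [this, Complex.ofReal_re]
  rw [e, mul_apply]
  refine (norm_sum_le _ _).trans (Finset.sum_le_sum fun c _ => ?_)
  rw [norm_mul, conjTranspose_apply, norm_star]
  have h1 : ‖U c p‖ ^ 2 ≤ ∑ i, ‖U c i‖ ^ 2 :=
    Finset.single_le_sum (f := fun i => ‖U c i‖ ^ 2) (fun i _ => by positivity) (mem_univ p)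
  have h2 : ‖U c r‖ ^ 2 ≤ ∑ i, ‖U c i‖ ^ 2 :=
    Finset.single_le_sum (f := fun i => ‖U c i‖ ^ 2) (fun i _ => by positivity) (mem_univ r)
  nlinarith [sq_nonneg (‖U c p‖ - ‖U c r‖)]

lemma trace_cube_sum (U : Matrix κ ι ℂ) : (trace ((U * Uᴴ) ^ 3)).re =
    ∑ p, ∑ r, ∑ s, ((Uᴴ * U) p r * (Uᴴ * U) r s * (Uᴴ * U) s p).re := by
  have h := trace_three U (fun _ => 1) (fun _ => 1) (fun _ => 1)
  simp only [diagonal_one, Matrix.mul_one, one_mul, mul_one] at h
  have e : (U * Uᴴ) ^ 3 = U * Uᴴ * (U * Uᴴ) * (U * Uᴴ) := by rw [pow_succ, sq]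
  rw [e, h, Complex.re_sum]
  refine Finset.sum_congr rfl fun p _ => ?_
  rw [Complex.re_sum]
  refine Finset.sum_congr rfl fun r _ => ?_
  rw [Complex.re_sum]

lemma trace_cube_sum' (U : Matrix κ ι ℂ) : (trace ((Uᴴ * U) ^ 3)).re =
    ∑ p, ∑ r, ∑ s, ((Uᴴ * U) p r * (Uᴴ * U) r s * (Uᴴ * U) s p).re := by
  rw [← trace_cube_sum]
  congr 1
  have e1 : (U * Uᴴ) ^ 3 = U * (Uᴴ * U * Uᴴ * U * Uᴴ) := by
    rw [pow_succ, sq]; simp only [Matrix.mul_assoc]
  have e2 : (Uᴴ * U) ^ 3 = (Uᴴ * U * Uᴴ * U * Uᴴ) * U := by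
    rw [pow_succ, sq]; simp only [Matrix.mul_assoc]
  rw [e1, e2, trace_mul_comm]

/-- the cubic part -/
lemma cubic_part {ω c η : ℝ} (h0 : 0 < ω) (h1 : ω < Real.pi) (hη : 0 < η)
    (hηc : η * (Fintype.card ι : ℝ) ^ 5 ≤ ω ^ 2 - c) (U : Matrix κ ι ℂ) (a : ι → ℝ)
    (ha : ∀ i, a i ∈ Set.Icc (0:ℝ) 1) (E : ι → ι → ι → ℝ)
    (hE : ∀ p r s, |E p r s - Bphi ω (a p) (a r) (a s)| ≤ η) :
    ∑ p, ∑ r, ∑ s, ((Uᴴ * U) p r * (Uᴴ * U) r s * (Uᴴ * U) s p).re * E p r s ≤
      - c * (trace ((U * Uᴴ) ^ 3)).re := by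
  set M := Uᴴ * U with hM
  have hMp : M.PosSemidef := posSemidef_conjTranspose_mul_self U
  set t : ι → ι → ι → ℝ := fun p r s => (M p r * M r s * M s p).re with ht
  -- kernel inequality
  have hker := kernel_ineq h0 h1 (fun i => a i - 1 / 2) (fun i => by
    rw [abs_le]; constructor <;> linarith [(ha i).1, (ha i).2]) M hMp.1 (NN_of_posSemidef hMp)
  have k1 : ∑ p, ∑ r, ∑ s, t p r s * (Bphi ω (a p) (a r) (a s) + ω ^ 2) ≤ 0 := by
    have e : ∑ p, ∑ r, ∑ s, t p r s * (Bphi ω (a p) (a r) (a s) + ω ^ 2) =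
        - (ω ^ 2 * ∑ p, ∑ r, ∑ s, (Real.sinc (ω * ((a p - 1 / 2) - (a r - 1 / 2)) / 2) -
          Real.cos (ω * ((a p - 1 / 2) - (a r - 1 / 2)) / 2)) /
          (Real.cos (ω * ((a p - 1 / 2) + (a s - 1 / 2)) / 2) *
            Real.cos (ω * ((a r - 1 / 2) + (a s - 1 / 2)) / 2)) * t p r s) := by
      simp_rw [Finset.mul_sum, ← Finset.sum_neg_distrib]
      refine Finset.sum_congr rfl fun p _ => Finset.sum_congr rfl fun r _ =>
        Finset.sum_congr rfl fun s _ => ?_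
      unfold Bphi
      rw [show ω * ((a p - 1 / 2) - (a r - 1 / 2)) / 2 = ω * (a p - a r) / 2 by ring,
        show ω * ((a p - 1 / 2) + (a s - 1 / 2)) / 2 = ω * (a p + a s - 1) / 2 by ring,
        show ω * ((a r - 1 / 2) + (a s - 1 / 2)) / 2 = ω * (a r + a s - 1) / 2 by ring]
      ring
    rw [e]
    have := mul_nonneg (sq_nonneg ω) hker
    linarith
  -- error term
  set τ := (trace M).re with hτ
  have hτ0 : 0 ≤ τ := (Complex.le_def.1 hMp.trace_nonneg).1
  have hent : ∀ p r, ‖M p r‖ ≤ τ := fun p r => entry_le_trace U p r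
  have htb : ∀ p r s, |t p r s| ≤ τ ^ 3 := by
    intro p r s
    calc |t p r s| ≤ ‖M p r * M r s * M s p‖ := Complex.abs_re_le_norm _
      _ = ‖M p r‖ * ‖M r s‖ * ‖M s p‖ := by rw [norm_mul, norm_mul]
      _ ≤ τ * τ * τ := by
        refine mul_le_mul (mul_le_mul (hent _ _) (hent _ _) (norm_nonneg _) hτ0) (hent _ _)
          (norm_nonneg _) (mul_nonneg hτ0 hτ0)
      _ = τ ^ 3 := by ring
  have k2 : ∑ p, ∑ r, ∑ s, t p r s * (E p r s - Bphi ω (a p) (a r) (a s)) ≤
      (Fintype.card ι : ℝ) ^ 3 * (τ ^ 3 * η) := by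
    have h3 : ∀ p r s, t p r s * (E p r s - Bphi ω (a p) (a r) (a s)) ≤ τ ^ 3 * η := by
      intro p r s
      calc _ ≤ |t p r s * (E p r s - Bphi ω (a p) (a r) (a s))| := le_abs_self _
        _ = |t p r s| * |E p r s - Bphi ω (a p) (a r) (a s)| := abs_mul _ _
        _ ≤ _ := mul_le_mul (htb _ _ _) (hE _ _ _) (abs_nonneg _) (by positivity)
    calc _ ≤ ∑ p : ι, ∑ r : ι, ∑ s : ι, τ ^ 3 * η :=
          Finset.sum_le_sum fun p _ => Finset.sum_le_sum fun r _ =>
            Finset.sum_le_sum fun s _ => h3 p r s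
      _ = _ := by
        simp only [Finset.sum_const, Finset.card_univ, nsmul_eq_mul]; ring
  have k3 := trace_cube_le M hMp
  rw [← hτ] at k3
  have k4 : 0 ≤ (trace (M ^ 3)).re := (Complex.le_def.1 (hMp.pow 3).trace_nonneg).1
  have k5 : (trace (M ^ 3)).re = ∑ p, ∑ r, ∑ s, t p r s := trace_cube_sum' U
  have k6 : (trace ((U * Uᴴ) ^ 3)).re = ∑ p, ∑ r, ∑ s, t p r s := trace_cube_sum U
  have e1 : ∑ p, ∑ r, ∑ s, t p r s * E p r s =
      ∑ p, ∑ r, ∑ s, t p r s * (E p r s - Bphi ω (a p) (a r) (a s)) +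
      ∑ p, ∑ r, ∑ s, t p r s * (Bphi ω (a p) (a r) (a s) + ω ^ 2) -
      ω ^ 2 * ∑ p, ∑ r, ∑ s, t p r s := by
    simp_rw [Finset.mul_sum, ← Finset.sum_add_distrib, ← Finset.sum_sub_distrib]
    refine Finset.sum_congr rfl fun p _ => Finset.sum_congr rfl fun r _ =>
        Finset.sum_congr rfl fun s _ => ?_
    ring
  change ∑ p, ∑ r, ∑ s, t p r s * E p r s ≤ _
  rw [e1, k6, ← k5]
  have k7 : (Fintype.card ι : ℝ) ^ 3 * (τ ^ 3 * η) ≤ (ω ^ 2 - c) * (trace (M ^ 3)).re := by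
    have s1 := mul_le_mul_of_nonneg_left k3
      (show (0:ℝ) ≤ (Fintype.card ι : ℝ) ^ 3 * η by positivity)
    have s2 := mul_le_mul_of_nonneg_right hηc k4
    have s3 : (Fintype.card ι : ℝ) ^ 3 * (τ ^ 3 * η) = (Fintype.card ι : ℝ) ^ 3 * η * τ ^ 3 := by
      ring
    have s4 : (Fintype.card ι : ℝ) ^ 3 * η * ((Fintype.card ι : ℝ) ^ 2 * (trace (M ^ 3)).re) =
      η * (Fintype.card ι : ℝ) ^ 5 * (trace (M ^ 3)).re := by ring
    rw [s3]
    exact s1.trans (s4.le.trans s2)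
  linarith

theorem pointwiseMat {c : ℝ} (hc : c < Real.pi ^ 2) :
    ∃ q : ℝ[X], ∀ (A : Matrix ι ι ℂ), A.PosSemidef → (1 - A).PosSemidef →
      ∀ U V : Matrix κ ι ℂ,
        dcertM q A U V ≤ 4 * (trace (V * Vᴴ)).re - c * (trace ((U * Uᴴ) ^ 3)).re := by
  obtain ⟨s, hs1, hs2⟩ : ∃ s, max c 0 < s ∧ s < Real.pi ^ 2 :=
    exists_between (max_lt hc (by positivity))
  have hs0 : 0 < s := lt_of_le_of_lt (le_max_right _ _) hs1
  set ω := √s with hω
  have hω2 : ω ^ 2 = s := Real.sq_sqrt hs0.le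
  have h0 : 0 < ω := Real.sqrt_pos.2 hs0
  have h1 : ω < Real.pi := by
    rw [hω, Real.sqrt_lt' Real.pi_pos]; exact hs2
  have hcs : c < ω ^ 2 := by rw [hω2]; exact lt_of_le_of_lt (le_max_left _ _) hs1
  set η : ℝ := (ω ^ 2 - c) / ((Fintype.card ι : ℝ) ^ 5 + 1) with hηd
  have hη : 0 < η := div_pos (by linarith) (by positivity)
  have hηc : η * (Fintype.card ι : ℝ) ^ 5 ≤ ω ^ 2 - c := by
    have h2 : η * ((Fintype.card ι : ℝ) ^ 5 + 1) = ω ^ 2 - c := by
      rw [hηd]; field_simp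
    nlinarith
  obtain ⟨q, hq⟩ := exists_poly_near h0 h1 hη
  refine ⟨q, fun A hA hA1 U V => ?_⟩
  obtain ⟨P, a, hP1, hP2, ha0, hpow⟩ := spectral_dataC A hA
  have ha1 : ∀ i, a i ≤ 1 := by
    intro i
    have h3 := (hA1.conjTranspose_mul_mul_same P).diag_nonneg (i := i)
    have e : Pᴴ * (1 - A) * P = 1 - diagonal (fun i => (a i : ℂ)) := by
      have hA' := hpow 1
      simp only [pow_one] at hA'
      rw [hA', Matrix.mul_sub, Matrix.sub_mul, Matrix.mul_one, hP2]
      congr 1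
      calc Pᴴ * (P * diagonal (fun i => (a i : ℂ)) * Pᴴ) * P
          = (Pᴴ * P) * diagonal (fun i => (a i : ℂ)) * (Pᴴ * P) := by
            simp only [Matrix.mul_assoc]
        _ = _ := by rw [hP2, Matrix.one_mul, Matrix.mul_one]
    rw [e, Matrix.sub_apply, Matrix.one_apply_eq, diagonal_apply_eq] at h3
    have h4 := (Complex.le_def.1 h3).1
    simp only [Complex.zero_re, Complex.sub_re, Complex.one_re, Complex.ofReal_re] at h4
    linarith
  have ha : ∀ i, a i ∈ Set.Icc (0:ℝ) 1 := fun i => ⟨ha0 i, ha1 i⟩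
  rw [dcertM_eq q A U V P a hpow]
  have hUU : U * Uᴴ = (U * P) * (U * P)ᴴ := by
    rw [conjTranspose_mul]
    calc U * Uᴴ = U * (P * Pᴴ) * Uᴴ := by rw [hP1, Matrix.mul_one]
      _ = _ := by simp only [Matrix.mul_assoc]
  have hVV : V * Vᴴ = (V * P) * (V * P)ᴴ := by
    rw [conjTranspose_mul]
    calc V * Vᴴ = V * (P * Pᴴ) * Vᴴ := by rw [hP1, Matrix.mul_one]
      _ = _ := by simp only [Matrix.mul_assoc]
  rw [hUU, hVV]
  have hquad := quad_part (U * P) (V * P) (fun i j => q.eval (a i + a j))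
    (fun i j => by rw [add_comm])
  have hcub := cubic_part h0 h1 hη hηc (U * P) a ha
    (fun p r s => 2 * D q (a p) (a r) (a s) + q.eval (a p + a s) * q.eval (a r + a s))
    (fun p r s => hq _ (ha p) _ (ha r) _ (ha s))
  have e : ∑ p, ∑ r, ∑ s, (((U * P)ᴴ * (U * P)) p r * ((U * P)ᴴ * (U * P)) r s *
        ((U * P)ᴴ * (U * P)) s p).re *
        (2 * D q (a p) (a r) (a s) + q.eval (a p + a s) * q.eval (a r + a s)) =
      ∑ p, ∑ r, ∑ s, (((U * P)ᴴ * (U * P)) p r * ((U * P)ᴴ * (U * P)) r s *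
        ((U * P)ᴴ * (U * P)) s p).re * (q.eval (a p + a s) * q.eval (a r + a s)) +
      2 * ∑ p, ∑ r, ∑ s, (((U * P)ᴴ * (U * P)) p r * ((U * P)ᴴ * (U * P)) r s *
        ((U * P)ᴴ * (U * P)) s p).re * D q (a p) (a r) (a s) := by
    simp_rw [Finset.mul_sum, ← Finset.sum_add_distrib]
    refine Finset.sum_congr rfl fun p _ => Finset.sum_congr rfl fun r _ =>
        Finset.sum_congr rfl fun s _ => ?_
    ring
  rw [e] at hcub
  linarith

end P371
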